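import Vale.Agent.P150.GaussCalc

/-!
P150 module KAHANE: Slepian/Kahane comparison for `Φ(x) = (∑_u e^{θ x_u})^s`, `0 < s ≤ 1`.

Proof. On `ι ⊕ κ` with `z` standard Gaussian put `W_u(φ) = cos φ ∑_i a u i z (inl i) + sin φ ∑_k b u k z (inr k)`
and `m(φ) = E Φ(W(φ))`.  `m(0)` is the left side, `m(π/2)` the right side.  Differentiate under
the integral (`hasDerivAt_integral_stdG`) and integrate by parts (`gauss_ibp`):
`m'(φ) = sin φ cos φ ∑_{u,v} (⟨b_u,b_v⟩ - ⟨a_u,a_v⟩) E[∂_u∂_v Φ(W)]`.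
For `u ≠ v`: `∂_u∂_vΦ = s(s-1) θ² e^{θx_u}e^{θx_v} S^{s-2} ≤ 0`; the diagonal terms cancel
(`hdiag`), and `⟨b_u,b_v⟩ ≤ ⟨a_u,a_v⟩`, so `m' ≥ 0` on `[0, π/2]`.
-/

namespace Vale.Agent.P150

open MeasureTheory ProbabilityTheory
open scoped BigOperators

namespace Kahane

noncomputable section

variable {J : Type*} [Fintype J]

/-- `exp (θ ⟨c,z⟩)`. -/
def ex (θ : ℝ) (c : J → ℝ) (z : J → ℝ) : ℝ := Real.exp (θ * ∑ j, c j * z j)

/-- `∑_u exp (θ ⟨w_u,z⟩)`. -/
def S {N : ℕ} (θ : ℝ) (w : Fin N → J → ℝ) (z : J → ℝ) : ℝ := ∑ u, ex θ (w u) z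

lemma ex_pos (θ : ℝ) (c z : J → ℝ) : 0 < ex θ c z := Real.exp_pos _

lemma S_pos {N : ℕ} (hN : 0 < N) (θ : ℝ) (w : Fin N → J → ℝ) (z : J → ℝ) : 0 < S θ w z := by
  have : Nonempty (Fin N) := ⟨⟨0, hN⟩⟩
  exact Finset.sum_pos (fun u _ => ex_pos θ (w u) z) Finset.univ_nonempty

lemma ex_le_S {N : ℕ} (θ : ℝ) (w : Fin N → J → ℝ) (z : J → ℝ) (u : Fin N) :
    ex θ (w u) z ≤ S θ w z :=
  Finset.single_le_sum (f := fun u => ex θ (w u) z) (fun v _ => (ex_pos θ (w v) z).le)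
    (Finset.mem_univ u)

lemma continuous_ex (θ : ℝ) (c : J → ℝ) : Continuous (ex θ c) := by
  unfold ex; fun_prop

lemma continuous_S {N : ℕ} (θ : ℝ) (w : Fin N → J → ℝ) : Continuous (S θ w) :=
  continuous_finsetSum _ fun u _ => continuous_ex θ (w u)

lemma continuous_Spow {N : ℕ} (hN : 0 < N) (θ : ℝ) (w : Fin N → J → ℝ) (p : ℝ) :
    Continuous fun z => (S θ w z) ^ p :=
  (continuous_S θ w).rpow_const fun z => Or.inl (S_pos hN θ w z).ne'

lemma lin_le {K : ℝ} (c z : J → ℝ) (hc : ∀ j, |c j| ≤ K) : |∑ j, c j * z j| ≤ K * ∑ j, |z j| := by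
  calc |∑ j, c j * z j| ≤ ∑ j, |c j * z j| := Finset.abs_sum_le_sum_abs _ _
    _ ≤ ∑ j, K * |z j| := Finset.sum_le_sum fun j _ => by
        rw [abs_mul]; exact mul_le_mul_of_nonneg_right (hc j) (abs_nonneg _)
    _ = K * ∑ j, |z j| := by rw [Finset.mul_sum]

lemma S_le {N : ℕ} {θ K : ℝ} (hθ : 0 < θ) (w : Fin N → J → ℝ) (z : J → ℝ)
    (hw : ∀ u j, |w u j| ≤ K) : S θ w z ≤ N * Real.exp (θ * K * ∑ j, |z j|) := by
  have : ∀ u : Fin N, ex θ (w u) z ≤ Real.exp (θ * K * ∑ j, |z j|) := by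
    intro u
    apply Real.exp_le_exp.2
    have h := (abs_le.1 (lin_le (w u) z (hw u))).2
    calc θ * ∑ j, w u j * z j ≤ θ * (K * ∑ j, |z j|) := mul_le_mul_of_nonneg_left h hθ.le
      _ = θ * K * ∑ j, |z j| := by ring
  calc S θ w z ≤ ∑ _u : Fin N, Real.exp (θ * K * ∑ j, |z j|) :=
        Finset.sum_le_sum fun u _ => this u
    _ = N * Real.exp (θ * K * ∑ j, |z j|) := by simp

lemma pow_le_one_add {x s : ℝ} (hx : 0 < x) (hs0 : 0 < s) (hs1 : s ≤ 1) : x ^ s ≤ 1 + x := by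
  rcases le_total x 1 with h | h
  · have := Real.rpow_le_one hx.le h hs0.le
    linarith
  · have := Real.rpow_le_rpow_of_exponent_le h hs1
    rw [Real.rpow_one] at this
    linarith

lemma Spow_le {N : ℕ} {θ K s : ℝ} (hN : 0 < N) (hθ : 0 < θ) (hK : 0 ≤ K) (hs0 : 0 < s)
    (hs1 : s ≤ 1) (w : Fin N → J → ℝ) (z : J → ℝ) (hw : ∀ u j, |w u j| ≤ K) :
    (S θ w z) ^ s ≤ (N + 1) * Real.exp (θ * K * ∑ j, |z j|) := by
  have h1 := pow_le_one_add (S_pos hN θ w z) hs0 hs1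
  have h2 := S_le hθ w z hw
  have hT : 0 ≤ ∑ j, |z j| := Finset.sum_nonneg fun _ _ => abs_nonneg _
  have h3 : 1 ≤ Real.exp (θ * K * ∑ j, |z j|) := Real.one_le_exp (by positivity)
  linarith

/-- `G_u = s θ S^{s-1} e^{θ w_u}`. -/
def G {N : ℕ} (θ s : ℝ) (w : Fin N → J → ℝ) (u : Fin N) (z : J → ℝ) : ℝ :=
  s * θ * ((S θ w z) ^ (s - 1) * ex θ (w u) z)

/-- the `z_j` derivative of `G_u`. -/
def G' {N : ℕ} (θ s : ℝ) (w : Fin N → J → ℝ) (u : Fin N) (j : J) (z : J → ℝ) : ℝ :=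
  s * θ * ((∑ v, ex θ (w v) z * (θ * w v j)) * (s - 1) * (S θ w z) ^ (s - 1 - 1) * ex θ (w u) z
    + (S θ w z) ^ (s - 1) * (ex θ (w u) z * (θ * w u j)))

lemma continuous_G {N : ℕ} (hN : 0 < N) (θ s : ℝ) (w : Fin N → J → ℝ) (u : Fin N) :
    Continuous (G θ s w u) := by
  unfold G
  exact continuous_const.mul ((continuous_Spow hN θ w _).mul (continuous_ex θ (w u)))

lemma continuous_G' {N : ℕ} (hN : 0 < N) (θ s : ℝ) (w : Fin N → J → ℝ) (u : Fin N) (j : J) :
    Continuous (G' θ s w u j) := by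
  unfold G'
  refine continuous_const.mul (Continuous.add ?_ ?_)
  · refine ((Continuous.mul ?_ continuous_const).mul (continuous_Spow hN θ w _)).mul
      (continuous_ex θ (w u))
    exact continuous_finsetSum _ fun v _ => (continuous_ex θ (w v)).mul continuous_const
  · exact (continuous_Spow hN θ w _).mul ((continuous_ex θ (w u)).mul continuous_const)

lemma hasDerivAt_ex_update [DecidableEq J] (θ : ℝ) (c z : J → ℝ) (j : J) :
    HasDerivAt (fun t => ex θ c (Function.update z j t)) (ex θ c z * (θ * c j)) (z j) := by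
  have h1 : ∀ k, HasDerivAt (fun t => c k * Function.update z j t k)
      (if k = j then c j else 0) (z j) := by
    intro k
    by_cases hk : k = j
    · subst hk
      simp only [Function.update_self, if_true]
      simpa using (hasDerivAt_id (z k)).const_mul (c k)
    · simp only [Function.update_of_ne hk, hk, if_false]
      exact hasDerivAt_const _ _
  have h2 : HasDerivAt (fun t => ∑ k, c k * Function.update z j t k) (c j) (z j) := by
    have := HasDerivAt.fun_sum (u := Finset.univ) (fun k _ => h1 k)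
    simpa using this
  have h3 := (h2.const_mul θ).exp
  have e : Function.update z j (z j) = z := Function.update_eq_self j z
  simp only [e] at h3
  exact h3

lemma hasDerivAt_G [DecidableEq J] {N : ℕ} (hN : 0 < N) (θ s : ℝ) (w : Fin N → J → ℝ)
    (u : Fin N) (j : J) (z : J → ℝ) :
    HasDerivAt (fun t => G θ s w u (Function.update z j t)) (G' θ s w u j z) (z j) := by
  have hS : HasDerivAt (fun t => S θ w (Function.update z j t))
      (∑ v, ex θ (w v) z * (θ * w v j)) (z j) := by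
    unfold S
    exact HasDerivAt.fun_sum (fun v _ => hasDerivAt_ex_update θ (w v) z j)
  have e : Function.update z j (z j) = z := Function.update_eq_self j z
  have hP := hS.rpow_const (p := s - 1) (Or.inl (S_pos hN θ w _).ne')
  have hE := hasDerivAt_ex_update θ (w u) z j
  have h := (hP.mul hE).const_mul (s * θ)
  simp only [e] at h
  exact h

lemma Spow_mul_ex_le {N : ℕ} (hN : 0 < N) (θ s : ℝ) (w : Fin N → J → ℝ) (z : J → ℝ)
    (u : Fin N) : (S θ w z) ^ (s - 1) * ex θ (w u) z ≤ (S θ w z) ^ s := by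
  have hp := S_pos hN θ w z
  calc (S θ w z) ^ (s - 1) * ex θ (w u) z ≤ (S θ w z) ^ (s - 1) * S θ w z :=
        mul_le_mul_of_nonneg_left (ex_le_S θ w z u) (Real.rpow_nonneg hp.le _)
    _ = (S θ w z) ^ s := by
        rw [Real.rpow_sub_one hp.ne', div_mul_cancel₀ _ hp.ne']

lemma abs_G_le {N : ℕ} (hN : 0 < N) {θ s : ℝ} (hθ : 0 < θ) (hs0 : 0 < s)
    (w : Fin N → J → ℝ) (u : Fin N) (z : J → ℝ) :
    |G θ s w u z| ≤ s * θ * (S θ w z) ^ s := by
  have h0 : 0 ≤ (S θ w z) ^ (s - 1) * ex θ (w u) z :=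
    mul_nonneg (Real.rpow_nonneg (S_pos hN θ w z).le _) (ex_pos _ _ _).le
  unfold G
  rw [abs_of_nonneg (by positivity)]
  exact mul_le_mul_of_nonneg_left (Spow_mul_ex_le hN θ s w z u) (by positivity)

lemma abs_G'_le {N : ℕ} (hN : 0 < N) {θ s K : ℝ} (hθ : 0 < θ) (hs0 : 0 < s) (hs1 : s ≤ 1)
    (hK : 0 ≤ K) (w : Fin N → J → ℝ) (hw : ∀ u j, |w u j| ≤ K) (u : Fin N) (j : J) (z : J → ℝ) :
    |G' θ s w u j z| ≤ 2 * (s * θ * (θ * K)) * (S θ w z) ^ s := by
  have hp := S_pos hN θ w z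
  have h0 : 0 ≤ (S θ w z) ^ (s - 1) * ex θ (w u) z :=
    mul_nonneg (Real.rpow_nonneg hp.le _) (ex_pos _ _ _).le
  have hle := Spow_mul_ex_le hN θ s w z u
  have hsum : |∑ v, ex θ (w v) z * (θ * w v j)| ≤ θ * K * S θ w z := by
    calc |∑ v, ex θ (w v) z * (θ * w v j)| ≤ ∑ v, |ex θ (w v) z * (θ * w v j)| :=
          Finset.abs_sum_le_sum_abs _ _
      _ ≤ ∑ v, ex θ (w v) z * (θ * K) := by
          refine Finset.sum_le_sum fun v _ => ?_
          rw [abs_mul, abs_of_pos (ex_pos _ _ _), abs_mul, abs_of_pos hθ]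
          exact mul_le_mul_of_nonneg_left (mul_le_mul_of_nonneg_left (hw v j) hθ.le)
            (ex_pos _ _ _).le
      _ = θ * K * S θ w z := by rw [← Finset.sum_mul]; unfold S; ring
  have hpow : (S θ w z) ^ (s - 1 - 1) * S θ w z = (S θ w z) ^ (s - 1) := by
    rw [Real.rpow_sub_one hp.ne' (s - 1), div_mul_cancel₀ _ hp.ne']
  have t1 : |(∑ v, ex θ (w v) z * (θ * w v j)) * (s - 1) * (S θ w z) ^ (s - 1 - 1) *
      ex θ (w u) z| ≤ θ * K * ((S θ w z) ^ (s - 1) * ex θ (w u) z) := by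
    rw [abs_mul, abs_mul, abs_mul, abs_of_pos (ex_pos _ _ _),
      abs_of_nonneg (Real.rpow_nonneg hp.le _)]
    have hs' : |s - 1| ≤ 1 := by rw [abs_le]; constructor <;> linarith
    calc |∑ v, ex θ (w v) z * (θ * w v j)| * |s - 1| * (S θ w z) ^ (s - 1 - 1) * ex θ (w u) z
        ≤ (θ * K * S θ w z) * 1 * (S θ w z) ^ (s - 1 - 1) * ex θ (w u) z := by
          have hex := (ex_pos θ (w u) z).le
          have hr := Real.rpow_nonneg hp.le (s - 1 - 1)
          gcongr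
      _ = θ * K * (((S θ w z) ^ (s - 1 - 1) * S θ w z) * ex θ (w u) z) := by ring
      _ = θ * K * ((S θ w z) ^ (s - 1) * ex θ (w u) z) := by rw [hpow]
  have t2 : |(S θ w z) ^ (s - 1) * (ex θ (w u) z * (θ * w u j))|
      ≤ θ * K * ((S θ w z) ^ (s - 1) * ex θ (w u) z) := by
    rw [← mul_assoc, abs_mul, abs_of_nonneg h0, abs_mul, abs_of_pos hθ]
    calc (S θ w z) ^ (s - 1) * ex θ (w u) z * (θ * |w u j|)
        ≤ (S θ w z) ^ (s - 1) * ex θ (w u) z * (θ * K) := by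
          have := hw u j
          gcongr
      _ = θ * K * ((S θ w z) ^ (s - 1) * ex θ (w u) z) := by ring
  unfold G'
  rw [abs_mul, abs_of_pos (by positivity : 0 < s * θ)]
  calc s * θ * |(∑ v, ex θ (w v) z * (θ * w v j)) * (s - 1) * (S θ w z) ^ (s - 1 - 1) *
        ex θ (w u) z + (S θ w z) ^ (s - 1) * (ex θ (w u) z * (θ * w u j))|
      ≤ s * θ * (θ * K * ((S θ w z) ^ (s - 1) * ex θ (w u) z)
        + θ * K * ((S θ w z) ^ (s - 1) * ex θ (w u) z)) := by
        refine mul_le_mul_of_nonneg_left ?_ (by positivity)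
        exact (abs_add_le _ _).trans (add_le_add t1 t2)
    _ = 2 * (s * θ * (θ * K)) * ((S θ w z) ^ (s - 1) * ex θ (w u) z) := by ring
    _ ≤ 2 * (s * θ * (θ * K)) * (S θ w z) ^ s := mul_le_mul_of_nonneg_left hle (by positivity)

lemma EG_Spow {N : ℕ} (hN : 0 < N) {θ s K : ℝ} (hθ : 0 < θ) (hs0 : 0 < s) (hs1 : s ≤ 1)
    (hK : 0 ≤ K) (w : Fin N → J → ℝ) (hw : ∀ u j, |w u j| ≤ K) :
    EG (fun z => (S θ w z) ^ s) := by
  refine ⟨(N + 1) + θ * K, fun z => ?_⟩
  have hT : 0 ≤ ∑ j, |z j| := Finset.sum_nonneg fun _ _ => abs_nonneg _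
  rw [abs_of_nonneg (Real.rpow_nonneg (S_pos hN θ w z).le _)]
  refine (Spow_le hN hθ hK hs0 hs1 w z hw).trans ?_
  have h1 : 0 ≤ θ * K := by positivity
  have hN0 : (0 : ℝ) ≤ N := Nat.cast_nonneg N
  refine mul_le_mul (by linarith) (Real.exp_le_exp.2 ?_) (Real.exp_pos _).le (by linarith)
  exact mul_le_mul_of_nonneg_right (by linarith) hT

lemma EG_G {N : ℕ} (hN : 0 < N) {θ s K : ℝ} (hθ : 0 < θ) (hs0 : 0 < s) (hs1 : s ≤ 1)
    (hK : 0 ≤ K) (w : Fin N → J → ℝ) (hw : ∀ u j, |w u j| ≤ K) (u : Fin N) :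
    EG (G θ s w u) := by
  refine EG.mono ((EG.const (s * θ)).mul (EG_Spow hN hθ hs0 hs1 hK w hw)) fun z => ?_
  refine (abs_G_le hN hθ hs0 w u z).trans ?_
  rw [abs_of_nonneg (mul_nonneg (by positivity) (Real.rpow_nonneg (S_pos hN θ w z).le _))]

lemma EG_G' {N : ℕ} (hN : 0 < N) {θ s K : ℝ} (hθ : 0 < θ) (hs0 : 0 < s) (hs1 : s ≤ 1)
    (hK : 0 ≤ K) (w : Fin N → J → ℝ) (hw : ∀ u j, |w u j| ≤ K) (u : Fin N) (j : J) :
    EG (G' θ s w u j) := by
  refine EG.mono ((EG.const (2 * (s * θ * (θ * K)))).mul (EG_Spow hN hθ hs0 hs1 hK w hw))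
    fun z => ?_
  refine (abs_G'_le hN hθ hs0 hs1 hK w hw u j z).trans ?_
  rw [abs_of_nonneg (mul_nonneg (by positivity) (Real.rpow_nonneg (S_pos hN θ w z).le _))]

/-- The `φ` derivative of `S^s`. -/
def F' {N : ℕ} (θ s : ℝ) (w w' : Fin N → J → ℝ) (z : J → ℝ) : ℝ :=
  ∑ u, ∑ j, w' u j * (z j * G θ s w u z)

lemma continuous_F' {N : ℕ} (hN : 0 < N) (θ s : ℝ) (w w' : Fin N → J → ℝ) :
    Continuous (F' θ s w w') := by
  unfold F'
  refine continuous_finsetSum _ fun u _ => continuous_finsetSum _ fun j _ => ?_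
  exact continuous_const.mul ((continuous_apply j).mul (continuous_G hN θ s w u))

lemma hasDerivAt_F {N : ℕ} (hN : 0 < N) (θ s : ℝ) (W W' : ℝ → Fin N → J → ℝ)
    (hW : ∀ t u j, HasDerivAt (fun t => W t u j) (W' t u j) t) (t : ℝ) (z : J → ℝ) :
    HasDerivAt (fun t => (S θ (W t) z) ^ s) (F' θ s (W t) (W' t) z) t := by
  have h1 : ∀ u, HasDerivAt (fun t => ex θ (W t u) z)
      (ex θ (W t u) z * (θ * ∑ j, W' t u j * z j)) t := by
    intro u
    have h := HasDerivAt.fun_sum (u := Finset.univ) (fun j _ => (hW t u j).mul_const (z j))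
    exact (h.const_mul θ).exp
  have h2 : HasDerivAt (fun t => S θ (W t) z) (∑ u, ex θ (W t u) z * (θ * ∑ j, W' t u j * z j)) t := by
    unfold S
    exact HasDerivAt.fun_sum (fun u _ => h1 u)
  have h3 := h2.rpow_const (p := s) (Or.inl (S_pos hN θ (W t) z).ne')
  refine h3.congr_deriv ?_
  unfold F' G
  rw [Finset.sum_mul, Finset.sum_mul]
  refine Finset.sum_congr rfl fun u _ => ?_
  rw [Finset.mul_sum, Finset.mul_sum, Finset.sum_mul, Finset.sum_mul]
  refine Finset.sum_congr rfl fun j _ => ?_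
  ring

lemma abs_F'_le {N : ℕ} (hN : 0 < N) {θ s K : ℝ} (hθ : 0 < θ) (hs0 : 0 < s) (hs1 : s ≤ 1)
    (hK : 0 ≤ K) (w w' : Fin N → J → ℝ) (hw : ∀ u j, |w u j| ≤ K) (hw' : ∀ u j, |w' u j| ≤ K)
    (z : J → ℝ) : |F' θ s w w' z| ≤ (N * K * (s * θ) * (N + 1) + (θ * K + 1)) *
      Real.exp ((N * K * (s * θ) * (N + 1) + (θ * K + 1)) * ∑ j, |z j|) := by
  have hT : 0 ≤ ∑ j, |z j| := Finset.sum_nonneg fun _ _ => abs_nonneg _
  have hp := S_pos hN θ w z
  have hSs := Spow_le hN hθ hK hs0 hs1 w z hw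
  have hSs0 : 0 ≤ (S θ w z) ^ s := Real.rpow_nonneg hp.le _
  have hexp : ∑ j, |z j| ≤ Real.exp (∑ j, |z j|) := by
    linarith [Real.add_one_le_exp (∑ j, |z j|)]
  have hu : ∀ u : Fin N, |∑ j, w' u j * (z j * G θ s w u z)|
      ≤ K * (∑ j, |z j|) * (s * θ * (S θ w z) ^ s) := by
    intro u
    have e : ∑ j, w' u j * (z j * G θ s w u z) = (∑ j, w' u j * z j) * G θ s w u z := by
      rw [Finset.sum_mul]; exact Finset.sum_congr rfl fun j _ => by ring
    rw [e, abs_mul]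
    exact mul_le_mul (lin_le (w' u) z (hw' u)) (abs_G_le hN hθ hs0 w u z) (abs_nonneg _)
      (by positivity)
  calc |F' θ s w w' z| ≤ ∑ u, |∑ j, w' u j * (z j * G θ s w u z)| :=
        Finset.abs_sum_le_sum_abs _ _
    _ ≤ ∑ _u : Fin N, K * (∑ j, |z j|) * (s * θ * (S θ w z) ^ s) :=
        Finset.sum_le_sum fun u _ => hu u
    _ = N * (K * (∑ j, |z j|) * (s * θ * (S θ w z) ^ s)) := by simp
    _ ≤ N * (K * Real.exp (∑ j, |z j|) * (s * θ * ((N + 1) * Real.exp (θ * K * ∑ j, |z j|)))) := by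
        gcongr
    _ = (N * K * (s * θ) * (N + 1)) * Real.exp ((θ * K + 1) * ∑ j, |z j|) := by
        rw [show (θ * K + 1) * ∑ j, |z j| = θ * K * (∑ j, |z j|) + ∑ j, |z j| by ring,
          Real.exp_add]
        ring
    _ ≤ (N * K * (s * θ) * (N + 1) + (θ * K + 1)) *
      Real.exp ((N * K * (s * θ) * (N + 1) + (θ * K + 1)) * ∑ j, |z j|) := by
        have h1 : 0 ≤ θ * K := by positivity
        have h2 : 0 ≤ N * K * (s * θ) * (N + 1) := by positivity
        refine mul_le_mul (by linarith) (Real.exp_le_exp.2 ?_) (Real.exp_pos _).le (by linarith)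
        exact mul_le_mul_of_nonneg_right (by linarith) hT

/-- Integration by parts. -/
lemma integral_F' {N : ℕ} (hN : 0 < N) {θ s K : ℝ} (hθ : 0 < θ) (hs0 : 0 < s) (hs1 : s ≤ 1)
    (hK : 0 ≤ K) (w w' : Fin N → J → ℝ) (hw : ∀ u j, |w u j| ≤ K) :
    ∫ z, F' θ s w w' z ∂(stdG J) = ∫ z, ∑ u, ∑ j, w' u j * G' θ s w u j z ∂(stdG J) := by
  classical
  have i1 : ∀ u j, Integrable (fun z : J → ℝ => w' u j * (z j * G θ s w u z)) (stdG J) :=
    fun u j => ((((EG.coord j).mul (EG_G hN hθ hs0 hs1 hK w hw u)).integrable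
      ((continuous_apply j).mul (continuous_G hN θ s w u)))).const_mul _
  have i2 : ∀ u j, Integrable (fun z : J → ℝ => w' u j * G' θ s w u j z) (stdG J) :=
    fun u j => ((EG_G' hN hθ hs0 hs1 hK w hw u j).integrable
      (continuous_G' hN θ s w u j)).const_mul _
  unfold F'
  rw [integral_finsetSum _ fun u _ => integrable_finsetSum _ fun j _ => i1 u j,
    integral_finsetSum _ fun u _ => integrable_finsetSum _ fun j _ => i2 u j]
  refine Finset.sum_congr rfl fun u _ => ?_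
  rw [integral_finsetSum _ fun j _ => i1 u j, integral_finsetSum _ fun j _ => i2 u j]
  refine Finset.sum_congr rfl fun j _ => ?_
  rw [integral_const_mul, integral_const_mul]
  congr 1
  exact gauss_ibp j (G θ s w u) (G' θ s w u j) (continuous_G hN θ s w u)
    (continuous_G' hN θ s w u j) (fun z => hasDerivAt_G hN θ s w u j z)
    (EG_G hN hθ hs0 hs1 hK w hw u) (EG_G' hN hθ hs0 hs1 hK w hw u j)

lemma integrand_nonneg {N : ℕ} (hN : 0 < N) {θ s : ℝ} (hθ : 0 < θ) (hs0 : 0 < s) (hs1 : s ≤ 1)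
    (w w' : Fin N → J → ℝ) (hp : ∀ u v, ∑ j, w' u j * w v j ≤ 0)
    (hd : ∀ u, ∑ j, w' u j * w u j = 0) (z : J → ℝ) :
    0 ≤ ∑ u, ∑ j, w' u j * G' θ s w u j z := by
  refine Finset.sum_nonneg fun u _ => ?_
  have e : ∑ j, w' u j * G' θ s w u j z
      = s * θ * ((S θ w z) ^ (s - 1 - 1) * ex θ (w u) z * ((s - 1) *
          ∑ v, ex θ (w v) z * (θ * ∑ j, w' u j * w v j))
        + (S θ w z) ^ (s - 1) * ex θ (w u) z * (θ * ∑ j, w' u j * w u j)) := by
    have e1 : ∑ v, ex θ (w v) z * (θ * ∑ j, w' u j * w v j)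
        = ∑ j, w' u j * ∑ v, ex θ (w v) z * (θ * w v j) := by
      simp only [Finset.mul_sum]
      rw [Finset.sum_comm]
      exact Finset.sum_congr rfl fun j _ => Finset.sum_congr rfl fun v _ => by ring
    rw [e1]
    unfold G'
    simp only [Finset.mul_sum (Finset.univ : Finset J)]
    rw [← Finset.sum_add_distrib, Finset.mul_sum]
    exact Finset.sum_congr rfl fun j _ => by ring
  rw [e, hd u]
  have hpos := S_pos hN θ w z
  have h1 : ∑ v, ex θ (w v) z * (θ * ∑ j, w' u j * w v j) ≤ 0 := by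
    refine Finset.sum_nonpos fun v _ => ?_
    exact mul_nonpos_of_nonneg_of_nonpos (ex_pos _ _ _).le
      (mul_nonpos_of_nonneg_of_nonpos hθ.le (hp u v))
  have h2 : 0 ≤ (s - 1) * ∑ v, ex θ (w v) z * (θ * ∑ j, w' u j * w v j) :=
    mul_nonneg_of_nonpos_of_nonpos (by linarith) h1
  have h3 : 0 ≤ (S θ w z) ^ (s - 1 - 1) * ex θ (w u) z :=
    mul_nonneg (Real.rpow_nonneg hpos.le _) (ex_pos _ _ _).le
  rw [mul_zero, mul_zero, add_zero]
  positivity

theorem mono {N : ℕ} (hN : 0 < N) {θ s K : ℝ} (hθ : 0 < θ) (hs0 : 0 < s) (hs1 : s ≤ 1)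
    (hK : 0 ≤ K) (W W' : ℝ → Fin N → J → ℝ)
    (hW : ∀ t u j, HasDerivAt (fun t => W t u j) (W' t u j) t)
    (hw : ∀ t u j, |W t u j| ≤ K) (hw' : ∀ t u j, |W' t u j| ≤ K) {A B : ℝ} (hAB : A ≤ B)
    (hp : ∀ t ∈ Set.Icc A B, ∀ u v, ∑ j, W' t u j * W t v j ≤ 0)
    (hd : ∀ t u, ∑ j, W' t u j * W t u j = 0) :
    ∫ z, (S θ (W A) z) ^ s ∂(stdG J) ≤ ∫ z, (S θ (W B) z) ^ s ∂(stdG J) := by
  have hder : ∀ t, HasDerivAt (fun t => ∫ z, (S θ (W t) z) ^ s ∂(stdG J))
      (∫ z, F' θ s (W t) (W' t) z ∂(stdG J)) t := by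
    intro t
    exact hasDerivAt_integral_stdG (fun t z => (S θ (W t) z) ^ s) (fun t => F' θ s (W t) (W' t))
      (fun t => continuous_Spow hN θ (W t) s) (fun t => continuous_F' hN θ s (W t) (W' t))
      (fun t z => hasDerivAt_F hN θ s W W' hW t z)
      (fun t => EG_Spow hN hθ hs0 hs1 hK (W t) (hw t))
      (fun _ => ⟨_, fun t _ z => abs_F'_le hN hθ hs0 hs1 hK (W t) (W' t) (hw t) (hw' t) z⟩) t
  have hmono : MonotoneOn (fun t => ∫ z, (S θ (W t) z) ^ s ∂(stdG J)) (Set.Icc A B) := by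
    refine monotoneOn_of_deriv_nonneg (convex_Icc A B)
      (fun t _ => (hder t).continuousAt.continuousWithinAt)
      (fun t _ => (hder t).differentiableAt.differentiableWithinAt) ?_
    intro t ht
    rw [(hder t).deriv, integral_F' hN hθ hs0 hs1 hK (W t) (W' t) (hw t)]
    exact integral_nonneg fun z => integrand_nonneg hN hθ hs0 hs1 (W t) (W' t)
      (hp t (interior_subset ht)) (hd t) z
  exact hmono (Set.left_mem_Icc.2 hAB) (Set.right_mem_Icc.2 hAB) hAB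

lemma map_inl (ι κ : Type*) [Fintype ι] [Fintype κ] :
    Measure.map (fun (z : ι ⊕ κ → ℝ) (i : ι) => z (Sum.inl i)) (stdG (ι ⊕ κ)) = stdG ι := by
  symm
  unfold stdG
  refine Measure.pi_eq fun s hs => ?_
  have hm : Measurable (fun (z : ι ⊕ κ → ℝ) (i : ι) => z (Sum.inl i)) :=
    measurable_pi_iff.2 fun i => measurable_pi_apply _
  rw [Measure.map_apply hm (MeasurableSet.univ_pi hs)]
  have hpre : (fun (z : ι ⊕ κ → ℝ) (i : ι) => z (Sum.inl i)) ⁻¹' (Set.univ.pi s)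
      = Set.univ.pi (Sum.elim s fun _ => Set.univ) := by
    ext z
    simp [Set.mem_pi]
  rw [hpre, Measure.pi_pi, Fintype.prod_sum_type]
  simp

lemma map_inr (ι κ : Type*) [Fintype ι] [Fintype κ] :
    Measure.map (fun (z : ι ⊕ κ → ℝ) (k : κ) => z (Sum.inr k)) (stdG (ι ⊕ κ)) = stdG κ := by
  symm
  unfold stdG
  refine Measure.pi_eq fun s hs => ?_
  have hm : Measurable (fun (z : ι ⊕ κ → ℝ) (i : κ) => z (Sum.inr i)) :=
    measurable_pi_iff.2 fun i => measurable_pi_apply _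
  rw [Measure.map_apply hm (MeasurableSet.univ_pi hs)]
  have hpre : (fun (z : ι ⊕ κ → ℝ) (i : κ) => z (Sum.inr i)) ⁻¹' (Set.univ.pi s)
      = Set.univ.pi (Sum.elim (fun _ => Set.univ) s) := by
    ext z
    simp [Set.mem_pi]
  rw [hpre, Measure.pi_pi, Fintype.prod_sum_type]
  simp

end

end Kahane

open Kahane in
theorem kahane {ι κ : Type*} [Fintype ι] [Fintype κ] {N : ℕ} (a : Fin N → ι → ℝ)
    (b : Fin N → κ → ℝ)
    (hdiag : ∀ u, ∑ i, a u i ^ 2 = ∑ k, b u k ^ 2)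
    (hoff : ∀ u v, ∑ k, b u k * b v k ≤ ∑ i, a u i * a v i)
    (θ s : ℝ) (hθ : 0 < θ) (hs0 : 0 < s) (hs1 : s ≤ 1) (hN : 0 < N) :
    ∫ z, (∑ u, Real.exp (θ * ∑ i, a u i * z i)) ^ s ∂(stdG ι)
      ≤ ∫ z, (∑ u, Real.exp (θ * ∑ k, b u k * z k)) ^ s ∂(stdG κ) := by
  classical
  let W : ℝ → Fin N → (ι ⊕ κ) → ℝ := fun t u =>
    Sum.elim (fun i => Real.cos t * a u i) (fun k => Real.sin t * b u k)
  let W' : ℝ → Fin N → (ι ⊕ κ) → ℝ := fun t u =>
    Sum.elim (fun i => - Real.sin t * a u i) (fun k => Real.cos t * b u k)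
  let K : ℝ := ∑ u, ((∑ i, |a u i|) + ∑ k, |b u k|)
  have hK : 0 ≤ K := Finset.sum_nonneg fun u _ => add_nonneg
    (Finset.sum_nonneg fun _ _ => abs_nonneg _) (Finset.sum_nonneg fun _ _ => abs_nonneg _)
  have hKu : ∀ u, (∑ i, |a u i|) + ∑ k, |b u k| ≤ K := fun u =>
    Finset.single_le_sum (f := fun u => (∑ i, |a u i|) + ∑ k, |b u k|)
      (fun u _ => add_nonneg (Finset.sum_nonneg fun _ _ => abs_nonneg _)
        (Finset.sum_nonneg fun _ _ => abs_nonneg _)) (Finset.mem_univ u)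
  have hKa : ∀ u i, |a u i| ≤ K := by
    intro u i
    have h1 := Finset.single_le_sum (f := fun i => |a u i|) (fun i _ => abs_nonneg _)
      (Finset.mem_univ i)
    have h2 : 0 ≤ ∑ k, |b u k| := Finset.sum_nonneg fun _ _ => abs_nonneg _
    have h3 := hKu u
    linarith
  have hKb : ∀ u k, |b u k| ≤ K := by
    intro u k
    have h1 := Finset.single_le_sum (f := fun k => |b u k|) (fun k _ => abs_nonneg _)
      (Finset.mem_univ k)
    have h2 : 0 ≤ ∑ i, |a u i| := Finset.sum_nonneg fun _ _ => abs_nonneg _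
    have h3 := hKu u
    linarith
  have hmul : ∀ c x : ℝ, |c| ≤ 1 → |x| ≤ K → |c * x| ≤ K := by
    intro c x hc hx
    rw [abs_mul]
    calc |c| * |x| ≤ 1 * |x| := mul_le_mul_of_nonneg_right hc (abs_nonneg _)
      _ ≤ K := by rw [one_mul]; exact hx
  have hW : ∀ t u j, HasDerivAt (fun t => W t u j) (W' t u j) t := by
    intro t u j
    rcases j with i | k
    · exact (Real.hasDerivAt_cos t).mul_const (a u i)
    · exact (Real.hasDerivAt_sin t).mul_const (b u k)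
  have hw : ∀ t u j, |W t u j| ≤ K := by
    intro t u j
    rcases j with i | k
    · exact hmul _ _ (Real.abs_cos_le_one t) (hKa u i)
    · exact hmul _ _ (Real.abs_sin_le_one t) (hKb u k)
  have hw' : ∀ t u j, |W' t u j| ≤ K := by
    intro t u j
    rcases j with i | k
    · exact hmul _ _ (by rw [abs_neg]; exact Real.abs_sin_le_one t) (hKa u i)
    · exact hmul _ _ (Real.abs_cos_le_one t) (hKb u k)
  have hsum : ∀ t u v, ∑ j, W' t u j * W t v j
      = Real.sin t * Real.cos t * ((∑ k, b u k * b v k) - ∑ i, a u i * a v i) := by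
    intro t u v
    rw [Fintype.sum_sum_type]
    simp only [W, W', Sum.elim_inl, Sum.elim_inr]
    rw [mul_sub, Finset.mul_sum, Finset.mul_sum, sub_eq_add_neg, ← Finset.sum_neg_distrib,
      add_comm]
    congr 1
    · exact Finset.sum_congr rfl fun k _ => by ring
    · exact Finset.sum_congr rfl fun i _ => by ring
  have hpi : (0 : ℝ) ≤ Real.pi / 2 := by positivity
  have hmono := mono hN hθ hs0 hs1 hK W W' hW hw hw' hpi (by
    intro t ht u v
    rw [hsum]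
    have h1 : 0 ≤ Real.sin t := Real.sin_nonneg_of_nonneg_of_le_pi ht.1 (by linarith [ht.2])
    have h2 : 0 ≤ Real.cos t := Real.cos_nonneg_of_neg_pi_div_two_le_of_le
      (by linarith [ht.1]) ht.2
    exact mul_nonpos_of_nonneg_of_nonpos (mul_nonneg h1 h2) (by linarith [hoff u v])) (by
    intro t u
    rw [hsum]
    have h := hdiag u
    simp only [pow_two] at h
    rw [h, sub_self, mul_zero])
  have hS0 : ∀ z : ι ⊕ κ → ℝ, S θ (W 0) z
      = ∑ u, Real.exp (θ * ∑ i, a u i * z (Sum.inl i)) := by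
    intro z
    unfold S ex
    refine Finset.sum_congr rfl fun u _ => ?_
    rw [Fintype.sum_sum_type]
    simp [W]
  have hS1 : ∀ z : ι ⊕ κ → ℝ, S θ (W (Real.pi / 2)) z
      = ∑ u, Real.exp (θ * ∑ k, b u k * z (Sum.inr k)) := by
    intro z
    unfold S ex
    refine Finset.sum_congr rfl fun u _ => ?_
    rw [Fintype.sum_sum_type]
    simp [W]
  have hm1 : Measurable (fun (z : ι ⊕ κ → ℝ) (i : ι) => z (Sum.inl i)) :=
    measurable_pi_iff.2 fun i => measurable_pi_apply _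
  have hm2 : Measurable (fun (z : ι ⊕ κ → ℝ) (k : κ) => z (Sum.inr k)) :=
    measurable_pi_iff.2 fun i => measurable_pi_apply _
  have hc1 : Continuous fun z : ι → ℝ => (∑ u, Real.exp (θ * ∑ i, a u i * z i)) ^ s :=
    continuous_Spow hN θ a s
  have hc2 : Continuous fun z : κ → ℝ => (∑ u, Real.exp (θ * ∑ i, b u i * z i)) ^ s :=
    continuous_Spow hN θ b s
  rw [← map_inl ι κ, ← map_inr ι κ,
    integral_map hm1.aemeasurable hc1.aestronglyMeasurable,
    integral_map hm2.aemeasurable hc2.aestronglyMeasurable]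
  simp only [hS0, hS1] at hmono
  exact hmono

end Vale.Agent.P150
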