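import Vale.Agent.P150.Defs

/-!
P150 module RMTROWS: row sums and maximal entry.

`E e^{λg²} = (1-2λ)^{-1/2}` for `λ < 1/2`.  Chernoff:
`P(∑_{p ∋ i} g_p² > (1+ε)n) ≤ e^{-λ(1+ε)n}(1-2λ)^{-n/2} = e^{-c n}` with `c = λ(1+ε) + ½log(1-2λ) > 0` for small `λ>0`;
union over `i`.  Maximal entry: `P(∃p, |g_p| > ε√n) ≤ n² E e^{|g|}... ` any tail (e.g. `e^{g²/4}` Markov).
-/

namespace Vale.Agent.P150

open MeasureTheory ProbabilityTheory Filter
open scoped BigOperators Topology

namespace Rmtrows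

instance (n : ℕ) : IsProbabilityMeasure (disorder n) := by
  unfold disorder
  infer_instance

end Rmtrows

/-- `E e^{λ g²} = (1 - 2λ)^{-1/2}`. -/
theorem integral_exp_sq_gauss (l : ℝ) (hl : l < 1 / 2) :
    ∫ x, Real.exp (l * x ^ 2) ∂(gaussianReal 0 1) = (1 - 2 * l) ^ (-(1 / 2) : ℝ) := by
  have hpos : 0 < 1 - 2 * l := by linarith
  rw [integral_gaussianReal_eq_integral_smul (by norm_num)]
  have e1 : ∀ x : ℝ, gaussianPDFReal 0 1 x • Real.exp (l * x ^ 2) =
      (Real.sqrt (2 * Real.pi))⁻¹ * Real.exp (-((1 - 2 * l) / 2) * x ^ 2) := by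
    intro x
    rw [gaussianPDFReal, smul_eq_mul, mul_assoc, ← Real.exp_add]
    simp only [NNReal.coe_one, mul_one, sub_zero]
    congr 2
    ring
  simp_rw [e1]
  rw [integral_const_mul, integral_gaussian, ← Real.sqrt_inv, ← Real.sqrt_mul (by positivity),
    Real.rpow_neg hpos.le, ← Real.sqrt_eq_rpow, ← Real.sqrt_inv]
  congr 1
  have := Real.pi_pos
  field_simp

theorem integrable_exp_sq_gauss (l : ℝ) (hl : l < 1 / 2) :
    Integrable (fun x => Real.exp (l * x ^ 2)) (gaussianReal 0 1) := by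
  by_contra h
  have h1 := integral_exp_sq_gauss l hl
  rw [integral_undef h] at h1
  have : 0 < (1 - 2 * l) ^ (-(1 / 2) : ℝ) := Real.rpow_pos_of_pos (by linarith) _
  linarith

namespace Rmtrows

theorem chern_aux {n : ℕ} (T : Finset (Pair n)) (l : ℝ) (g : Pair n → ℝ) :
    Real.exp (l * ∑ p ∈ T, g p ^ 2) =
      ∏ p : Pair n, (if p ∈ T then Real.exp (l * g p ^ 2) else 1) := by
  classical
  rw [Finset.mul_sum, Real.exp_sum, Finset.prod_ite_mem, Finset.univ_inter]

/-- Chernoff bound for sums of squares over a set of pairs -/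
theorem chern {n : ℕ} (T : Finset (Pair n)) (l a : ℝ) (hl0 : 0 ≤ l) (hl : l < 1 / 2) :
    disorder n {g | a < ∑ p ∈ T, g p ^ 2} ≤
      ENNReal.ofReal (Real.exp (-l * a) * ((1 - 2 * l) ^ (-(1 / 2) : ℝ)) ^ T.card) := by
  classical
  let f : Pair n → ℝ → ℝ := fun p x => if p ∈ T then Real.exp (l * x ^ 2) else 1
  have hf : ∀ p, Integrable (f p) (gaussianReal 0 1) := by
    intro p
    by_cases hp : p ∈ T
    · simp only [f, hp, if_true]
      exact integrable_exp_sq_gauss l hl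
    · simp only [f, hp, if_false]
      exact integrable_const _
  have hint : Integrable (fun g : Pair n → ℝ => Real.exp (l * ∑ p ∈ T, g p ^ 2)) (disorder n) := by
    have h := Integrable.fintype_prod (f := f) (μ := fun _ : Pair n => gaussianReal 0 1) hf
    refine h.congr (Filter.Eventually.of_forall (fun g => ?_))
    exact (chern_aux T l g).symm
  have hmgf : mgf (fun g : Pair n → ℝ => ∑ p ∈ T, g p ^ 2) (disorder n) l =
      ((1 - 2 * l) ^ (-(1 / 2) : ℝ)) ^ T.card := by
    unfold mgf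
    have e1 : ∀ g : Pair n → ℝ, Real.exp (l * ∑ p ∈ T, g p ^ 2) = ∏ p : Pair n, f p (g p) :=
      fun g => chern_aux T l g
    simp_rw [e1]
    unfold disorder
    rw [integral_fintype_prod_eq_prod]
    have e2 : ∀ p : Pair n, ∫ x, f p x ∂(gaussianReal 0 1) =
        if p ∈ T then (1 - 2 * l) ^ (-(1 / 2) : ℝ) else 1 := by
      intro p
      by_cases hp : p ∈ T
      · simp only [f, hp, if_true]
        exact integral_exp_sq_gauss l hl
      · simp only [f, hp, if_false]
        simp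
    simp_rw [e2]
    rw [Finset.prod_ite_mem, Finset.univ_inter, Finset.prod_const]
  have h := measure_ge_le_exp_mul_mgf (μ := disorder n)
    (X := fun g : Pair n → ℝ => ∑ p ∈ T, g p ^ 2) (t := l) a hl0 hint
  rw [hmgf] at h
  have hsub : {g : Pair n → ℝ | a < ∑ p ∈ T, g p ^ 2} ⊆ {g | a ≤ ∑ p ∈ T, g p ^ 2} :=
    fun g hg => by
      rw [Set.mem_ofPred_eq] at hg ⊢
      exact hg.le
  refine (measure_mono hsub).trans ?_
  rw [← ENNReal.ofReal_toReal (measure_ne_top (disorder n) {g | a ≤ ∑ p ∈ T, g p ^ 2})]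
  exact ENNReal.ofReal_le_ofReal h

/-- the pairs containing `i` -/
def Ti {n : ℕ} (i : Fin n) : Finset (Pair n) :=
  Finset.univ.filter (fun p => p.1.1 = i ∨ p.1.2 = i)

theorem card_Ti {n : ℕ} (i : Fin n) : (Ti i).card ≤ n := by
  classical
  have h : (Ti i).card ≤ (Finset.univ : Finset (Fin n)).card := by
    refine Finset.card_le_card_of_injOn (fun p => if p.1.1 = i then p.1.2 else p.1.1)
      (fun p _ => Finset.mem_coe.2 (Finset.mem_univ _)) ?_
    intro p hp q hq hpq
    rw [Finset.mem_coe, Ti, Finset.mem_filter] at hp hq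
    have hp1 := p.2
    have hq1 := q.2
    simp only at hpq
    apply Subtype.ext
    apply Prod.ext
    · by_cases h1 : p.1.1 = i
      · by_cases h2 : q.1.1 = i
        · rw [h1, h2]
        · rw [if_pos h1, if_neg h2] at hpq
          have h3 : q.1.2 = i := hq.2.resolve_left h2
          rw [h3, ← hpq] at hq1
          rw [h1] at hp1
          exact absurd hp1 (not_lt.2 hq1.le)
      · by_cases h2 : q.1.1 = i
        · rw [if_neg h1, if_pos h2] at hpq
          have h3 : p.1.2 = i := hp.2.resolve_left h1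
          rw [h3, hpq] at hp1
          rw [h2] at hq1
          exact absurd hp1 (not_lt.2 hq1.le)
        · rw [if_neg h1, if_neg h2] at hpq
          exact hpq
    · by_cases h1 : p.1.1 = i
      · by_cases h2 : q.1.1 = i
        · rw [if_pos h1, if_pos h2] at hpq
          exact hpq
        · rw [if_pos h1, if_neg h2] at hpq
          have h3 : q.1.2 = i := hq.2.resolve_left h2
          rw [h3, ← hpq] at hq1
          rw [h1] at hp1
          exact absurd hp1 (not_lt.2 hq1.le)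
      · by_cases h2 : q.1.1 = i
        · rw [if_neg h1, if_pos h2] at hpq
          have h3 : p.1.2 = i := hp.2.resolve_left h1
          rw [h3, hpq] at hp1
          rw [h2] at hq1
          exact absurd hp1 (not_lt.2 hq1.le)
        · rw [hp.2.resolve_left h1, hq.2.resolve_left h2]
  rwa [Finset.card_univ, Fintype.card_fin] at h

theorem card_Pair_le (n : ℕ) : Fintype.card (Pair n) ≤ n ^ 2 := by
  refine (Fintype.card_subtype_le _).trans ?_
  rw [Fintype.card_prod, Fintype.card_fin, sq]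

theorem tendsto_ofReal_zero {f : ℕ → ℝ} (h : Tendsto f atTop (𝓝 0)) :
    Tendsto (fun n => ENNReal.ofReal (f n)) atTop (𝓝 0) := by
  have := (ENNReal.continuous_ofReal.tendsto 0).comp h
  rwa [ENNReal.ofReal_zero] at this

end Rmtrows

open Rmtrows

theorem rmt_rows (ε : ℝ) (hε : 0 < ε) :
    Tendsto (fun n : ℕ => disorder n {g | ∃ i : Fin n,
      (1 + ε) * n < ∑ p : Pair n, if p.1.1 = i ∨ p.1.2 = i then g p ^ 2 else 0}) atTop (𝓝 0) := by
  classical
  set l : ℝ := ε / (4 * (1 + ε)) with hl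
  have hl0 : 0 < l := by positivity
  have hlε : l * (4 * (1 + ε)) = ε := by
    rw [hl]
    field_simp
  have hl1 : l < 1 / 4 := by
    by_contra hcon
    push Not at hcon
    nlinarith
  have hl2 : 0 < 1 - 2 * l := by linarith
  set r : ℝ := Real.exp (-l * (1 + ε)) * (1 - 2 * l) ^ (-(1 / 2) : ℝ) with hr
  have hr0 : 0 ≤ r := by positivity
  have hc1 : 1 ≤ (1 - 2 * l) ^ (-(1 / 2) : ℝ) :=
    Real.one_le_rpow_of_pos_of_le_one_of_nonpos hl2 (by linarith) (by norm_num)
  have hr1 : r < 1 := by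
    rw [hr, Real.rpow_def_of_pos hl2, ← Real.exp_add, Real.exp_lt_one_iff]
    have h1 : 1 - (1 - 2 * l)⁻¹ ≤ Real.log (1 - 2 * l) := Real.one_sub_inv_le_log_of_pos hl2
    have h2 : (1 - 2 * l)⁻¹ < 1 + 2 * (l * (1 + ε)) := by
      rw [inv_lt_iff_one_lt_mul₀ hl2]
      nlinarith
    nlinarith
  have hlim : Tendsto (fun n : ℕ => ENNReal.ofReal ((n : ℝ) * r ^ n)) atTop (𝓝 0) :=
    tendsto_ofReal_zero (tendsto_self_mul_const_pow_of_lt_one hr0 hr1)
  refine tendsto_of_tendsto_of_tendsto_of_le_of_le tendsto_const_nhds hlim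
    (fun n => by simp) (fun n => ?_)
  have hset : {g : Pair n → ℝ | ∃ i : Fin n,
      (1 + ε) * n < ∑ p : Pair n, if p.1.1 = i ∨ p.1.2 = i then g p ^ 2 else 0} =
      ⋃ i : Fin n, {g : Pair n → ℝ | (1 + ε) * n < ∑ p ∈ Ti i, g p ^ 2} := by
    ext g
    simp only [Set.mem_iUnion, Set.mem_ofPred_eq, Ti, Finset.sum_filter]
  simp only [hset]
  calc disorder n (⋃ i : Fin n, {g : Pair n → ℝ | (1 + ε) * n < ∑ p ∈ Ti i, g p ^ 2})
      ≤ ∑ i : Fin n, disorder n {g : Pair n → ℝ | (1 + ε) * n < ∑ p ∈ Ti i, g p ^ 2} :=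
        measure_iUnion_fintype_le _ _
    _ ≤ ∑ _i : Fin n, ENNReal.ofReal (r ^ n) := by
        refine Finset.sum_le_sum (fun i _ => (chern (Ti i) l _ hl0.le (by linarith)).trans ?_)
        apply ENNReal.ofReal_le_ofReal
        rw [hr, mul_pow, ← Real.exp_nat_mul]
        have e1 : -l * ((1 + ε) * (n : ℝ)) = (n : ℝ) * (-l * (1 + ε)) := by ring
        rw [e1]
        exact mul_le_mul_of_nonneg_left (pow_le_pow_right₀ hc1 (card_Ti i)) (Real.exp_pos _).le
    _ = ENNReal.ofReal ((n : ℝ) * r ^ n) := by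
        rw [Finset.sum_const, Finset.card_univ, Fintype.card_fin, nsmul_eq_mul,
          ENNReal.ofReal_mul (by positivity), ENNReal.ofReal_natCast]

theorem rmt_max (ε : ℝ) (hε : 0 < ε) :
    Tendsto (fun n : ℕ => disorder n {g | ∃ p : Pair n, ε * Real.sqrt n < |g p|})
      atTop (𝓝 0) := by
  classical
  set r : ℝ := Real.exp (-(1 / 4) * ε ^ 2) with hr
  have hr0 : 0 ≤ r := by positivity
  have hr1 : r < 1 := by
    rw [hr, Real.exp_lt_one_iff]
    nlinarith [sq_pos_of_pos hε]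
  set c : ℝ := (1 - 2 * (1 / 4 : ℝ)) ^ (-(1 / 2) : ℝ) with hc
  have hc0 : 0 ≤ c := by positivity
  have hlim : Tendsto (fun n : ℕ => ENNReal.ofReal (c * ((n : ℝ) ^ 2 * r ^ n))) atTop (𝓝 0) := by
    apply tendsto_ofReal_zero
    have := (tendsto_pow_const_mul_const_pow_of_lt_one 2 hr0 hr1).const_mul c
    rwa [mul_zero] at this
  refine tendsto_of_tendsto_of_tendsto_of_le_of_le tendsto_const_nhds hlim
    (fun n => by simp) (fun n => ?_)
  have hset : {g : Pair n → ℝ | ∃ p : Pair n, ε * Real.sqrt n < |g p|} ⊆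
      ⋃ p : Pair n, {g : Pair n → ℝ | ε ^ 2 * n < ∑ q ∈ {p}, g q ^ 2} := by
    rintro g ⟨p, hp⟩
    rw [Set.mem_iUnion]
    refine ⟨p, ?_⟩
    change ε ^ 2 * n < ∑ q ∈ {p}, g q ^ 2
    rw [Finset.sum_singleton, ← sq_abs (g p)]
    have h1 : (ε * Real.sqrt n) ^ 2 = ε ^ 2 * n := by
      rw [mul_pow, Real.sq_sqrt (Nat.cast_nonneg n)]
    rw [← h1]
    exact pow_lt_pow_left₀ hp (by positivity) (by norm_num)
  calc disorder n {g : Pair n → ℝ | ∃ p : Pair n, ε * Real.sqrt n < |g p|}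
      ≤ disorder n (⋃ p : Pair n, {g : Pair n → ℝ | ε ^ 2 * n < ∑ q ∈ {p}, g q ^ 2}) :=
        measure_mono hset
    _ ≤ ∑ p : Pair n, disorder n {g : Pair n → ℝ | ε ^ 2 * n < ∑ q ∈ {p}, g q ^ 2} :=
        measure_iUnion_fintype_le _ _
    _ ≤ ∑ _p : Pair n, ENNReal.ofReal (r ^ n * c) := by
        refine Finset.sum_le_sum (fun p _ =>
          (chern {p} (1 / 4) _ (by norm_num) (by norm_num)).trans ?_)
        apply ENNReal.ofReal_le_ofReal
        rw [Finset.card_singleton, pow_one, hr, ← Real.exp_nat_mul]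
        have e1 : -(1 / 4) * (ε ^ 2 * (n : ℝ)) = (n : ℝ) * (-(1 / 4) * ε ^ 2) := by ring
        rw [e1]
    _ = ENNReal.ofReal ((Fintype.card (Pair n) : ℝ) * (r ^ n * c)) := by
        rw [Finset.sum_const, Finset.card_univ, nsmul_eq_mul,
          ENNReal.ofReal_mul (p := (Fintype.card (Pair n) : ℝ)) (Nat.cast_nonneg _),
          ENNReal.ofReal_natCast]
    _ ≤ ENNReal.ofReal (c * ((n : ℝ) ^ 2 * r ^ n)) := by
        apply ENNReal.ofReal_le_ofReal
        have h1 : (Fintype.card (Pair n) : ℝ) ≤ (n : ℝ) ^ 2 := by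
          exact_mod_cast card_Pair_le n
        have h2 : 0 ≤ r ^ n * c := by positivity
        calc (Fintype.card (Pair n) : ℝ) * (r ^ n * c) ≤ (n : ℝ) ^ 2 * (r ^ n * c) :=
              mul_le_mul_of_nonneg_right h1 h2
          _ = c * ((n : ℝ) ^ 2 * r ^ n) := by ring

end Vale.Agent.P150
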