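import Vale.Agent.P150.Defs
import Vale.Agent.P150.Kahane
import Vale.Agent.P150.RMTrows

/-!
P150 module RMTNORM: the top eigenvalue of the zero-diagonal Gaussian matrix is `≤ (2+ε)√n` w.h.p.

Proof.  For unit vectors `v_1..v_N ∈ ℝⁿ` use `kahane` with
`ι = Pair n ⊕ Fin n ⊕ Unit`, `a_u(p) = 2 u_{p.1} u_{p.2}`, `a_u(i) = √2 u_i²`, `a_u(*) = √2`
(so `⟨a_u,a_v⟩ = 2⟨u,v⟩² + 2`), and `κ = Fin n`, `b_u(i) = 2 u_i` (so `⟨b_u,b_v⟩ = 4⟨u,v⟩`);
`⟨a_u,a_v⟩ - ⟨b_u,b_v⟩ = 2(1-⟨u,v⟩)² ≥ 0`, and equal variances `4`.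
With `θ = N`, `s = 1/N`:
`e^t P(max_u X_u > t) ≤ E (∑ e^{θX_u})^{1/θ} ≤ E (∑_u e^{θ 2⟨g,u⟩})^{1/θ} ≤ 2 E e^{√n + |g|²/√n}`.
Finally take a countable dense sequence of the unit sphere.
-/

namespace Vale.Agent.P150

open MeasureTheory ProbabilityTheory Filter
open scoped BigOperators Topology

namespace Rmtnorm

lemma rpow_le_one_add {S s : ℝ} (hS : 0 ≤ S) (hs0 : 0 < s) (hs1 : s ≤ 1) : S ^ s ≤ 1 + S := by
  rcases le_total S 1 with h | h
  · have := Real.rpow_le_one hS h hs0.le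
    linarith
  · have := Real.rpow_le_rpow_of_exponent_le h hs1
    rw [Real.rpow_one] at this
    linarith

lemma integrable_sum_exp {ι : Type*} [Fintype ι] {N : ℕ} (a : Fin N → ι → ℝ) (c : Fin N → ℝ)
    (θ s : ℝ) (hc : ∀ u, 0 ≤ c u) (hs0 : 0 < s) (hs1 : s ≤ 1) :
    Integrable (fun z : ι → ℝ => (∑ u, c u * Real.exp (θ * ∑ i, a u i * z i)) ^ s) (stdG ι) := by
  have h1 : Integrable (fun z : ι → ℝ => 1 + ∑ u, c u * Real.exp (θ * ∑ i, a u i * z i))
      (stdG ι) := by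
    refine (integrable_const 1).add (integrable_finsetSum _ fun u _ => ?_)
    have h2 := (integrable_exp_lin_stdG (fun i => θ * a u i)).const_mul (c u)
    refine h2.congr (Filter.Eventually.of_forall fun z => ?_)
    simp only [Finset.mul_sum, mul_assoc]
  refine h1.mono' ?_ (Filter.Eventually.of_forall fun z => ?_)
  · have hcont : Continuous (fun z : ι → ℝ => ∑ u, c u * Real.exp (θ * ∑ i, a u i * z i)) := by
      fun_prop
    exact (hcont.rpow_const fun z => Or.inr hs0.le).aestronglyMeasurable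
  · have h0 : 0 ≤ ∑ u, c u * Real.exp (θ * ∑ i, a u i * z i) :=
      Finset.sum_nonneg fun u _ => mul_nonneg (hc u) (Real.exp_pos _).le
    rw [Real.norm_eq_abs, abs_of_nonneg (Real.rpow_nonneg h0 _)]
    exact rpow_le_one_add h0 hs0 hs1

/-- removing the extra coordinates -/
lemma key {ι κ : Type*} [Fintype ι] [Fintype κ] {N : ℕ} (a : Fin N → ι ⊕ κ → ℝ) (θ t : ℝ)
    (hθ : 1 ≤ θ) :
    Real.exp t * (stdG ι).real {g | ∃ u, t < ∑ i, a u (.inl i) * g i} ≤
      ∫ z, (∑ u, Real.exp (θ * ∑ i, a u i * z i)) ^ (1 / θ) ∂(stdG (ι ⊕ κ)) := by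
  have hθ0 : 0 < θ := by linarith
  have hs0 : 0 < 1 / θ := by positivity
  have hs1 : 1 / θ ≤ 1 := by rw [div_le_one hθ0]; exact hθ
  have hint := integrable_sum_exp a (fun _ => 1) θ (1 / θ) (fun _ => zero_le_one) hs0 hs1
  simp only [one_mul] at hint
  have hmp := measurePreserving_sumPiEquivProdPi_symm (X := fun _ : ι ⊕ κ => ℝ)
    (fun _ => gaussianReal 0 1)
  have hmeas : MeasurableSet {g : ι → ℝ | ∃ u, t < ∑ i, a u (.inl i) * g i} := by
    have : {g : ι → ℝ | ∃ u, t < ∑ i, a u (.inl i) * g i} =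
        ⋃ u, {g : ι → ℝ | t < ∑ i, a u (.inl i) * g i} := by
      ext g; simp
    rw [this]
    refine MeasurableSet.iUnion fun u => ?_
    exact measurableSet_lt measurable_const (by fun_prop)
  have e1 : ∫ z, (∑ u, Real.exp (θ * ∑ i, a u i * z i)) ^ (1 / θ) ∂(stdG (ι ⊕ κ)) =
      ∫ p : (ι → ℝ) × (κ → ℝ), (∑ u, Real.exp (θ * (∑ i, a u (.inl i) * p.1 i +
        ∑ k, a u (.inr k) * p.2 k))) ^ (1 / θ) ∂((stdG ι).prod (stdG κ)) := by
    have h := hmp.integral_comp' (g := fun z : ι ⊕ κ → ℝ =>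
      (∑ u, Real.exp (θ * ∑ i, a u i * z i)) ^ (1 / θ))
    unfold stdG
    rw [← h]
    refine integral_congr_ae (Filter.Eventually.of_forall fun p => ?_)
    simp only [Fintype.sum_sum_type]
    rfl
  have hint2 : Integrable (fun p : (ι → ℝ) × (κ → ℝ) => (∑ u, Real.exp (θ * (∑ i,
      a u (.inl i) * p.1 i + ∑ k, a u (.inr k) * p.2 k))) ^ (1 / θ))
      ((stdG ι).prod (stdG κ)) := by
    have h := (hmp.integrable_comp_emb (MeasurableEquiv.measurableEmbedding _)).2 hint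
    refine h.congr (Filter.Eventually.of_forall fun p => ?_)
    simp only [Function.comp, Fintype.sum_sum_type]
    rfl
  rw [e1, integral_prod _ hint2]
  have e2 : Real.exp t * (stdG ι).real {g | ∃ u, t < ∑ i, a u (.inl i) * g i} =
      ∫ g, Set.indicator {g : ι → ℝ | ∃ u, t < ∑ i, a u (.inl i) * g i} (fun _ => Real.exp t) g
        ∂(stdG ι) := by
    rw [integral_indicator_const _ hmeas, smul_eq_mul, mul_comm]
  rw [e2]
  refine integral_mono ((integrable_const _).indicator hmeas) hint2.integral_prod_left fun g => ?_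
  have hg : Integrable (fun h : κ → ℝ => (∑ u, Real.exp (θ * (∑ i, a u (.inl i) * g i +
      ∑ k, a u (.inr k) * h k))) ^ (1 / θ)) (stdG κ) := by
    have h := integrable_sum_exp (fun u k => a u (.inr k))
      (fun u => Real.exp (θ * ∑ i, a u (.inl i) * g i)) θ (1 / θ)
      (fun _ => (Real.exp_pos _).le) hs0 hs1
    refine h.congr (Filter.Eventually.of_forall fun h => ?_)
    simp only [mul_add, Real.exp_add]
  by_cases hA : g ∈ {g : ι → ℝ | ∃ u, t < ∑ i, a u (.inl i) * g i}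
  · rw [Set.indicator_of_mem hA]
    obtain ⟨u, hu⟩ := hA
    have h1 : Real.exp t ≤ ∫ h, Real.exp t * Real.exp (∑ k, a u (.inr k) * h k) ∂(stdG κ) := by
      rw [integral_const_mul, integral_exp_lin_stdG]
      have h2 : 1 ≤ Real.exp (1 / 2 * ∑ k, a u (.inr k) ^ 2) := by
        rw [Real.one_le_exp_iff]
        have : 0 ≤ ∑ k, a u (.inr k) ^ 2 := Finset.sum_nonneg fun _ _ => sq_nonneg _
        positivity
      exact le_mul_of_one_le_right (Real.exp_pos _).le h2
    refine h1.trans (integral_mono ((integrable_exp_lin_stdG _).const_mul _) hg fun h => ?_)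
    simp only
    have h3 : Real.exp (θ * (∑ i, a u (.inl i) * g i + ∑ k, a u (.inr k) * h k)) ≤
        ∑ u, Real.exp (θ * (∑ i, a u (.inl i) * g i + ∑ k, a u (.inr k) * h k)) :=
      Finset.single_le_sum (f := fun u => Real.exp (θ * (∑ i, a u (.inl i) * g i +
        ∑ k, a u (.inr k) * h k))) (fun _ _ => (Real.exp_pos _).le) (Finset.mem_univ u)
    have h4 := Real.rpow_le_rpow (Real.exp_pos _).le h3 hs0.le
    refine le_trans ?_ h4
    rw [← Real.exp_mul, ← Real.exp_add]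
    refine Real.exp_le_exp.2 ?_
    have h5 : θ * (∑ i, a u (.inl i) * g i + ∑ k, a u (.inr k) * h k) * (1 / θ) =
        ∑ i, a u (.inl i) * g i + ∑ k, a u (.inr k) * h k := by field_simp
    rw [h5]
    linarith
  · rw [Set.indicator_of_notMem hA]
    refine integral_nonneg fun h => ?_
    exact Real.rpow_nonneg (Finset.sum_nonneg fun _ _ => (Real.exp_pos _).le) _

lemma sq_sum_pair {n : ℕ} (w : Fin n → ℝ) :
    (∑ i, w i) ^ 2 = ∑ i, w i ^ 2 + 2 * ∑ p : Pair n, w p.1.1 * w p.1.2 := by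
  classical
  have h1 : (∑ i, w i) ^ 2 = ∑ p : Fin n × Fin n, w p.1 * w p.2 := by
    rw [sq, Finset.sum_mul_sum, ← Finset.univ_product_univ, Finset.sum_product]
  have h2 : ∑ p : Pair n, w p.1.1 * w p.1.2 =
      ∑ p : Fin n × Fin n with p.1 < p.2, w p.1 * w p.2 :=
    (Finset.sum_subtype (Finset.univ.filter fun p : Fin n × Fin n => p.1 < p.2)
      (fun p => by simp) (fun p : Fin n × Fin n => w p.1 * w p.2)).symm
  have h3 : ∑ p : Fin n × Fin n with p.2 < p.1, w p.1 * w p.2 =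
      ∑ p : Fin n × Fin n with p.1 < p.2, w p.1 * w p.2 := by
    refine Finset.sum_nbij' (fun p => (p.2, p.1)) (fun p => (p.2, p.1)) ?_ ?_ ?_ ?_ ?_
    · intro p hp; simpa using hp
    · intro p hp; simpa using hp
    · intro p _; rfl
    · intro p _; rfl
    · intro p _; ring
  have h4 : ∑ p : Fin n × Fin n with p.1 = p.2, w p.1 * w p.2 = ∑ i, w i ^ 2 := by
    refine Finset.sum_nbij' (fun p => p.1) (fun i => (i, i)) ?_ ?_ ?_ ?_ ?_
    · intro p _; exact Finset.mem_univ _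
    · intro i _; simp
    · intro p hp
      rw [Finset.mem_filter] at hp
      exact Prod.ext rfl hp.2
    · intro i _; rfl
    · intro p hp
      rw [Finset.mem_filter] at hp
      rw [← hp.2]; ring
  have h5 : ∑ p : Fin n × Fin n, w p.1 * w p.2 =
      ∑ p : Fin n × Fin n with p.1 < p.2, w p.1 * w p.2 +
      (∑ p : Fin n × Fin n with p.1 = p.2, w p.1 * w p.2 +
      ∑ p : Fin n × Fin n with p.2 < p.1, w p.1 * w p.2) := by
    rw [← Finset.sum_filter_add_sum_filter_not Finset.univ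
      (fun p : Fin n × Fin n => p.1 < p.2) (fun p => w p.1 * w p.2)]
    congr 1
    rw [← Finset.sum_filter_add_sum_filter_not
      (Finset.univ.filter fun p : Fin n × Fin n => ¬ p.1 < p.2) (fun p => p.1 = p.2)
      (fun p => w p.1 * w p.2), Finset.filter_filter, Finset.filter_filter]
    congr 1
    · refine Finset.sum_congr ?_ fun _ _ => rfl
      ext p
      simp only [Finset.mem_filter, Finset.mem_univ, true_and]
      exact ⟨fun h => h.2, fun h => ⟨by rw [h]; exact lt_irrefl _, h⟩⟩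
    · refine Finset.sum_congr ?_ fun _ _ => rfl
      ext p
      simp only [Finset.mem_filter, Finset.mem_univ, true_and]
      constructor
      · rintro ⟨h6, h7⟩
        exact lt_of_le_of_ne (not_lt.1 h6) (fun h => h7 h.symm)
      · intro h
        exact ⟨not_lt.2 h.le, fun h6 => by rw [h6] at h; exact lt_irrefl _ h⟩
  rw [h1, h5, h3, h4, h2]; ring

/-- the coefficient vectors of the larger process -/
noncomputable def aV {n : ℕ} (σ : ℝ) (v : Fin n → ℝ) : Pair n ⊕ (Fin n ⊕ Unit) → ℝ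
  | .inl p => σ * (2 * v p.1.1 * v p.1.2)
  | .inr (.inl i) => Real.sqrt 2 * v i ^ 2
  | .inr (.inr _) => Real.sqrt 2

lemma inner_aV {n : ℕ} (σ : ℝ) (hσ : σ ^ 2 = 1) (u v : Fin n → ℝ) :
    ∑ i, aV σ u i * aV σ v i = 2 * (∑ i, u i * v i) ^ 2 + 2 := by
  rw [Fintype.sum_sum_type, Fintype.sum_sum_type, sq_sum_pair]
  simp only [aV, Finset.univ_unique, Finset.sum_singleton]
  have h2 : Real.sqrt 2 * Real.sqrt 2 = 2 := Real.mul_self_sqrt (by norm_num)
  have e1 : ∀ p : Pair n, σ * (2 * u p.1.1 * u p.1.2) * (σ * (2 * v p.1.1 * v p.1.2)) =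
      4 * ((u p.1.1 * v p.1.1) * (u p.1.2 * v p.1.2)) := by
    intro p
    have : σ * (2 * u p.1.1 * u p.1.2) * (σ * (2 * v p.1.1 * v p.1.2)) =
      σ ^ 2 * (4 * ((u p.1.1 * v p.1.1) * (u p.1.2 * v p.1.2))) := by ring
    rw [this, hσ, one_mul]
  have e2 : ∀ i : Fin n, Real.sqrt 2 * u i ^ 2 * (Real.sqrt 2 * v i ^ 2) =
      2 * (u i * v i) ^ 2 := by
    intro i
    have : Real.sqrt 2 * u i ^ 2 * (Real.sqrt 2 * v i ^ 2) =
      Real.sqrt 2 * Real.sqrt 2 * (u i * v i) ^ 2 := by ring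
    rw [this, h2]
  simp only [e1, e2, h2, ← Finset.mul_sum]
  ring

lemma exp_sq_bound {n : ℕ} (hn : 16 ≤ n) :
    ∫ z, Real.exp (∑ i, z i ^ 2 / Real.sqrt n) ∂(stdG (Fin n)) ≤ Real.exp (Real.sqrt n + 2) := by
  have hn0 : (16 : ℝ) ≤ n := by exact_mod_cast hn
  have hs4 : 4 ≤ Real.sqrt n := by
    rw [show (4 : ℝ) = Real.sqrt 16 by rw [show (16 : ℝ) = 4 ^ 2 by norm_num]; simp]
    exact Real.sqrt_le_sqrt hn0
  have hs0 : 0 < Real.sqrt n := by linarith
  have hss : Real.sqrt n * Real.sqrt n = n := Real.mul_self_sqrt (by linarith)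
  have h1 : ∀ z : Fin n → ℝ, Real.exp (∑ i, z i ^ 2 / Real.sqrt n) =
      ∏ i, Real.exp (1 / Real.sqrt n * z i ^ 2) := by
    intro z
    rw [← Real.exp_sum]
    congr 1
    exact Finset.sum_congr rfl fun i _ => by ring
  simp only [h1]
  unfold stdG
  rw [integral_fintype_prod_eq_prod (fun _ (x : ℝ) => Real.exp (1 / Real.sqrt n * x ^ 2))]
  have hl : 1 / Real.sqrt n < 1 / 2 := by
    rw [div_lt_div_iff₀ hs0 (by norm_num)]; linarith
  rw [Finset.prod_congr rfl fun i _ => integral_exp_sq_gauss (1 / Real.sqrt n) hl]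
  rw [Finset.prod_const, Finset.card_univ, Fintype.card_fin]
  set x := 1 / Real.sqrt n with hx
  have hx0 : 0 < x := by positivity
  have hx4 : x ≤ 1 / 4 := by
    rw [hx, div_le_div_iff₀ hs0 (by norm_num)]; linarith
  have h2x : 0 < 1 - 2 * x := by linarith
  -- 1 - 2x ≥ exp (-2x - 4x²)
  have h3 : Real.exp (-(2 * x) - 4 * x ^ 2) ≤ 1 - 2 * x := by
    have h4 : Real.exp (-(2 * x) - 4 * x ^ 2) = 1 / Real.exp (2 * x + 4 * x ^ 2) := by
      rw [one_div, ← Real.exp_neg]; congr 1; ring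
    rw [h4, div_le_iff₀ (Real.exp_pos _)]
    have h5 : 1 + (2 * x + 4 * x ^ 2) + (2 * x + 4 * x ^ 2) ^ 2 / 2 ≤
        Real.exp (2 * x + 4 * x ^ 2) := Real.quadratic_le_exp_of_nonneg (by positivity)
    have h6 : 1 ≤ (1 - 2 * x) * (1 + (2 * x + 4 * x ^ 2) + (2 * x + 4 * x ^ 2) ^ 2 / 2) := by
      have : (1 - 2 * x) * (1 + (2 * x + 4 * x ^ 2) + (2 * x + 4 * x ^ 2) ^ 2 / 2) - 1 =
        2 * x ^ 2 * (1 - 2 * x - 4 * x ^ 2 - 8 * x ^ 3) := by ring
      have h7 : 0 ≤ 1 - 2 * x - 4 * x ^ 2 - 8 * x ^ 3 := by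
        have h8 : x ^ 2 ≤ (1 / 4) ^ 2 := pow_le_pow_left₀ hx0.le hx4 2
        have h9 : x ^ 3 ≤ (1 / 4) ^ 3 := pow_le_pow_left₀ hx0.le hx4 3
        linarith
      have h10 : 0 ≤ 2 * x ^ 2 * (1 - 2 * x - 4 * x ^ 2 - 8 * x ^ 3) := by positivity
      linarith
    exact h6.trans (mul_le_mul_of_nonneg_left h5 h2x.le)
  have h4 : (1 - 2 * x) ^ (-(1 / 2) : ℝ) ≤ Real.exp (x + 2 * x ^ 2) := by
    have h5 : (Real.exp (-(2 * x) - 4 * x ^ 2)) ^ (-(1 / 2) : ℝ) = Real.exp (x + 2 * x ^ 2) := by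
      rw [← Real.exp_mul]; congr 1; ring
    rw [← h5]
    exact Real.rpow_le_rpow_of_nonpos (Real.exp_pos _) h3 (by norm_num)
  calc ((1 - 2 * x) ^ (-(1 / 2) : ℝ)) ^ n ≤ (Real.exp (x + 2 * x ^ 2)) ^ n :=
        pow_le_pow_left₀ (Real.rpow_nonneg h2x.le _) h4 n
    _ = Real.exp (Real.sqrt n + 2) := by
        rw [← Real.exp_nat_mul]
        congr 1
        rw [hx]
        field_simp
        rw [sq, hss]

/-- the bound for finitely many unit vectors -/
lemma family_bound {n N : ℕ} (hn : 16 ≤ n) (hN : 0 < N) (σ : ℝ) (hσ : σ ^ 2 = 1)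
    (u : Fin N → Fin n → ℝ) (hu : ∀ k, ∑ i, u k i ^ 2 = 1) (t : ℝ) :
    (disorder n).real {g | ∃ k, t < σ * ∑ p : Pair n, 2 * g p * u k p.1.1 * u k p.1.2} ≤
      2 * Real.exp (2 * Real.sqrt n + 2 - t) := by
  have hn0 : (16 : ℝ) ≤ n := by exact_mod_cast hn
  have hs0 : 0 < Real.sqrt n := Real.sqrt_pos.2 (by linarith)
  have hN1 : (1 : ℝ) ≤ N := by exact_mod_cast hN
  have hN0 : (0 : ℝ) < N := by linarith
  have h1 := key (fun k => aV σ (u k)) (N : ℝ) t hN1
  have h2 := kahane (fun k => aV σ (u k)) (fun k (i : Fin n) => 2 * u k i)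
    (by
      intro k
      have h3 := inner_aV σ hσ (u k) (u k)
      have h4 : ∑ i, u k i * u k i = 1 := by
        rw [← hu k]; exact Finset.sum_congr rfl fun i _ => by ring
      have h5 : ∑ i, aV σ (u k) i ^ 2 = ∑ i, aV σ (u k) i * aV σ (u k) i :=
        Finset.sum_congr rfl fun i _ => by ring
      have h6 : ∑ i, (2 * u k i) ^ 2 = 4 * ∑ i, u k i ^ 2 := by
        rw [Finset.mul_sum]; exact Finset.sum_congr rfl fun i _ => by ring
      rw [h5, h3, h4, h6, hu k]; norm_num)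
    (by
      intro k l
      rw [inner_aV σ hσ (u k) (u l)]
      have h6 : ∑ i, (2 * u k i) * (2 * u l i) = 4 * ∑ i, u k i * u l i := by
        rw [Finset.mul_sum]; exact Finset.sum_congr rfl fun i _ => by ring
      rw [h6]
      nlinarith [sq_nonneg (∑ i, u k i * u l i - 1)])
    (N : ℝ) (1 / N) hN0 (by positivity) (by rw [div_le_one hN0]; exact hN1) hN
  have h3 : ∫ z, (∑ k, Real.exp ((N : ℝ) * ∑ i, (2 * u k i) * z i)) ^ (1 / (N : ℝ))
      ∂(stdG (Fin n)) ≤ 2 * Real.exp (2 * Real.sqrt n + 2) := by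
    have hpt : ∀ z : Fin n → ℝ, (∑ k, Real.exp ((N : ℝ) * ∑ i, (2 * u k i) * z i)) ^ (1 / (N : ℝ)) ≤
        2 * Real.exp (Real.sqrt n) * Real.exp (∑ i, z i ^ 2 / Real.sqrt n) := by
      intro z
      have h4 : ∀ k, ∑ i, (2 * u k i) * z i ≤ Real.sqrt n + ∑ i, z i ^ 2 / Real.sqrt n := by
        intro k
        have h5 : Real.sqrt n = ∑ i, u k i ^ 2 * Real.sqrt n := by
          rw [← Finset.sum_mul, hu k, one_mul]
        rw [h5, ← Finset.sum_add_distrib]
        refine Finset.sum_le_sum fun i _ => ?_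
        rw [← h5]
        have h6 : u k i ^ 2 * Real.sqrt n + z i ^ 2 / Real.sqrt n - 2 * u k i * z i =
          (u k i * Real.sqrt n - z i) ^ 2 / Real.sqrt n := by field_simp; ring
        have h7 : 0 ≤ (u k i * Real.sqrt n - z i) ^ 2 / Real.sqrt n := by positivity
        linarith
      have h5 : ∑ k, Real.exp ((N : ℝ) * ∑ i, (2 * u k i) * z i) ≤
          N * Real.exp ((N : ℝ) * (Real.sqrt n + ∑ i, z i ^ 2 / Real.sqrt n)) := by
        calc _ ≤ ∑ _k : Fin N, Real.exp ((N : ℝ) * (Real.sqrt n + ∑ i, z i ^ 2 / Real.sqrt n)) :=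
              Finset.sum_le_sum fun k _ => Real.exp_le_exp.2
                (mul_le_mul_of_nonneg_left (h4 k) hN0.le)
          _ = _ := by rw [Finset.sum_const, Finset.card_univ, Fintype.card_fin, nsmul_eq_mul]
      have h6 := Real.rpow_le_rpow (Finset.sum_nonneg fun _ _ => (Real.exp_pos _).le) h5
        (by positivity : (0 : ℝ) ≤ 1 / N)
      refine h6.trans ?_
      rw [Real.mul_rpow hN0.le (Real.exp_pos _).le, ← Real.exp_mul]
      have h7 : (N : ℝ) * (Real.sqrt n + ∑ i, z i ^ 2 / Real.sqrt n) * (1 / N) =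
        Real.sqrt n + ∑ i, z i ^ 2 / Real.sqrt n := by field_simp
      rw [h7, Real.exp_add, mul_assoc]
      refine mul_le_mul_of_nonneg_right ?_ (by positivity)
      have h8 : (N : ℝ) ≤ 2 ^ (N : ℝ) := by
        rw [Real.rpow_natCast]
        exact_mod_cast (Nat.lt_two_pow_self (n := N)).le
      calc (N : ℝ) ^ (1 / (N : ℝ)) ≤ ((2 : ℝ) ^ (N : ℝ)) ^ (1 / (N : ℝ)) :=
            Real.rpow_le_rpow hN0.le h8 (by positivity)
        _ = 2 := by
            rw [← Real.rpow_mul (by norm_num)]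
            have : (N : ℝ) * (1 / N) = 1 := by field_simp
            rw [this, Real.rpow_one]
    have hint : Integrable (fun z : Fin n → ℝ => Real.exp (∑ i, z i ^ 2 / Real.sqrt n))
        (stdG (Fin n)) := by
      have hs4 : 4 ≤ Real.sqrt n := by
        rw [show (4 : ℝ) = Real.sqrt 16 by rw [show (16 : ℝ) = 4 ^ 2 by norm_num]; simp]
        exact Real.sqrt_le_sqrt hn0
      have hl : 1 / Real.sqrt n < 1 / 2 := by
        rw [div_lt_div_iff₀ hs0 (by norm_num)]; linarith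
      have h1 : (fun z : Fin n → ℝ => Real.exp (∑ i, z i ^ 2 / Real.sqrt n)) =
          fun z => ∏ i, (fun x : ℝ => Real.exp (1 / Real.sqrt n * x ^ 2)) (z i) := by
        funext z
        rw [← Real.exp_sum]
        congr 1
        exact Finset.sum_congr rfl fun i _ => by ring
      rw [h1]
      exact Integrable.fintype_prod (fun i => integrable_exp_sq_gauss _ hl)
    calc _ ≤ ∫ z, 2 * Real.exp (Real.sqrt n) * Real.exp (∑ i, z i ^ 2 / Real.sqrt n)
          ∂(stdG (Fin n)) :=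
          integral_mono_of_nonneg (Filter.Eventually.of_forall fun z =>
            Real.rpow_nonneg (Finset.sum_nonneg fun _ _ => (Real.exp_pos _).le) _)
            (hint.const_mul _) (Filter.Eventually.of_forall hpt)
      _ = 2 * Real.exp (Real.sqrt n) * ∫ z, Real.exp (∑ i, z i ^ 2 / Real.sqrt n)
          ∂(stdG (Fin n)) := integral_const_mul _ _
      _ ≤ 2 * Real.exp (Real.sqrt n) * Real.exp (Real.sqrt n + 2) :=
          mul_le_mul_of_nonneg_left (exp_sq_bound hn) (by positivity)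
      _ = 2 * Real.exp (2 * Real.sqrt n + 2) := by
          rw [mul_assoc, ← Real.exp_add]; congr 2; ring
  have h4 : (disorder n).real {g | ∃ k, t < σ * ∑ p : Pair n, 2 * g p * u k p.1.1 * u k p.1.2} =
      (stdG (Pair n)).real {g | ∃ k, t < ∑ i, aV σ (u k) (.inl i) * g i} := by
    have h5 : {g : Pair n → ℝ | ∃ k, t < σ * ∑ p : Pair n, 2 * g p * u k p.1.1 * u k p.1.2} =
        {g | ∃ k, t < ∑ i, aV σ (u k) (.inl i) * g i} := by
      ext g
      have h6 : ∀ k, σ * ∑ p : Pair n, 2 * g p * u k p.1.1 * u k p.1.2 =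
          ∑ i, aV σ (u k) (.inl i) * g i := by
        intro k
        rw [Finset.mul_sum]
        refine Finset.sum_congr rfl fun p _ => ?_
        simp only [aV]; ring
      constructor
      · rintro ⟨k, hk⟩
        exact ⟨k, by rw [← h6]; exact hk⟩
      · rintro ⟨k, hk⟩
        exact ⟨k, by rw [h6]; exact hk⟩
    rw [h5]; rfl
  rw [h4]
  have h5 := (h1.trans h2).trans h3
  have h6 : Real.exp (2 * Real.sqrt n + 2 - t) = Real.exp (2 * Real.sqrt n + 2) / Real.exp t := by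
    rw [Real.exp_sub]
  rw [h6, mul_div_assoc', le_div_iff₀ (Real.exp_pos t), mul_comm]
  exact h5

lemma sphere_bound {n : ℕ} (hn : 16 ≤ n) (σ : ℝ) (hσ : σ ^ 2 = 1) (t : ℝ) :
    disorder n {g | ∃ v : Fin n → ℝ, ∑ i, v i ^ 2 = 1 ∧
      t < σ * ∑ p : Pair n, 2 * g p * v p.1.1 * v p.1.2} ≤
      ENNReal.ofReal (2 * Real.exp (2 * Real.sqrt n + 2 - t)) := by
  classical
  let S : Set (Fin n → ℝ) := {v | ∑ i, v i ^ 2 = 1}
  have hne : Nonempty S := by
    refine ⟨⟨Pi.single (⟨0, by omega⟩ : Fin n) 1, ?_⟩⟩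
    change ∑ i, (Pi.single (⟨0, by omega⟩ : Fin n) (1 : ℝ) : Fin n → ℝ) i ^ 2 = 1
    rw [Finset.sum_eq_single (⟨0, by omega⟩ : Fin n)]
    · simp
    · intro j _ hj
      rw [Pi.single_eq_of_ne hj]; norm_num
    · intro h; exact absurd (Finset.mem_univ _) h
  let d : ℕ → S := TopologicalSpace.denseSeq S
  have hd : DenseRange d := TopologicalSpace.denseRange_denseSeq S
  let A : ℕ → Set (Pair n → ℝ) := fun N => {g | ∃ k : Fin (N + 1),
    t < σ * ∑ p : Pair n, 2 * g p * (d k).1 p.1.1 * (d k).1 p.1.2}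
  have hsub : {g : Pair n → ℝ | ∃ v : Fin n → ℝ, ∑ i, v i ^ 2 = 1 ∧
      t < σ * ∑ p : Pair n, 2 * g p * v p.1.1 * v p.1.2} ⊆ ⋃ N, A N := by
    rintro g ⟨v, hv, hvt⟩
    have hopen : IsOpen {w : S | t < σ * ∑ p : Pair n, 2 * g p * w.1 p.1.1 * w.1 p.1.2} := by
      refine isOpen_lt continuous_const (continuous_const.mul
        (continuous_finsetSum _ fun p _ => ?_))
      exact (continuous_const.mul ((continuous_apply _).comp continuous_subtype_val)).mul
        ((continuous_apply _).comp continuous_subtype_val)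
    obtain ⟨k, hk⟩ := hd.exists_mem_open hopen ⟨⟨v, hv⟩, hvt⟩
    rw [Set.mem_iUnion]
    exact ⟨k, ⟨⟨k, by omega⟩, hk⟩⟩
  have hmono : Monotone A := by
    intro M N hMN g
    rintro ⟨k, hk⟩
    exact ⟨⟨k.1, by omega⟩, hk⟩
  refine (measure_mono hsub).trans ?_
  rw [hmono.measure_iUnion]
  refine iSup_le fun N => ?_
  have h := family_bound hn (Nat.succ_pos N) σ hσ (fun k : Fin (N + 1) => (d k).1)
    (fun k => (d k).2) t
  have h2 : disorder n (A N) = ENNReal.ofReal ((disorder n).real (A N)) := by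
    rw [measureReal_def, ENNReal.ofReal_toReal (measure_ne_top _ _)]
  rw [h2]
  exact ENNReal.ofReal_le_ofReal h

lemma tendsto_bound (ε : ℝ) (hε : 0 < ε) :
    Tendsto (fun n : ℕ => ENNReal.ofReal
      (2 * Real.exp (2 * Real.sqrt n + 2 - (2 + ε) * Real.sqrt n))) atTop (𝓝 0) := by
  refine Rmtrows.tendsto_ofReal_zero ?_
  have h1 : ∀ n : ℕ, 2 * Real.exp (2 * Real.sqrt n + 2 - (2 + ε) * Real.sqrt n) =
      2 * Real.exp 2 * Real.exp (-(ε * Real.sqrt n)) := by
    intro n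
    rw [mul_assoc, ← Real.exp_add]; congr 2; ring
  simp only [h1]
  have h2 : Tendsto (fun n : ℕ => Real.exp (-(ε * Real.sqrt n))) atTop (𝓝 0) := by
    refine Real.tendsto_exp_neg_atTop_nhds_zero.comp ?_
    exact ((Real.tendsto_sqrt_atTop.comp tendsto_natCast_atTop_atTop)).const_mul_atTop hε
  have h3 := h2.const_mul (2 * Real.exp 2)
  rwa [mul_zero] at h3

end Rmtnorm

/-- Upper bound for the top eigenvalue. -/
theorem rmt_norm (ε : ℝ) (hε : 0 < ε) :
    Tendsto (fun n : ℕ => disorder n {g | ∃ v : Fin n → ℝ, ∑ i, v i ^ 2 = 1 ∧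
      (2 + ε) * Real.sqrt n < ∑ p : Pair n, 2 * g p * v p.1.1 * v p.1.2}) atTop (𝓝 0) := by
  refine tendsto_of_tendsto_of_tendsto_of_le_of_le' tendsto_const_nhds
    (Rmtnorm.tendsto_bound ε hε) (Eventually.of_forall fun _ => zero_le) ?_
  filter_upwards [eventually_ge_atTop 16] with n hn
  have h := Rmtnorm.sphere_bound hn 1 (by norm_num) ((2 + ε) * Real.sqrt n)
  simpa only [one_mul] using h

/-- Lower bound for the bottom eigenvalue (by the symmetry `g ↦ -g`). -/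
theorem rmt_norm_neg (ε : ℝ) (hε : 0 < ε) :
    Tendsto (fun n : ℕ => disorder n {g | ∃ v : Fin n → ℝ, ∑ i, v i ^ 2 = 1 ∧
      ∑ p : Pair n, 2 * g p * v p.1.1 * v p.1.2 < -((2 + ε) * Real.sqrt n)}) atTop (𝓝 0) := by
  refine tendsto_of_tendsto_of_tendsto_of_le_of_le' tendsto_const_nhds
    (Rmtnorm.tendsto_bound ε hε) (Eventually.of_forall fun _ => zero_le) ?_
  filter_upwards [eventually_ge_atTop 16] with n hn
  have h := Rmtnorm.sphere_bound hn (-1) (by norm_num) ((2 + ε) * Real.sqrt n)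
  have h2 : ∀ (g : Pair n → ℝ) (v : Fin n → ℝ),
      (∑ p : Pair n, 2 * g p * v p.1.1 * v p.1.2 < -((2 + ε) * Real.sqrt n)) ↔
      ((2 + ε) * Real.sqrt n < -1 * ∑ p : Pair n, 2 * g p * v p.1.1 * v p.1.2) := by
    intro g v
    constructor
    · intro h3; linarith
    · intro h3; linarith
  simp only [h2]
  exact h

end Vale.Agent.P150
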