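import Vale.Agent.P150.Core
import Vale.Agent.P150.RMTnorm
import Vale.Agent.P150.RMTrows

/-!
P150 module BRIDGE: the SK coupling matrix, and `P(Good) → 1`.
-/

namespace Vale.Agent.P150

open MeasureTheory ProbabilityTheory Filter
open scoped BigOperators Topology

noncomputable section

/-- The SK coupling matrix `J_ij = β g_ij/√n` (`i ≠ j`), zero on the diagonal. -/
def skJ (n : ℕ) (β : ℝ) (g : Pair n → ℝ) : Matrix (Fin n) (Fin n) ℝ := fun i j =>
  if hij : i < j then β / Real.sqrt n * g ⟨(i, j), hij⟩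
  else if hji : j < i then β / Real.sqrt n * g ⟨(j, i), hji⟩ else 0

namespace Brg

theorem pair_sum {n : ℕ} (f : Pair n → ℝ) :
    ∑ p : Pair n, f p = ∑ i : Fin n, ∑ j : Fin n, if h : i < j then f ⟨(i, j), h⟩ else 0 := by
  classical
  set F : Fin n × Fin n → ℝ := fun q => if h : q.1 < q.2 then f ⟨q, h⟩ else 0 with hF
  have h1 : ∑ p : Pair n, f p = ∑ p : Pair n, F p.1 := by
    refine Finset.sum_congr rfl fun p _ => ?_
    rw [hF]
    simp only
    rw [dif_pos p.2]
  have h2 : ∑ p : Pair n, F p.1 = ∑ q ∈ Finset.univ.filter (fun q : Fin n × Fin n => q.1 < q.2),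
      F q := by
    rw [Finset.sum_subtype (Finset.univ.filter (fun q : Fin n × Fin n => q.1 < q.2))
      (p := fun q => q.1 < q.2) (by simp)]
  have h3 : ∑ q ∈ Finset.univ.filter (fun q : Fin n × Fin n => q.1 < q.2), F q = ∑ q, F q := by
    refine Finset.sum_subset (Finset.subset_univ _) fun q _ hq => ?_
    rw [Finset.mem_filter] at hq
    rw [hF]
    simp only
    rw [dif_neg (fun h => hq ⟨Finset.mem_univ _, h⟩)]
  rw [h1, h2, h3, Fintype.sum_prod_type]

theorem skJ_eq (n : ℕ) (β : ℝ) (g : Pair n → ℝ) (i j : Fin n) :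
    skJ n β g i j = (if h : i < j then β / Real.sqrt n * g ⟨(i, j), h⟩ else 0) +
      (if h : j < i then β / Real.sqrt n * g ⟨(j, i), h⟩ else 0) := by
  unfold skJ
  by_cases h1 : i < j
  · rw [dif_pos h1, dif_pos h1, dif_neg (not_lt.2 h1.le), add_zero]
  · rw [dif_neg h1, dif_neg h1, zero_add]

theorem skJ_symm (n : ℕ) (β : ℝ) (g : Pair n → ℝ) (i j : Fin n) :
    skJ n β g i j = skJ n β g j i := by
  rw [skJ_eq, skJ_eq, add_comm]

theorem skJ_diag (n : ℕ) (β : ℝ) (g : Pair n → ℝ) (i : Fin n) : skJ n β g i i = 0 := by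
  rw [skJ_eq]
  simp

theorem quad_eq (n : ℕ) (β : ℝ) (g : Pair n → ℝ) (v : Fin n → ℝ) :
    ∑ i, ∑ j, skJ n β g i j * v i * v j =
      β / Real.sqrt n * ∑ p : Pair n, 2 * g p * v p.1.1 * v p.1.2 := by
  have h1 : ∑ p : Pair n, 2 * g p * v p.1.1 * v p.1.2 =
      2 * ∑ p : Pair n, g p * v p.1.1 * v p.1.2 := by
    rw [Finset.mul_sum]
    refine Finset.sum_congr rfl fun p _ => ?_
    ring
  have h2 : ∑ i, ∑ j, skJ n β g i j * v i * v j =
      ∑ i : Fin n, ∑ j : Fin n,
        (if h : i < j then β / Real.sqrt n * (g ⟨(i, j), h⟩ * v i * v j) else 0) +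
      ∑ i : Fin n, ∑ j : Fin n,
        (if h : j < i then β / Real.sqrt n * (g ⟨(j, i), h⟩ * v j * v i) else 0) := by
    rw [← Finset.sum_add_distrib]
    refine Finset.sum_congr rfl fun i _ => ?_
    rw [← Finset.sum_add_distrib]
    refine Finset.sum_congr rfl fun j _ => ?_
    rw [skJ_eq]
    by_cases h1 : i < j
    · rw [dif_pos h1, dif_pos h1, dif_neg (not_lt.2 h1.le), dif_neg (not_lt.2 h1.le)]
      ring
    · rw [dif_neg h1, dif_neg h1]
      by_cases h3 : j < i
      · rw [dif_pos h3, dif_pos h3]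
        ring
      · rw [dif_neg h3, dif_neg h3]
        ring
  rw [h1, h2, Finset.sum_comm (f := fun i j : Fin n =>
    (if h : j < i then β / Real.sqrt n * (g ⟨(j, i), h⟩ * v j * v i) else 0)),
    ← pair_sum (fun p => β / Real.sqrt n * (g p * v p.1.1 * v p.1.2)), ← Finset.mul_sum]
  ring

theorem row_eq (n : ℕ) (β : ℝ) (g : Pair n → ℝ) (i : Fin n) :
    ∑ j, skJ n β g i j ^ 2 = (β / Real.sqrt n) ^ 2 *
      ∑ p : Pair n, if p.1.1 = i ∨ p.1.2 = i then g p ^ 2 else 0 := by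
  classical
  have h1 : ∑ p : Pair n, (if p.1.1 = i ∨ p.1.2 = i then g p ^ 2 else 0) =
      ∑ j : Fin n, ((if h : i < j then g ⟨(i, j), h⟩ ^ 2 else 0) +
        (if h : j < i then g ⟨(j, i), h⟩ ^ 2 else 0)) := by
    rw [pair_sum (fun p => if p.1.1 = i ∨ p.1.2 = i then g p ^ 2 else 0)]
    have h2 : ∀ a b : Fin n, (if h : a < b then
        (if (a = i ∨ b = i) then g ⟨(a, b), h⟩ ^ 2 else 0) else 0) =
        (if a = i then (if h : i < b then g ⟨(i, b), h⟩ ^ 2 else 0) else 0) +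
        (if b = i then (if h : a < i then g ⟨(a, i), h⟩ ^ 2 else 0) else 0) := by
      intro a b
      by_cases ha : a = i
      · subst ha
        by_cases hb : b = a
        · subst hb
          simp
        · simp [hb]
      · by_cases hb : b = i
        · subst hb
          simp [ha]
        · simp [ha, hb]
    rw [Finset.sum_congr rfl fun a _ => Finset.sum_congr rfl fun b _ => h2 a b]
    simp only [Finset.sum_add_distrib]
    congr 1
    · rw [Finset.sum_comm]
      refine Finset.sum_congr rfl fun b _ => ?_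
      rw [Finset.sum_ite_eq' Finset.univ i, if_pos (Finset.mem_univ i)]
    · refine Finset.sum_congr rfl fun a _ => ?_
      rw [Finset.sum_ite_eq' Finset.univ i, if_pos (Finset.mem_univ i)]
  rw [h1, Finset.mul_sum]
  refine Finset.sum_congr rfl fun j _ => ?_
  rw [skJ_eq]
  by_cases h1 : i < j
  · rw [dif_pos h1, dif_pos h1, dif_neg (not_lt.2 h1.le), dif_neg (not_lt.2 h1.le)]
    ring
  · rw [dif_neg h1, dif_neg h1]
    by_cases h3 : j < i
    · rw [dif_pos h3, dif_pos h3]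
      ring
    · rw [dif_neg h3, dif_neg h3]
      ring

theorem entry_le {n : ℕ} {β m : ℝ} (hβ : 0 ≤ β) (hn : 0 < n) (hm : 0 ≤ m) {g : Pair n → ℝ}
    (hg : ∀ p, |g p| ≤ m * Real.sqrt n) (i j : Fin n) : |skJ n β g i j| ≤ β * m := by
  have hs : 0 < Real.sqrt n := Real.sqrt_pos.2 (by exact_mod_cast hn)
  have key : ∀ p, |β / Real.sqrt n * g p| ≤ β * m := by
    intro p
    rw [abs_mul, abs_of_nonneg (div_nonneg hβ hs.le)]
    calc β / Real.sqrt n * |g p| ≤ β / Real.sqrt n * (m * Real.sqrt n) :=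
          mul_le_mul_of_nonneg_left (hg p) (div_nonneg hβ hs.le)
      _ = β * m := by field_simp
  unfold skJ
  split_ifs
  · exact key _
  · exact key _
  · rw [abs_zero]
    positivity

theorem quad_le {n : ℕ} {β ε' : ℝ} (hβ : 0 ≤ β) (hn : 0 < n) {g : Pair n → ℝ} {σ : ℝ}
    (h : ∀ v : Fin n → ℝ, ∑ i, v i ^ 2 = 1 →
      σ * ∑ p : Pair n, 2 * g p * v p.1.1 * v p.1.2 ≤ (2 + ε') * Real.sqrt n)
    (v : Fin n → ℝ) :
    σ * ∑ i, ∑ j, skJ n β g i j * v i * v j ≤ β * (2 + ε') * ∑ i, v i ^ 2 := by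
  have hs : 0 < Real.sqrt n := Real.sqrt_pos.2 (by exact_mod_cast hn)
  rw [quad_eq]
  set N := ∑ i, v i ^ 2 with hN
  have hN0 : 0 ≤ N := Finset.sum_nonneg fun i _ => sq_nonneg _
  rcases hN0.eq_or_lt with h0 | h0
  · have hv : ∀ i, v i = 0 := by
      intro i
      have h1 := (Finset.sum_eq_zero_iff_of_nonneg (fun i _ => sq_nonneg (v i))).1
        (hN ▸ h0.symm) i (Finset.mem_univ i)
      exact pow_eq_zero_iff (two_ne_zero) |>.1 h1
    simp [hv, ← h0]
  · set r := Real.sqrt N with hr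
    have hr0 : 0 < r := Real.sqrt_pos.2 h0
    have hr2 : r ^ 2 = N := Real.sq_sqrt hN0
    have h1 := h (fun i => v i / r) (by
      simp only [div_pow]
      rw [← Finset.sum_div, hr2, ← hN, div_self h0.ne'])
    have h2 : ∑ p : Pair n, 2 * g p * (v p.1.1 / r) * (v p.1.2 / r) =
        (∑ p : Pair n, 2 * g p * v p.1.1 * v p.1.2) / N := by
      rw [Finset.sum_div]
      refine Finset.sum_congr rfl fun p _ => ?_
      rw [← hr2]
      field_simp
    rw [h2, mul_div_assoc', div_le_iff₀ h0] at h1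
    calc σ * (β / Real.sqrt n * ∑ p : Pair n, 2 * g p * v p.1.1 * v p.1.2)
        = β / Real.sqrt n * (σ * ∑ p : Pair n, 2 * g p * v p.1.1 * v p.1.2) := by ring
      _ ≤ β / Real.sqrt n * ((2 + ε') * Real.sqrt n * N) :=
          mul_le_mul_of_nonneg_left h1 (div_nonneg hβ hs.le)
      _ = β * (2 + ε') * N := by field_simp

end Brg

open Brg

theorem skH_eq_isH (n : ℕ) (β : ℝ) (g : Pair n → ℝ) : skH n β g = isH (skJ n β g) 0 := by
  funext x
  have h1 : lin (0 : Fin n → ℝ) x = 0 := by simp [lin]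
  unfold isH
  rw [h1, add_zero, quad_eq n β g (fun i => val (x i))]
  unfold skH
  have h2 : ∑ p : Pair n, 2 * g p * val (x p.1.1) * val (x p.1.2) =
      2 * ∑ p : Pair n, g p * val (x p.1.1) * val (x p.1.2) := by
    rw [Finset.mul_sum]
    refine Finset.sum_congr rfl fun p _ => ?_
    ring
  rw [h2]
  ring

/-- The good event. -/
def GoodEv (n : ℕ) (β ε : ℝ) (g : Pair n → ℝ) : Prop :=
  Good (skJ n β g) (2 * β + ε) (β ^ 2 + ε) ε ∧
    ∀ v : Fin n → ℝ, -(2 * β + ε) * ∑ i, v i ^ 2 ≤ ∑ i, ∑ j, skJ n β g i j * v i * v j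

theorem good_whp (β : ℝ) (hβ : 0 ≤ β) (ε : ℝ) (hε : 0 < ε) :
    Tendsto (fun n : ℕ => disorder n {g | ¬ GoodEv n β ε g}) atTop (𝓝 0) := by
  set e1 := ε / (β + 1) with he1
  set e2 := ε / (β ^ 2 + 1) with he2
  set e3 := min (ε / ((β + 1) * (β ^ 2 + ε))) (1 / (100 * (β + 1))) with he3
  have h1 : 0 < e1 := by positivity
  have h2 : 0 < e2 := by positivity
  have h3 : 0 < e3 := by
    rw [he3]
    exact lt_min (by positivity) (by positivity)
  have hb1 : β * e1 ≤ ε := by
    rw [he1, mul_div_assoc', div_le_iff₀ (by positivity)]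
    nlinarith
  have hb2 : β ^ 2 * e2 ≤ ε := by
    rw [he2, mul_div_assoc', div_le_iff₀ (by positivity)]
    nlinarith [sq_nonneg β]
  have hb3 : β * e3 * (β ^ 2 + ε) ≤ ε := by
    have h4 : e3 ≤ ε / ((β + 1) * (β ^ 2 + ε)) := min_le_left _ _
    rw [le_div_iff₀ (by positivity)] at h4
    have h5 : β * e3 * (β ^ 2 + ε) ≤ e3 * ((β + 1) * (β ^ 2 + ε)) := by
      have : 0 ≤ e3 * (β ^ 2 + ε) := by positivity
      nlinarith
    exact h5.trans h4
  have hb4 : β * e3 ≤ 1 / 100 := by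
    have h4 : e3 ≤ 1 / (100 * (β + 1)) := min_le_right _ _
    rw [le_div_iff₀ (by positivity)] at h4
    nlinarith
  have hsum : Tendsto (fun n : ℕ =>
      disorder n {g | ∃ v : Fin n → ℝ, ∑ i, v i ^ 2 = 1 ∧
        (2 + e1) * Real.sqrt n < ∑ p : Pair n, 2 * g p * v p.1.1 * v p.1.2} +
      disorder n {g | ∃ v : Fin n → ℝ, ∑ i, v i ^ 2 = 1 ∧
        ∑ p : Pair n, 2 * g p * v p.1.1 * v p.1.2 < -((2 + e1) * Real.sqrt n)} +
      disorder n {g | ∃ i : Fin n,
        (1 + e2) * n < ∑ p : Pair n, if p.1.1 = i ∨ p.1.2 = i then g p ^ 2 else 0} +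
      disorder n {g | ∃ p : Pair n, e3 * Real.sqrt n < |g p|}) atTop (𝓝 0) := by
    have := (((rmt_norm e1 h1).add (rmt_norm_neg e1 h1)).add (rmt_rows e2 h2)).add (rmt_max e3 h3)
    simpa using this
  refine tendsto_of_tendsto_of_tendsto_of_le_of_le' tendsto_const_nhds hsum
    (Eventually.of_forall fun n => by simp) ?_
  filter_upwards [eventually_gt_atTop 0] with n hn
  have hs : 0 < Real.sqrt n := Real.sqrt_pos.2 (by exact_mod_cast hn)
  have hn' : (0 : ℝ) < n := by exact_mod_cast hn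
  refine le_trans (measure_mono ?_) ((measure_union_le _ _).trans
    (add_le_add ((measure_union_le _ _).trans (add_le_add (measure_union_le _ _) le_rfl)) le_rfl))
  intro g hg
  by_contra hcon
  apply hg
  simp only [Set.mem_union, not_or] at hcon
  obtain ⟨⟨⟨hA, hB⟩, hC⟩, hD⟩ := hcon
  simp only [Set.mem_ofPred_eq, not_exists, not_and, not_lt] at hA hB hC hD
  have hrow : ∀ i, ∑ j, skJ n β g i j ^ 2 ≤ β ^ 2 + ε := by
    intro i
    rw [row_eq, div_pow, Real.sq_sqrt hn'.le]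
    calc β ^ 2 / n * ∑ p : Pair n, (if p.1.1 = i ∨ p.1.2 = i then g p ^ 2 else 0)
        ≤ β ^ 2 / n * ((1 + e2) * n) :=
          mul_le_mul_of_nonneg_left (hC i) (by positivity)
      _ = β ^ 2 + β ^ 2 * e2 := by field_simp
      _ ≤ β ^ 2 + ε := by linarith
  have hent := entry_le hβ hn h3.le (g := g) hD
  refine ⟨⟨skJ_symm n β g, skJ_diag n β g, fun v => ?_, hrow, fun i => ?_, fun i j => ?_⟩,
    fun v => ?_⟩
  · have h4 := quad_le hβ hn (σ := 1) (ε' := e1) (g := g) (fun v hv => by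
      rw [one_mul]; exact hA v hv) v
    rw [one_mul] at h4
    have hN : 0 ≤ ∑ i, v i ^ 2 := Finset.sum_nonneg fun i _ => sq_nonneg _
    have h5 : β * (2 + e1) ≤ 2 * β + ε := by nlinarith
    exact h4.trans (mul_le_mul_of_nonneg_right h5 hN)
  · have h4 : ∑ j, |skJ n β g i j| ^ 3 ≤ ∑ j, β * e3 * skJ n β g i j ^ 2 := by
      refine Finset.sum_le_sum fun j _ => ?_
      have h5 : |skJ n β g i j| ^ 3 = |skJ n β g i j| * skJ n β g i j ^ 2 := by
        rw [← sq_abs (skJ n β g i j)]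
        ring
      rw [h5]
      exact mul_le_mul_of_nonneg_right (hent i j) (sq_nonneg _)
    refine h4.trans ?_
    rw [← Finset.mul_sum]
    exact (mul_le_mul_of_nonneg_left (hrow i) (by positivity)).trans hb3
  · exact (hent i j).trans hb4
  · have h4 := quad_le hβ hn (σ := -1) (ε' := e1) (g := g) (fun v hv => by
      have := hB v hv
      linarith) v
    have hN : 0 ≤ ∑ i, v i ^ 2 := Finset.sum_nonneg fun i _ => sq_nonneg _
    have h5 : β * (2 + e1) * ∑ i, v i ^ 2 ≤ (2 * β + ε) * ∑ i, v i ^ 2 :=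
      mul_le_mul_of_nonneg_right (by nlinarith) hN
    linarith

end

end Vale.Agent.P150
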