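import Vale.Agent.P150.Defs

/-!
P150: auxiliary (internal) definitions shared by the modules, and basic API.
-/

namespace Vale.Agent.P150

open MeasureTheory ProbabilityTheory
open scoped BigOperators

noncomputable section

/-- `L = -ℒ = ∑ (I - Q_i)`. -/
def Lop {n : ℕ} (H : Cfg n → ℝ) (f : Cfg n → ℝ) (x : Cfg n) : ℝ :=
  ∑ i, (f x - condExp H i f x)

/-- Entropy `E_μ[f log f] - E_μ f log E_μ f`. -/
def ent {n : ℕ} (H : Cfg n → ℝ) (f : Cfg n → ℝ) : ℝ :=
  avg H (fun x => f x * Real.log (f x)) - avg H f * Real.log (avg H f)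

/-- Conditional entropy of `f` given `x_{-i}`, as a function of `x`. -/
def condEnt {n : ℕ} (H : Cfg n → ℝ) (i : Fin n) (f : Cfg n → ℝ) (x : Cfg n) : ℝ :=
  condExp H i (fun y => f y * Real.log (f y)) x
    - condExp H i f x * Real.log (condExp H i f x)

/-- Linear functional `∑ v_i x_i`. -/
def lin {n : ℕ} (v : Fin n → ℝ) (x : Cfg n) : ℝ := ∑ i, v i * val (x i)

/-- Ising exponent `½ xᵀ J x + h·x`. -/
def isH {n : ℕ} (J : Matrix (Fin n) (Fin n) ℝ) (h : Fin n → ℝ) (x : Cfg n) : ℝ :=
  1 / 2 * ∑ i, ∑ j, J i j * val (x i) * val (x j) + lin h x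

/-- Hypotheses on the coupling matrix used for the spectral gap bound. -/
structure Good {n : ℕ} (J : Matrix (Fin n) (Fin n) ℝ) (lam rho tau : ℝ) : Prop where
  symm : ∀ i j, J i j = J j i
  diag : ∀ i, J i i = 0
  quad : ∀ v : Fin n → ℝ, ∑ i, ∑ j, J i j * v i * v j ≤ lam * ∑ i, v i ^ 2
  row : ∀ i, ∑ j, J i j ^ 2 ≤ rho
  cub : ∀ i, ∑ j, |J i j| ^ 3 ≤ tau
  small : ∀ i j, |J i j| ≤ 1 / 100

variable {n : ℕ}

lemma val_one : val 1 = 1 := by simp [val]

lemma val_neg_one : val (-1) = -1 := by simp [val]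

lemma val_neg (s : ℤˣ) : val (-s) = - val s := by simp [val]

lemma val_eq (s : ℤˣ) : val s = 1 ∨ val s = -1 := by
  rcases Int.units_eq_one_or s with h | h
  · left; rw [h, val_one]
  · right; rw [h, val_neg_one]

lemma val_sq (s : ℤˣ) : val s ^ 2 = 1 := by
  rcases val_eq s with h | h <;> rw [h] <;> norm_num

lemma val_mul_self (s : ℤˣ) : val s * val s = 1 := by
  rcases val_eq s with h | h <;> rw [h] <;> norm_num

lemma abs_val (s : ℤˣ) : |val s| = 1 := by
  rcases val_eq s with h | h <;> rw [h] <;> norm_num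

/-- Sum over the two spin values. -/
lemma sum_spin {M : Type*} [AddCommMonoid M] (f : ℤˣ → M) : ∑ s, f s = f 1 + f (-1) := by
  rw [show (Finset.univ : Finset ℤˣ) = {1, -1} from rfl]
  rw [Finset.sum_pair (by decide)]

lemma Z_pos (H : Cfg n → ℝ) : 0 < ∑ y, Real.exp (H y) :=
  Finset.sum_pos (fun _ _ => Real.exp_pos _) Finset.univ_nonempty

lemma gibbs_pos (H : Cfg n → ℝ) (x : Cfg n) : 0 < gibbs H x :=
  div_pos (Real.exp_pos _) (Z_pos H)

lemma gibbs_nonneg (H : Cfg n → ℝ) (x : Cfg n) : 0 ≤ gibbs H x := (gibbs_pos H x).le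

lemma sum_gibbs (H : Cfg n → ℝ) : ∑ x, gibbs H x = 1 := by
  simp only [gibbs]
  rw [← Finset.sum_div, div_self (Z_pos H).ne']

/-- Adding a constant to the exponent does not change the Gibbs measure. -/
lemma gibbs_add_const (H : Cfg n → ℝ) (c : ℝ) : gibbs (fun x => H x + c) = gibbs H := by
  funext x
  simp only [gibbs, Real.exp_add]
  rw [← Finset.sum_mul, mul_div_mul_right _ _ (Real.exp_pos c).ne']

lemma gen_eq_neg_Lop (H : Cfg n → ℝ) (f : Cfg n → ℝ) (x : Cfg n) :
    gen H f x = - Lop H f x := by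
  simp only [gen, Lop, ← Finset.sum_neg_distrib, neg_sub]

lemma avg_add (H : Cfg n → ℝ) (f g : Cfg n → ℝ) :
    avg H (fun x => f x + g x) = avg H f + avg H g := by
  simp only [avg, mul_add, Finset.sum_add_distrib]

lemma avg_sub (H : Cfg n → ℝ) (f g : Cfg n → ℝ) :
    avg H (fun x => f x - g x) = avg H f - avg H g := by
  simp only [avg, mul_sub, Finset.sum_sub_distrib]

lemma avg_const_mul (H : Cfg n → ℝ) (c : ℝ) (f : Cfg n → ℝ) :
    avg H (fun x => c * f x) = c * avg H f := by
  simp only [avg, Finset.mul_sum]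
  exact Finset.sum_congr rfl fun x _ => by ring

lemma avg_const (H : Cfg n → ℝ) (c : ℝ) : avg H (fun _ => c) = c := by
  simp only [avg]
  rw [← Finset.sum_mul, sum_gibbs, one_mul]

lemma avg_neg (H : Cfg n → ℝ) (f : Cfg n → ℝ) :
    avg H (fun x => - f x) = - avg H f := by
  simp only [avg, mul_neg, Finset.sum_neg_distrib]

lemma avg_sum {ι : Type*} (s : Finset ι) (H : Cfg n → ℝ) (f : ι → Cfg n → ℝ) :
    avg H (fun x => ∑ i ∈ s, f i x) = ∑ i ∈ s, avg H (f i) := by
  simp only [avg, Finset.mul_sum]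
  rw [Finset.sum_comm]

lemma avg_mono (H : Cfg n → ℝ) {f g : Cfg n → ℝ} (h : ∀ x, f x ≤ g x) :
    avg H f ≤ avg H g :=
  Finset.sum_le_sum fun x _ => mul_le_mul_of_nonneg_left (h x) (gibbs_nonneg H x)

lemma avg_nonneg (H : Cfg n → ℝ) {f : Cfg n → ℝ} (h : ∀ x, 0 ≤ f x) : 0 ≤ avg H f :=
  Finset.sum_nonneg fun x _ => mul_nonneg (gibbs_nonneg H x) (h x)

lemma avg_pos (H : Cfg n → ℝ) {f : Cfg n → ℝ} (h : ∀ x, 0 < f x) : 0 < avg H f :=
  Finset.sum_pos (fun x _ => mul_pos (gibbs_pos H x) (h x)) Finset.univ_nonempty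

/-- Resumming over one spin: `∑_x F x = ½ ∑_x ∑_s F (x^{i → s})`. -/
lemma sum_resum (i : Fin n) (F : Cfg n → ℝ) :
    ∑ x, F x = 1 / 2 * ∑ x, ∑ s : ℤˣ, F (Function.update x i s) := by
  classical
  let e : Cfg n ≃ Cfg n :=
    { toFun := fun x => Function.update x i (-(x i))
      invFun := fun x => Function.update x i (-(x i))
      left_inv := fun x => by simp
      right_inv := fun x => by simp }
  have h1 : ∀ x : Cfg n, ∑ s : ℤˣ, F (Function.update x i s) = F x + F (e x) := by
    intro x
    rw [sum_spin]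
    rcases Int.units_eq_one_or (x i) with h | h
    · have a : Function.update x i 1 = x := by rw [← h]; simp
      have b : e x = Function.update x i (-1) := by
        change Function.update x i (-(x i)) = _
        rw [h]
      rw [a, b]
    · have a : Function.update x i (-1) = x := by rw [← h]; simp
      have b : e x = Function.update x i 1 := by
        change Function.update x i (-(x i)) = _
        rw [h, neg_neg]
      rw [a, b]; ring
  simp only [h1]
  rw [Finset.sum_add_distrib, Equiv.sum_comp e F]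
  ring

/-- The denominator of `condExp` and the heat-bath kernel do not see the current spin. -/
lemma condExp_update (H : Cfg n → ℝ) (i : Fin n) (f : Cfg n → ℝ) (x : Cfg n) (s : ℤˣ) :
    condExp H i f (Function.update x i s) = condExp H i f x := by
  simp only [condExp, Function.update_idem]

/-- `condExp` written with unnormalised weights. -/
lemma condExp_eq_exp (H : Cfg n → ℝ) (i : Fin n) (f : Cfg n → ℝ) (x : Cfg n) :
    condExp H i f x =
      (∑ s : ℤˣ, Real.exp (H (Function.update x i s)) * f (Function.update x i s)) /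
        ∑ s : ℤˣ, Real.exp (H (Function.update x i s)) := by
  simp only [condExp, gibbs]
  have hz := (Z_pos H).ne'
  set Z := ∑ y, Real.exp (H y)
  rw [← Finset.sum_div]
  have : ∀ s : ℤˣ, Real.exp (H (Function.update x i s)) / Z * f (Function.update x i s)
      = (Real.exp (H (Function.update x i s)) * f (Function.update x i s)) / Z := by
    intro s; ring
  simp only [this]
  rw [← Finset.sum_div, div_div_div_cancel_right₀ hz]

/-- `E_μ[Q_i f · g] = E_μ[f · Q_i g]`; reversibility of `Q_i`. -/
lemma avg_condExp_mul (H : Cfg n → ℝ) (i : Fin n) (f g : Cfg n → ℝ) :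
    avg H (fun x => condExp H i f x * g x) = avg H (fun x => f x * condExp H i g x) := by
  simp only [avg]
  rw [sum_resum i, sum_resum i (F := fun x => gibbs H x * (f x * condExp H i g x))]
  congr 1
  refine Finset.sum_congr rfl fun x _ => ?_
  simp only [condExp_update]
  have hD : (0 : ℝ) < ∑ s : ℤˣ, gibbs H (Function.update x i s) :=
    Finset.sum_pos (fun s _ => gibbs_pos H _) Finset.univ_nonempty
  have e1 : ∑ s : ℤˣ, gibbs H (Function.update x i s) * (condExp H i f x * g (Function.update x i s))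
      = condExp H i f x * ∑ s : ℤˣ, gibbs H (Function.update x i s) * g (Function.update x i s) := by
    rw [Finset.mul_sum]; exact Finset.sum_congr rfl fun s _ => by ring
  have e2 : ∑ s : ℤˣ, gibbs H (Function.update x i s) * (f (Function.update x i s) * condExp H i g x)
      = condExp H i g x * ∑ s : ℤˣ, gibbs H (Function.update x i s) * f (Function.update x i s) := by
    rw [Finset.mul_sum]; exact Finset.sum_congr rfl fun s _ => by ring
  rw [e1, e2]
  simp only [condExp]
  ring

/-- Tower property. -/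
lemma avg_condExp (H : Cfg n → ℝ) (i : Fin n) (f : Cfg n → ℝ) :
    avg H (condExp H i f) = avg H f := by
  have h := avg_condExp_mul H i f (fun _ => 1)
  have hc : ∀ x, condExp H i (fun _ => (1 : ℝ)) x = 1 := by
    intro x
    simp only [condExp, mul_one]
    exact div_self (Finset.sum_pos (fun s _ => gibbs_pos H _) Finset.univ_nonempty).ne'
  simpa only [mul_one, hc] using h

end

end Vale.Agent.P150
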