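import Mathlib

/-!
P150: definitions for Glauber (heat-bath) dynamics of the Sherrington-Kirkpatrick model.
-/

namespace Vale.Agent.P150

open MeasureTheory ProbabilityTheory
open scoped BigOperators

noncomputable section

/-- Spin configurations `{-1,1}^n`. -/
abbrev Cfg (n : ℕ) : Type := Fin n → ℤˣ

/-- The real value `±1` of a spin. -/
def val (s : ℤˣ) : ℝ := ((s : ℤ) : ℝ)

/-- The index set of pairs `i < j`. -/
abbrev Pair (n : ℕ) : Type := {p : Fin n × Fin n // p.1 < p.2}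

/-- The law of the disorder: i.i.d. standard Gaussians `g_{ij}`, `i < j`. -/
def disorder (n : ℕ) : Measure (Pair n → ℝ) :=
  Measure.pi (fun _ => gaussianReal 0 1)

/-- The exponent of the zero-field SK measure,
`H(x) = β / √n * ∑_{i<j} g_{ij} x_i x_j`. -/
def skH (n : ℕ) (β : ℝ) (g : Pair n → ℝ) (x : Cfg n) : ℝ :=
  β / Real.sqrt n * ∑ p : Pair n, g p * val (x p.1.1) * val (x p.1.2)

/-- The Gibbs measure with exponent `H`: `μ(x) = exp (H x) / Z`. -/
def gibbs {n : ℕ} (H : Cfg n → ℝ) (x : Cfg n) : ℝ :=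
  Real.exp (H x) / ∑ y, Real.exp (H y)

/-- Expectation under the Gibbs measure. -/
def avg {n : ℕ} (H : Cfg n → ℝ) (f : Cfg n → ℝ) : ℝ :=
  ∑ x, gibbs H x * f x

/-- Variance under the Gibbs measure. -/
def var {n : ℕ} (H : Cfg n → ℝ) (f : Cfg n → ℝ) : ℝ :=
  avg H (fun x => (f x - avg H f) ^ 2)

/-- Heat-bath update at site `i`: the conditional expectation of `f` given `x_{-i}` under the
Gibbs measure. -/
def condExp {n : ℕ} (H : Cfg n → ℝ) (i : Fin n) (f : Cfg n → ℝ) (x : Cfg n) : ℝ :=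
  (∑ s : ℤˣ, gibbs H (Function.update x i s) * f (Function.update x i s)) /
    ∑ s : ℤˣ, gibbs H (Function.update x i s)

/-- The heat-bath generator `(ℒ f)(x) = ∑_i (Q_i f (x) - f x)`. -/
def gen {n : ℕ} (H : Cfg n → ℝ) (f : Cfg n → ℝ) (x : Cfg n) : ℝ :=
  ∑ i, (condExp H i f x - f x)

/-- The heat-bath generator as a linear map. -/
def genL {n : ℕ} (H : Cfg n → ℝ) : (Cfg n → ℝ) →ₗ[ℝ] (Cfg n → ℝ) where
  toFun := gen H
  map_add' f g := by
    funext x
    simp only [gen, condExp, Pi.add_apply, mul_add, Finset.sum_add_distrib, add_div]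
    rw [← Finset.sum_add_distrib]
    exact Finset.sum_congr rfl fun i _ => by ring
  map_smul' c f := by
    funext x
    simp only [gen, condExp, Pi.smul_apply, smul_eq_mul, RingHom.id_apply, Finset.mul_sum]
    refine Finset.sum_congr rfl fun i _ => ?_
    rw [mul_sub, ← mul_div_assoc, Finset.mul_sum]
    congr 2
    exact Finset.sum_congr rfl fun s _ => by ring

/-- The semigroup `P_t = exp (t ℒ)` of the continuous-time heat-bath dynamics. -/
def semi {n : ℕ} (H : Cfg n → ℝ) (t : ℝ) : (Cfg n → ℝ) →L[ℝ] (Cfg n → ℝ) :=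
  NormedSpace.exp (t • LinearMap.toContinuousLinearMap (genL H))

/-- The transition kernel `P_t(x, y)`. -/
def kernel {n : ℕ} (H : Cfg n → ℝ) (t : ℝ) (x y : Cfg n) : ℝ :=
  semi H t (Pi.single y 1) x

/-- Total variation distance between `P_t(x, ·)` and the Gibbs measure. -/
def tvDist {n : ℕ} (H : Cfg n → ℝ) (t : ℝ) (x : Cfg n) : ℝ :=
  1 / 2 * ∑ y, |kernel H t x y - gibbs H y|

/-- The mixing time `inf {t ≥ 0 : max_x ‖P_t(x,·) - μ‖_TV ≤ 1/4}`, with value `⊤` when the set is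
empty. -/
def tMix {n : ℕ} (H : Cfg n → ℝ) : EReal :=
  sInf {t : EReal | ∃ r : ℝ, 0 ≤ r ∧ t = r ∧ ∀ x, tvDist H r x ≤ 1 / 4}

/-- The Dirichlet form `⟨f, -ℒ f⟩` in `L²(μ)`. -/
def dir {n : ℕ} (H : Cfg n → ℝ) (f : Cfg n → ℝ) : ℝ :=
  avg H (fun x => f x * (- gen H f x))

/-- The spectral gap of `-ℒ` on `L²(μ)`: the infimum of `⟨f, -ℒ f⟩ / Var f` over functions of
non-zero variance. -/
def specGap {n : ℕ} (H : Cfg n → ℝ) : ℝ :=
  sInf {r : ℝ | ∃ f : Cfg n → ℝ, var H f ≠ 0 ∧ r = dir H f / var H f}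

end

end Vale.Agent.P150
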