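import Vale.Agent.P150.Main

/-!
P150: the fast-mixing theorem with arbitrary external fields (uniformly in the field).
-/

namespace Vale.Agent.P150

open MeasureTheory ProbabilityTheory Filter
open scoped BigOperators Topology

/-- The exponent of the SK measure with external field `h`. -/
noncomputable def skHField (n : ℕ) (β : ℝ) (g : Pair n → ℝ) (h : Fin n → ℝ) (x : Cfg n) : ℝ :=
  skH n β g x + ∑ i, h i * val (x i)

namespace Fields

lemma skHField_eq (n : ℕ) (β : ℝ) (g : Pair n → ℝ) (h : Fin n → ℝ) :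
    skHField n β g h = isH (skJ n β g) h := by
  funext x
  unfold skHField
  rw [skH_eq_isH]
  simp [isH, lin]

end Fields

open Main Fields

theorem gap_fields_whp (β : ℝ) (hβ0 : 0 ≤ β) (hβ : β < 1 / 2) (ε : ℝ) (hε : 0 < ε) :
    Tendsto (fun n : ℕ => disorder n {g | ∃ h : Fin n → ℝ,
      specGap (skHField n β g h) < 1 - 2 * β - ε}) atTop (𝓝 0) := by
  set δ := min ε (1 / 2 - β) / 2000 with hδ
  have hmin : 0 < min ε (1 / 2 - β) := lt_min hε (by linarith)
  have hδ0 : 0 < δ := by positivity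
  have h1 : 2000 * δ ≤ ε := by
    have := min_le_left ε (1 / 2 - β)
    rw [hδ]; linarith
  have h2 : 2000 * δ ≤ 1 / 2 - β := by
    have := min_le_right ε (1 / 2 - β)
    rw [hδ]; linarith
  refine tendsto_of_tendsto_of_tendsto_of_le_of_le' tendsto_const_nhds
    (good_whp β hβ0 δ hδ0) (Eventually.of_forall fun _ => zero_le) ?_
  filter_upwards [eventually_ne_atTop 0] with n hn
  refine measure_mono fun g hg => ?_
  rw [Set.mem_ofPred_eq] at hg ⊢
  intro hgood
  obtain ⟨h, hg⟩ := hg
  have hk := kappa_bound β δ hβ0 hβ hδ0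
  have hc : 0 < 1 - max (2 * β + δ) (2 * (β ^ 2 + δ)) - 1000 * δ := by linarith
  have hge := specGap_ge (skHField n β g h) _ hn (fun f => by
    rw [skHField_eq]
    exact poincare_good hgood.1 hc h f)
  linarith

theorem mix_fields_whp (β : ℝ) (hβ0 : 0 ≤ β) (hβ : β < 1 / 2) (K : ℕ) :
    ∃ C : ℝ, Tendsto (fun n : ℕ => disorder n {g | ∃ h : Fin n → ℝ,
      (∀ i, |h i| ≤ (n : ℝ) ^ K) ∧ ((C * Real.log n : ℝ) : EReal) < tMix (skHField n β g h)})
      atTop (𝓝 0) := by
  set δ := (1 / 2 - β) / 2000 with hδ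
  have hδ0 : 0 < δ := by
    have : 0 < 1 / 2 - β := by linarith
    positivity
  have h2 : 2000 * δ ≤ 1 / 2 - β := by rw [hδ]; linarith
  set c := 1 - max (2 * β + δ) (2 * (β ^ 2 + δ)) - 1000 * δ with hcdef
  have hk := kappa_bound β δ hβ0 hβ hδ0
  have hc : 0 < c := by rw [hcdef]; linarith
  set C := Real.exp ((2 * β + δ + (2 * β + δ)) * (1 / c)) with hC
  have hC0 : 0 < C := Real.exp_pos _
  refine ⟨(K + 20) * C, ?_⟩
  refine tendsto_of_tendsto_of_tendsto_of_le_of_le' tendsto_const_nhds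
    (good_whp β hβ0 δ hδ0) (Eventually.of_forall fun _ => zero_le) ?_
  filter_upwards [eventually_ge_atTop 2] with n hn
  have hn0 : n ≠ 0 := by omega
  refine measure_mono fun g hg => ?_
  rw [Set.mem_ofPred_eq] at hg ⊢
  intro hgood
  obtain ⟨h, hh, hlt⟩ := hg
  rw [← not_le] at hlt
  apply hlt
  have hcov : ∀ t : ℝ, 0 ≤ t → t ≤ 1 → ∀ h v : Fin n → ℝ,
      var (isH (t • skJ n β g) h) (lin v) ≤ 1 / c * ∑ i, v i ^ 2 := by
    intro t ht0 ht1 h v
    exact cov_le _ c hc (fun f => poincare_good (good_smul hn0 hgood.1 t ht0 ht1) hc h f) v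
  have hcpos : 0 < 1 / c := by positivity
  have hent : ∀ f : Cfg n → ℝ, (∀ x, 0 < f x) →
      ent (skHField n β g h) f
        ≤ C * ∑ i, avg (skHField n β g h) (condEnt (skHField n β g h) i f) := by
    intro f hf
    rw [skHField_eq]
    exact ent_factor_J (skJ n β g) hgood.1.symm (2 * β + δ) (2 * β + δ) (1 / c) hcpos
      (by linarith) hgood.2 hgood.1.quad hcov h f hf
  have hn2 : (2 : ℝ) ≤ n := by exact_mod_cast hn
  have hnpos : (0 : ℝ) ≤ n := by linarith
  have hpow : (1 : ℝ) ≤ (n : ℝ) ^ K := one_le_pow₀ (by linarith)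
  -- size of the exponent
  have hM : ∀ x, |skHField n β g h x| ≤ 2 * (n * (n : ℝ) ^ K) := by
    intro x
    rw [skHField_eq]
    have hsq : ∑ i, val (x i) ^ 2 = n := by simp [val_sq]
    have q1 := hgood.1.quad (fun i => val (x i))
    have q2 := hgood.2 (fun i => val (x i))
    rw [hsq] at q1 q2
    have hl : |lin h x| ≤ n * (n : ℝ) ^ K := by
      unfold lin
      refine (Finset.abs_sum_le_sum_abs _ _).trans ?_
      calc ∑ i, |h i * val (x i)| ≤ ∑ _i : Fin n, (n : ℝ) ^ K := by
            refine Finset.sum_le_sum fun i _ => ?_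
            rw [abs_mul, abs_val, mul_one]; exact hh i
        _ = n * (n : ℝ) ^ K := by
            rw [Finset.sum_const, Finset.card_univ, Fintype.card_fin, nsmul_eq_mul]
    have hcoef : 2 * β + δ ≤ 2 := by linarith
    have hm := mul_le_mul_of_nonneg_right hcoef hnpos
    have hn1 : (n : ℝ) ≤ n * (n : ℝ) ^ K := by nlinarith
    have hl2 := abs_le.mp hl
    unfold isH
    rw [abs_le]
    constructor <;> linarith [hl2.1, hl2.2]
  have hB : ∀ x, Real.log (1 / gibbs (skHField n β g h) x) ≤ 5 * (n * (n : ℝ) ^ K) := by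
    intro x
    refine (log_inv_gibbs_le _ _ hM x).trans ?_
    have hl2 : Real.log 2 ≤ 1 := by linarith [Real.log_two_lt_d9]
    have hn1 : (n : ℝ) ≤ n * (n : ℝ) ^ K := by nlinarith
    have : (n : ℝ) * Real.log 2 ≤ n := by nlinarith
    linarith
  have hlogn : Real.log 2 ≤ Real.log n := Real.log_le_log (by norm_num) hn2
  have hlog2 : 0 < Real.log 2 := Real.log_pos (by norm_num)
  have hpowpos : 0 < (n : ℝ) ^ K := by linarith
  have ht : C * Real.log (64 * (5 * (n * (n : ℝ) ^ K))) ≤ (K + 20) * C * Real.log n := by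
    have e : Real.log (64 * (5 * (n * (n : ℝ) ^ K)))
        = Real.log 320 + (K + 1) * Real.log n := by
      have e1 : 64 * (5 * ((n : ℝ) * (n : ℝ) ^ K)) = 320 * (n : ℝ) ^ (K + 1) := by
        rw [pow_succ]; ring
      rw [e1, Real.log_mul (by norm_num) (by positivity), Real.log_pow]
      push_cast; ring
    have e2 : Real.log 320 ≤ 9 * Real.log 2 := by
      rw [← Real.log_rpow (by norm_num)]
      apply Real.log_le_log (by norm_num)
      norm_num
    rw [e]
    have hKn : (0 : ℝ) ≤ K := Nat.cast_nonneg K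
    nlinarith
  have hr0 : 0 ≤ (K + 20) * C * Real.log n := by
    have : 0 ≤ Real.log n := by linarith
    positivity
  refine sInf_le ⟨(K + 20) * C * Real.log n, hr0, rfl, fun x => ?_⟩
  exact mixing (skHField n β g h) C (5 * (n * (n : ℝ) ^ K)) hC0 (by positivity) hent hB _ hr0 ht x

end Vale.Agent.P150
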