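import Mathlib

/-!
P150 module PAIR: the two-spin inequality.
-/

namespace Vale.Agent.P150.Pair

open Real

/-- Algebraic identity for one pair of spin values. -/
lemma cell (T p q s t r ρ D : ℝ) (hr0 : r ≠ 0) (hρ0 : ρ ≠ 0) (hD0 : D ≠ 0)
    (hr : r = 1 + t * T * p) (hρ : ρ = 1 + s * T * q) (hD : D = 1 - T ^ 2)
    (hs : s = 1 ∨ s = -1) (ht : t = 1 ∨ t = -1) :
    (1 + s * t * T) * (1 + s * p) * (1 + t * q) *
      ((s - (p + t * T) / r) * (t - (q + s * T) / ρ) +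
        T / D * (1 - ((p + t * T) / r) ^ 2) *
          (1 - ((q + s * T) / ρ) ^ 2))
      = (1 - p ^ 2) * (1 - q ^ 2) * D *
        (s * t + (s * t * (T * (p * q) * D + T ^ 2 * (1 - p ^ 2 - q ^ 2)
            - T ^ 4 * (p * q) ^ 2) - 2 * T ^ 2 * (p * q) * (1 + T * (t * p + s * q))) *
            (1 / r ^ 2) * (1 / ρ ^ 2)) := by
  field_simp
  subst hr hρ hD
  rcases hs with rfl | rfl <;> rcases ht with rfl | rfl <;> ring

/-- Lower bound of the diagonal coefficients. -/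
lemma diag_lb (T p t K : ℝ) (hK : 20 ≤ K) (hT : |T| ≤ 1 / 100) (hp : |p| ≤ 1)
    (ht : t = 1 ∨ t = -1) :
    T ^ 2 * p ^ 2 + K / 2 * |T| ^ 3 ≤
      T ^ 2 * (p + t * T) ^ 2 / (1 + t * T * p) ^ 3 + K * |T| ^ 3 / (1 + t * T * p) := by
  have hT0 : 0 ≤ |T| := abs_nonneg T
  have htT : |t * T| = |T| := by
    rcases ht with rfl | rfl <;> simp
  have htTp : |t * T * p| ≤ |T| := by
    rw [abs_mul, htT]
    nlinarith [abs_nonneg p]
  have h1 := abs_le.mp htTp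
  set r := 1 + t * T * p with hr
  have hr1 : r ≤ 1 + |T| := by linarith [h1.2]
  have hr0 : 99 / 100 ≤ r := by linarith [h1.1]
  have hrpos : 0 < r := by linarith
  have hr3 : r ^ 3 ≤ (1 + |T|) ^ 3 := by gcongr
  have hinv3 : 1 - 3 * |T| ≤ 1 / r ^ 3 := by
    rw [le_div_iff₀ (by positivity)]
    by_cases hc : 0 ≤ 1 - 3 * |T|
    · calc (1 - 3 * |T|) * r ^ 3 ≤ (1 - 3 * |T|) * (1 + |T|) ^ 3 := by gcongr
        _ ≤ 1 := by nlinarith [mul_nonneg hT0 hT0, mul_nonneg (mul_nonneg hT0 hT0) hT0,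
            mul_nonneg (mul_nonneg hT0 hT0) (mul_nonneg hT0 hT0)]
    · exfalso; apply hc; linarith
  have hinv1 : 99 / 100 ≤ 1 / r := by
    rw [le_div_iff₀ hrpos]
    linarith
  have habs : |p * (t * T)| ≤ |T| := by
    rw [abs_mul, htT]
    nlinarith [abs_nonneg p]
  have h2 := abs_le.mp habs
  have hsq : p ^ 2 - 2 * |T| ≤ (p + t * T) ^ 2 := by
    nlinarith [sq_nonneg (t * T)]
  have hsq2 : (p + t * T) ^ 2 ≤ 11 / 10 := by
    have hp2 : p ^ 2 ≤ 1 := by nlinarith [abs_nonneg p, sq_abs p]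
    have ht2 : (t * T) ^ 2 ≤ 1 / 10000 := by
      rw [← sq_abs, htT]; nlinarith
    nlinarith [h2.1, h2.2]
  have hX : p ^ 2 - 6 * |T| ≤ (p + t * T) ^ 2 * (1 / r ^ 3) := by
    calc p ^ 2 - 6 * |T| ≤ (p + t * T) ^ 2 * (1 - 3 * |T|) := by nlinarith
      _ ≤ _ := by gcongr
  have hT3 : T ^ 2 * |T| = |T| ^ 3 := by rw [← sq_abs]; ring
  have e1 : T ^ 2 * (p + t * T) ^ 2 / r ^ 3 = T ^ 2 * ((p + t * T) ^ 2 * (1 / r ^ 3)) := by
    field_simp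
  have e2 : K * |T| ^ 3 / r = K * |T| ^ 3 * (1 / r) := by field_simp
  rw [e1, e2]
  have hT3n : 0 ≤ |T| ^ 3 := by positivity
  have i1 : T ^ 2 * (p ^ 2 - 6 * |T|) ≤ T ^ 2 * ((p + t * T) ^ 2 * (1 / r ^ 3)) := by gcongr
  have i2 : K * |T| ^ 3 * (99 / 100) ≤ K * |T| ^ 3 * (1 / r) := by
    have : 0 ≤ K * |T| ^ 3 := by positivity
    gcongr
  have i3 : T ^ 2 * (p ^ 2 - 6 * |T|) = T ^ 2 * p ^ 2 - 6 * |T| ^ 3 := by rw [← hT3]; ring
  rw [i3] at i1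
  nlinarith

/-- Weighted sums of squares. -/
lemma wsum_a (q u u' : ℝ) (hq : |q| < 1) :
    1 / 2 * (u + u') ^ 2 ≤ u ^ 2 / (1 - q) + u' ^ 2 / (1 + q) := by
  have h := abs_lt.mp hq
  have h1 : 0 < 1 - q := by linarith
  have h2 : 0 < 1 + q := by linarith
  rw [div_add_div _ _ h1.ne' h2.ne', le_div_iff₀ (mul_pos h1 h2)]
  nlinarith [sq_nonneg (u * (1 + q) - u' * (1 - q))]

lemma wsum_b (q u u' : ℝ) (hq : |q| < 1) :
    1 / 2 * (u ^ 2 + u' ^ 2) ≤ u ^ 2 / (1 - q) + u' ^ 2 / (1 + q) := by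
  have h := abs_lt.mp hq
  have h1 : 0 < 1 - q := by linarith
  have h2 : 0 < 1 + q := by linarith
  have a : 1 / 2 * u ^ 2 ≤ u ^ 2 / (1 - q) := by
    rw [le_div_iff₀ h1]; nlinarith [sq_nonneg u]
  have b : 1 / 2 * u' ^ 2 ≤ u' ^ 2 / (1 + q) := by
    rw [le_div_iff₀ h2]; nlinarith [sq_nonneg u']
  linarith

/-- Bound for `1/r² - 1`. -/
lemma inv_sq_err (e T : ℝ) (hT : |T| ≤ 1 / 100) (he : |e| ≤ |T|) :
    |1 / (1 + e) ^ 2 - 1| ≤ 21 / 10 * |T| := by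
  have h1 := abs_le.mp he
  have hpos : 0 < 1 + e := by linarith [abs_nonneg T]
  have e1 : 1 / (1 + e) ^ 2 - 1 = -(e * (2 + e)) / (1 + e) ^ 2 := by
    field_simp; ring
  rw [e1, abs_div, abs_neg, abs_mul, abs_of_pos (by positivity : 0 < (1 + e) ^ 2),
    div_le_iff₀ (by positivity)]
  have h2 : |2 + e| ≤ 201 / 100 := by
    rw [abs_le]; constructor <;> linarith [abs_nonneg T]
  have h3 : 9801 / 10000 ≤ (1 + e) ^ 2 := by nlinarith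
  calc |e| * |2 + e| ≤ |T| * (201 / 100) := by gcongr
    _ ≤ 21 / 10 * |T| * (9801 / 10000) := by nlinarith [abs_nonneg T]
    _ ≤ 21 / 10 * |T| * (1 + e) ^ 2 := by gcongr

/-- Bound for the product error. -/
lemma prod_err (T x e e' : ℝ) (hT : |T| ≤ 1 / 100) (hx : |x| ≤ 2 * |T|)
    (he : |e| ≤ 21 / 10 * |T|) (he' : |e'| ≤ 21 / 10 * |T|) :
    |(1 + x) * (1 + e) * (1 + e') - 1| ≤ 7 * |T| := by
  have hT0 := abs_nonneg T
  have h1 : |e * e'| ≤ 1 / 10 * |T| := by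
    rw [abs_mul]
    calc |e| * |e'| ≤ (21 / 10 * |T|) * (21 / 10 * |T|) := by gcongr
      _ ≤ _ := by nlinarith
  have h2 : |x * ((1 + e) * (1 + e'))| ≤ 22 / 10 * |T| := by
    rw [abs_mul, abs_mul]
    have a1 : |1 + e| ≤ 103 / 100 := by
      have := abs_le.mp he
      rw [abs_le]; constructor <;> linarith
    have a2 : |1 + e'| ≤ 103 / 100 := by
      have := abs_le.mp he'
      rw [abs_le]; constructor <;> linarith
    calc |x| * (|1 + e| * |1 + e'|) ≤ (2 * |T|) * ((103 / 100) * (103 / 100)) := by gcongr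
      _ ≤ _ := by nlinarith
  have e1 : (1 + x) * (1 + e) * (1 + e') - 1 = x * ((1 + e) * (1 + e')) + e + e' + e * e' := by
    ring
  rw [e1]
  have b1 := abs_le.mp h1
  have b2 := abs_le.mp h2
  have b3 := abs_le.mp he
  have b4 := abs_le.mp he'
  rw [abs_le]; constructor <;> linarith

/-- Bound for `θ`. -/
lemma theta_bd (T p q : ℝ) (hT : |T| ≤ 1 / 100) (hp : |p| < 1) (hq : |q| < 1) :
    |T * (p * q) * (1 - T ^ 2) + T ^ 2 * (1 - p ^ 2 - q ^ 2) - T ^ 4 * (p * q) ^ 2|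
      ≤ 103 / 100 * |T| := by
  have hT0 := abs_nonneg T
  have hT2 : T ^ 2 ≤ 1 / 100 * |T| := by rw [← sq_abs]; nlinarith
  have hp2 : p ^ 2 ≤ 1 := by nlinarith [abs_nonneg p, sq_abs p]
  have hq2 : q ^ 2 ≤ 1 := by nlinarith [abs_nonneg q, sq_abs q]
  have hpq : |p * q| ≤ 1 := by
    rw [abs_mul]
    calc |p| * |q| ≤ 1 * 1 := by gcongr
      _ = 1 := by norm_num
  have hpq2 : (p * q) ^ 2 ≤ 1 := by nlinarith [abs_nonneg (p * q), sq_abs (p * q)]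
  have hT2' : T ^ 2 ≤ 1 / 10000 := by rw [← sq_abs]; nlinarith
  have h1 : |T * (p * q) * (1 - T ^ 2)| ≤ |T| := by
    rw [abs_mul, abs_mul, abs_of_nonneg (by linarith : (0 : ℝ) ≤ 1 - T ^ 2)]
    calc |T| * |p * q| * (1 - T ^ 2) ≤ |T| * 1 * 1 := by
          gcongr
          · linarith
          · nlinarith [sq_nonneg T]
      _ = |T| := by ring
  have h2 : |T ^ 2 * (1 - p ^ 2 - q ^ 2)| ≤ 1 / 100 * |T| := by
    rw [abs_mul, abs_of_nonneg (sq_nonneg T)]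
    have : |1 - p ^ 2 - q ^ 2| ≤ 1 := by
      rw [abs_le]; constructor <;> nlinarith [sq_nonneg p, sq_nonneg q]
    calc T ^ 2 * |1 - p ^ 2 - q ^ 2| ≤ T ^ 2 * 1 := by gcongr
      _ ≤ _ := by linarith
  have h3 : |T ^ 4 * (p * q) ^ 2| ≤ 1 / 100 * |T| := by
    rw [abs_of_nonneg (by positivity)]
    calc T ^ 4 * (p * q) ^ 2 ≤ T ^ 4 * 1 := by gcongr
      _ = T ^ 2 * T ^ 2 := by ring
      _ ≤ 1 * (1 / 100 * |T|) := by gcongr; linarith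
      _ = _ := by ring
  have a1 := abs_le.mp h1
  have a2 := abs_le.mp h2
  have a3 := abs_le.mp h3
  rw [abs_le]; constructor <;> linarith

/-- Bound of `A²`. -/
lemma A_bd (T α γ e e' : ℝ) (he : |e| ≤ 21 / 10 * |T|)
    (he' : |e'| ≤ 21 / 10 * |T|) :
    ((1 + e) * (α + γ) - (1 + e') * (α - γ)) ^ 2 ≤ 8 * γ ^ 2 + 36 * T ^ 2 * (α ^ 2 + γ ^ 2) := by
  have e1 : (1 + e) * (α + γ) - (1 + e') * (α - γ) = 2 * γ + (e * (α + γ) - e' * (α - γ)) := by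
    ring
  set δ := e * (α + γ) - e' * (α - γ) with hδ
  have hT0 := abs_nonneg T
  have he2 : e ^ 2 ≤ 441 / 100 * T ^ 2 := by
    rw [← sq_abs e, ← sq_abs T]
    calc |e| ^ 2 ≤ (21 / 10 * |T|) ^ 2 := by gcongr
      _ = _ := by ring
  have he2' : e' ^ 2 ≤ 441 / 100 * T ^ 2 := by
    rw [← sq_abs e', ← sq_abs T]
    calc |e'| ^ 2 ≤ (21 / 10 * |T|) ^ 2 := by gcongr
      _ = _ := by ring
  have hδ2 : δ ^ 2 ≤ 18 * T ^ 2 * (α ^ 2 + γ ^ 2) := by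
    calc δ ^ 2 ≤ 2 * (e * (α + γ)) ^ 2 + 2 * (e' * (α - γ)) ^ 2 := by
          rw [hδ]; nlinarith [sq_nonneg (e * (α + γ) + e' * (α - γ))]
      _ = 2 * (e ^ 2 * (α + γ) ^ 2) + 2 * (e' ^ 2 * (α - γ) ^ 2) := by ring
      _ ≤ 2 * (441 / 100 * T ^ 2 * (α + γ) ^ 2) + 2 * (441 / 100 * T ^ 2 * (α - γ) ^ 2) := by
          gcongr
      _ = 1764 / 100 * T ^ 2 * (α ^ 2 + γ ^ 2) := by ring
      _ ≤ _ := by gcongr; norm_num
  rw [e1]
  nlinarith [sq_nonneg (2 * γ - δ)]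

/-- Bound of the `S` error term. -/
lemma S_bd (T α β γ η1 η2 η3 η4 : ℝ) (h1 : |η1| ≤ 7 * |T|) (h2 : |η2| ≤ 7 * |T|)
    (h3 : |η3| ≤ 7 * |T|) (h4 : |η4| ≤ 7 * |T|) :
    |η1 * ((α + γ) * (β + γ)) + η2 * ((α - γ) * (β + γ)) + η3 * ((α + γ) * (β - γ))
      + η4 * ((α - γ) * (β - γ))| ≤ 14 * |T| * (α ^ 2 + β ^ 2 + 2 * γ ^ 2) := by
  have key : ∀ η x y : ℝ, |η| ≤ 7 * |T| → |η * (x * y)| ≤ 7 / 2 * |T| * (x ^ 2 + y ^ 2) := by
    intro η x y h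
    rw [abs_mul]
    have hxy : |x * y| ≤ 1 / 2 * (x ^ 2 + y ^ 2) := by
      rw [abs_le]; constructor <;> nlinarith [sq_nonneg (x - y), sq_nonneg (x + y)]
    calc |η| * |x * y| ≤ (7 * |T|) * (1 / 2 * (x ^ 2 + y ^ 2)) := by gcongr
      _ = _ := by ring
  have k1 := abs_le.mp (key η1 (α + γ) (β + γ) h1)
  have k2 := abs_le.mp (key η2 (α - γ) (β + γ) h2)
  have k3 := abs_le.mp (key η3 (α + γ) (β - γ) h3)
  have k4 := abs_le.mp (key η4 (α - γ) (β - γ) h4)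
  rw [abs_le]; constructor <;> nlinarith [k1.1, k1.2, k2.1, k2.2, k3.1, k3.2, k4.1, k4.2]

/-- Final quadratic-form inequality, given bounds on all the pieces. -/
lemma final (T p q α β γ K θ A B E d1 d2 : ℝ) (hK : 100 ≤ K) (hT : |T| ≤ 1 / 100)
    (hp : |p| < 1) (hq : |q| < 1)
    (hθ : |θ| ≤ 103 / 100 * |T|)
    (hA : A ^ 2 ≤ 8 * γ ^ 2 + 36 * T ^ 2 * (α ^ 2 + γ ^ 2))
    (hB : B ^ 2 ≤ 8 * γ ^ 2 + 36 * T ^ 2 * (β ^ 2 + γ ^ 2))
    (hE : |E| ≤ 14 * |T| * (α ^ 2 + β ^ 2 + 2 * γ ^ 2))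
    (hd1 : T ^ 2 * p ^ 2 * (2 * α ^ 2) + K / 2 * |T| ^ 3 * (α ^ 2 + γ ^ 2) ≤ d1)
    (hd2 : T ^ 2 * q ^ 2 * (2 * β ^ 2) + K / 2 * |T| ^ 3 * (β ^ 2 + γ ^ 2) ≤ d2) :
    0 ≤ 4 * γ ^ 2 + θ * A * B - 2 * T ^ 2 * (p * q) * (4 * α * β + E) + 2 * d1 + 2 * d2 := by
  have hT0 := abs_nonneg T
  have hT3 : T ^ 2 * |T| = |T| ^ 3 := by rw [← sq_abs]; ring
  have hT3' : |T| * T ^ 2 = |T| ^ 3 := by rw [← sq_abs]; ring
  have hT3n : 0 ≤ |T| ^ 3 := by positivity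
  -- R1
  have hR1 : |θ * A * B| ≤ 9 * |T| * γ ^ 2 + 19 * |T| ^ 3 * (α ^ 2 + β ^ 2 + 2 * γ ^ 2) := by
    rw [mul_assoc, abs_mul]
    have hAB : |A * B| ≤ 1 / 2 * (A ^ 2 + B ^ 2) := by
      rw [abs_le]; constructor <;> nlinarith [sq_nonneg (A - B), sq_nonneg (A + B)]
    calc |θ| * |A * B| ≤ (103 / 100 * |T|) * (1 / 2 * (A ^ 2 + B ^ 2)) := by gcongr
      _ ≤ (103 / 100 * |T|) * (1 / 2 * ((8 * γ ^ 2 + 36 * T ^ 2 * (α ^ 2 + γ ^ 2))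
            + (8 * γ ^ 2 + 36 * T ^ 2 * (β ^ 2 + γ ^ 2)))) := by gcongr
      _ = 824 / 100 * |T| * γ ^ 2 + 1854 / 100 * (|T| * T ^ 2) * (α ^ 2 + β ^ 2 + 2 * γ ^ 2) := by
          ring
      _ ≤ _ := by
          rw [hT3']
          have : 0 ≤ |T| * γ ^ 2 := by positivity
          have : 0 ≤ |T| ^ 3 * (α ^ 2 + β ^ 2 + 2 * γ ^ 2) := by positivity
          nlinarith
  have hpq : |p * q| ≤ 1 := by
    rw [abs_mul]
    calc |p| * |q| ≤ 1 * 1 := by gcongr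
      _ = 1 := by norm_num
  have hR2 : |2 * T ^ 2 * (p * q) * E| ≤ 28 * |T| ^ 3 * (α ^ 2 + β ^ 2 + 2 * γ ^ 2) := by
    rw [abs_mul, abs_mul, abs_of_nonneg (by positivity : (0 : ℝ) ≤ 2 * T ^ 2)]
    calc 2 * T ^ 2 * |p * q| * |E| ≤ 2 * T ^ 2 * 1 * (14 * |T| * (α ^ 2 + β ^ 2 + 2 * γ ^ 2)) := by
          gcongr
      _ = 28 * (T ^ 2 * |T|) * (α ^ 2 + β ^ 2 + 2 * γ ^ 2) := by ring
      _ = _ := by rw [hT3]
  have r1 := abs_le.mp hR1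
  have r2 := abs_le.mp hR2
  have hsq : 0 ≤ T ^ 2 * (p * α - q * β) ^ 2 := by positivity
  have hγ : |T| * γ ^ 2 ≤ 1 / 100 * γ ^ 2 := by gcongr
  have hpos : 0 ≤ |T| ^ 3 * (α ^ 2 + β ^ 2 + 2 * γ ^ 2) := by positivity
  have hKs : 100 * (|T| ^ 3 * (α ^ 2 + β ^ 2 + 2 * γ ^ 2))
      ≤ K * (|T| ^ 3 * (α ^ 2 + β ^ 2 + 2 * γ ^ 2)) := by gcongr
  have hγ2 := sq_nonneg γ
  have e1 : 2 * (T ^ 2 * p ^ 2 * (2 * α ^ 2) + K / 2 * |T| ^ 3 * (α ^ 2 + γ ^ 2))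
      + 2 * (T ^ 2 * q ^ 2 * (2 * β ^ 2) + K / 2 * |T| ^ 3 * (β ^ 2 + γ ^ 2))
      - 2 * T ^ 2 * (p * q) * (4 * α * β + E)
      = 4 * (T ^ 2 * (p * α - q * β) ^ 2) + K * (|T| ^ 3 * (α ^ 2 + β ^ 2 + 2 * γ ^ 2))
        - 2 * T ^ 2 * (p * q) * E := by ring
  have r11 := r1.1
  have r22 := r2.2
  have e2 : 19 * |T| ^ 3 * (α ^ 2 + β ^ 2 + 2 * γ ^ 2)
      = 19 * (|T| ^ 3 * (α ^ 2 + β ^ 2 + 2 * γ ^ 2)) := by ring
  have e3 : 28 * |T| ^ 3 * (α ^ 2 + β ^ 2 + 2 * γ ^ 2)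
      = 28 * (|T| ^ 3 * (α ^ 2 + β ^ 2 + 2 * γ ^ 2)) := by ring
  have e4 : 9 * |T| * γ ^ 2 = 9 * (|T| * γ ^ 2) := by ring
  rw [e2, e4] at r11
  rw [e3] at r22
  linarith

/-- Diagonal cell identity. -/
lemma cellB (T p q t r κ K u D : ℝ) (hr0 : r ≠ 0) (hq0 : 1 - t * q ≠ 0)
    (hr : r = 1 + t * T * p) (hD : D = 1 - T ^ 2) (ht : t = 1 ∨ t = -1) :
    ((1 + 1 * t * T) * (1 + 1 * p) * (1 + t * q) + (1 + (-1) * t * T) * (1 + (-1) * p) * (1 + t * q)) *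
      ((T ^ 2 * ((1 - ((p + t * T) / r) ^ 2) * ((p + t * T) / r) ^ 2)
        + K * κ * (1 - ((p + t * T) / r) ^ 2)) * u ^ 2)
      = (1 - p ^ 2) * (1 - q ^ 2) * D *
        (2 * ((T ^ 2 * (p + t * T) ^ 2 / r ^ 3 + K * κ / r) * (u ^ 2 / (1 - t * q)))) := by
  field_simp
  subst hr hD
  rcases ht with rfl | rfl <;> ring

/-- One cell of the two-spin form, all ingredients abstract. -/
def cellG (W s t m n J' T2 Kκ u v : ℝ) : ℝ :=
  W * (((s - m) * (t - n) + J' * (1 - m ^ 2) * (1 - n ^ 2)) * (u * v)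
    + (T2 * ((1 - m ^ 2) * m ^ 2) + Kκ * (1 - m ^ 2)) * u ^ 2
    + (T2 * ((1 - n ^ 2) * n ^ 2) + Kκ * (1 - n ^ 2)) * v ^ 2)

/-- Assembly identity (pure algebra). -/
lemma assemble (W11 W12 W21 W22 m1 m2 n1 n2 J' T2 Kκ u1 u2 v1 v2 X11 X12 X21 X22 Y1 Y2 Y3 Y4 : ℝ)
    (c11 : W11 * ((1 - m1) * (1 - n1) + J' * (1 - m1 ^ 2) * (1 - n1 ^ 2)) = X11)
    (c12 : W12 * ((1 - m2) * (-1 - n1) + J' * (1 - m2 ^ 2) * (1 - n1 ^ 2)) = X12)
    (c21 : W21 * ((-1 - m1) * (1 - n2) + J' * (1 - m1 ^ 2) * (1 - n2 ^ 2)) = X21)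
    (c22 : W22 * ((-1 - m2) * (-1 - n2) + J' * (1 - m2 ^ 2) * (1 - n2 ^ 2)) = X22)
    (b1 : (W11 + W21) * ((T2 * ((1 - m1 ^ 2) * m1 ^ 2) + Kκ * (1 - m1 ^ 2)) * u1 ^ 2) = Y1)
    (b2 : (W12 + W22) * ((T2 * ((1 - m2 ^ 2) * m2 ^ 2) + Kκ * (1 - m2 ^ 2)) * u2 ^ 2) = Y2)
    (b3 : (W11 + W12) * ((T2 * ((1 - n1 ^ 2) * n1 ^ 2) + Kκ * (1 - n1 ^ 2)) * v1 ^ 2) = Y3)
    (b4 : (W21 + W22) * ((T2 * ((1 - n2 ^ 2) * n2 ^ 2) + Kκ * (1 - n2 ^ 2)) * v2 ^ 2) = Y4) :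
    cellG W11 1 1 m1 n1 J' T2 Kκ u1 v1 + cellG W12 1 (-1) m2 n1 J' T2 Kκ u2 v1
      + cellG W21 (-1) 1 m1 n2 J' T2 Kκ u1 v2 + cellG W22 (-1) (-1) m2 n2 J' T2 Kκ u2 v2
      = X11 * (u1 * v1) + X12 * (u2 * v1) + X21 * (u1 * v2) + X22 * (u2 * v2)
        + Y1 + Y2 + Y3 + Y4 := by
  subst c11 c12 c21 c22 b1 b2 b3 b4
  simp only [cellG]
  ring

/-- Second assembly identity (pure algebra). -/
lemma assemble2 (T p q θ D' a1 a2 b1 b2 α β γ d1 d2 d3 d4 : ℝ) :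
    D' * (4 * γ ^ 2 + θ * (a1 * (α + γ) - a2 * (α - γ)) * (b1 * (β + γ) - b2 * (β - γ))
        - 2 * T ^ 2 * (p * q) * (4 * α * β +
          (((1 + T * (1 * p + 1 * q)) * a1 * b1 - 1) * ((α + γ) * (β + γ))
          + ((1 + T * (-1 * p + 1 * q)) * a2 * b1 - 1) * ((α - γ) * (β + γ))
          + ((1 + T * (1 * p + -1 * q)) * a1 * b2 - 1) * ((α + γ) * (β - γ))
          + ((1 + T * (-1 * p + -1 * q)) * a2 * b2 - 1) * ((α - γ) * (β - γ))))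
        + 2 * (d1 + d2) + 2 * (d3 + d4))
      = D' * (1 * 1 + (1 * 1 * θ - 2 * T ^ 2 * (p * q) * (1 + T * (1 * p + 1 * q))) * a1 * b1)
          * ((α + γ * 1) * (β + γ * 1))
        + D' * (1 * -1 + (1 * -1 * θ - 2 * T ^ 2 * (p * q) * (1 + T * (-1 * p + 1 * q))) * a2 * b1)
          * ((α + γ * -1) * (β + γ * 1))
        + D' * (-1 * 1 + (-1 * 1 * θ - 2 * T ^ 2 * (p * q) * (1 + T * (1 * p + -1 * q))) * a1 * b2)
          * ((α + γ * 1) * (β + γ * -1))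
        + D' * (-1 * -1 + (-1 * -1 * θ - 2 * T ^ 2 * (p * q) * (1 + T * (-1 * p + -1 * q))) * a2 * b2)
          * ((α + γ * -1) * (β + γ * -1))
        + D' * (2 * d1) + D' * (2 * d2) + D' * (2 * d3) + D' * (2 * d4) := by
  ring

/-- One cell of the two-spin form. -/
noncomputable def cellF (T p q α β γ K s t : ℝ) : ℝ :=
  cellG ((1 + s * t * T) * (1 + s * p) * (1 + t * q)) s t
    ((p + t * T) / (1 + t * T * p)) ((q + s * T) / (1 + s * T * q)) (T / (1 - T ^ 2)) (T ^ 2)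
    (K * |T| ^ 3) (α + γ * t) (β + γ * s)

/-- Algebraic two-spin inequality. -/
theorem star_alg (T p q α β γ K : ℝ) (hK : 100 ≤ K) (hT : |T| ≤ 1 / 100)
    (hp : |p| < 1) (hq : |q| < 1) :
    0 ≤ cellF T p q α β γ K 1 1 + cellF T p q α β γ K 1 (-1) + cellF T p q α β γ K (-1) 1
      + cellF T p q α β γ K (-1) (-1) := by
  have hT0 := abs_nonneg T
  have hp1 := abs_lt.mp hp
  have hq1 := abs_lt.mp hq
  have hTp : |T * p| ≤ |T| := by rw [abs_mul]; nlinarith [abs_nonneg p]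
  have hTq : |T * q| ≤ |T| := by rw [abs_mul]; nlinarith [abs_nonneg q]
  have bTp := abs_le.mp hTp
  have bTq := abs_le.mp hTq
  have hT2 : T ^ 2 ≤ 1 / 100 := by rw [← sq_abs]; nlinarith
  have hD : 0 < 1 - T ^ 2 := by linarith
  have hp2 : 0 < 1 - p ^ 2 := by nlinarith
  have hq2 : 0 < 1 - q ^ 2 := by nlinarith
  have r1 : (1 : ℝ) + 1 * T * p ≠ 0 := by nlinarith
  have r2 : (1 : ℝ) + -1 * T * p ≠ 0 := by nlinarith
  have r3 : (1 : ℝ) + 1 * T * q ≠ 0 := by nlinarith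
  have r4 : (1 : ℝ) + -1 * T * q ≠ 0 := by nlinarith
  have q1 : (1 : ℝ) - 1 * q ≠ 0 := by nlinarith
  have q2 : (1 : ℝ) - -1 * q ≠ 0 := by nlinarith
  have p1 : (1 : ℝ) - 1 * p ≠ 0 := by nlinarith
  have p2 : (1 : ℝ) - -1 * p ≠ 0 := by nlinarith
  set D := 1 - T ^ 2 with hDdef
  -- cross terms
  have c11 := cell T p q 1 1 _ _ D r1 r3 hD.ne' rfl rfl rfl (Or.inl rfl) (Or.inl rfl)
  have c12 := cell T p q 1 (-1) _ _ D r2 r3 hD.ne' rfl rfl rfl (Or.inl rfl) (Or.inr rfl)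
  have c21 := cell T p q (-1) 1 _ _ D r1 r4 hD.ne' rfl rfl rfl (Or.inr rfl) (Or.inl rfl)
  have c22 := cell T p q (-1) (-1) _ _ D r2 r4 hD.ne' rfl rfl rfl (Or.inr rfl) (Or.inr rfl)
  -- diagonal terms
  have b1 := cellB T p q 1 _ (|T| ^ 3) K (α + γ * 1) D r1 q1 rfl rfl (Or.inl rfl)
  have b2 := cellB T p q (-1) _ (|T| ^ 3) K (α + γ * (-1)) D r2 q2 rfl rfl (Or.inr rfl)
  have b3 := cellB T q p 1 _ (|T| ^ 3) K (β + γ * 1) D r3 p1 rfl rfl (Or.inl rfl)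
  have b4 := cellB T q p (-1) _ (|T| ^ 3) K (β + γ * (-1)) D r4 p2 rfl rfl (Or.inr rfl)
  -- bounds
  set θ := T * (p * q) * D + T ^ 2 * (1 - p ^ 2 - q ^ 2) - T ^ 4 * (p * q) ^ 2 with hθ
  have hθb : |θ| ≤ 103 / 100 * |T| := by rw [hθ, hDdef]; exact theta_bd T p q hT hp hq
  have E1 := inv_sq_err (1 * T * p) T hT (by rw [one_mul]; exact hTp)
  have E2 := inv_sq_err (-1 * T * p) T hT (by rw [mul_assoc, neg_one_mul, abs_neg]; exact hTp)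
  have E3 := inv_sq_err (1 * T * q) T hT (by rw [one_mul]; exact hTq)
  have E4 := inv_sq_err (-1 * T * q) T hT (by rw [mul_assoc, neg_one_mul, abs_neg]; exact hTq)
  have hA := A_bd T α γ _ _ E1 E2
  have hB := A_bd T β γ _ _ E3 E4
  have hx : ∀ s t : ℝ, |s| = 1 → |t| = 1 → |T * (t * p + s * q)| ≤ 2 * |T| := by
    intro s t hs ht
    rw [abs_mul]
    have : |t * p + s * q| ≤ 2 := by
      calc |t * p + s * q| ≤ |t * p| + |s * q| := abs_add_le _ _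
        _ = |p| + |q| := by rw [abs_mul, abs_mul, hs, ht, one_mul, one_mul]
        _ ≤ 2 := by linarith
    calc |T| * |t * p + s * q| ≤ |T| * 2 := by gcongr
      _ = _ := by ring
  have n1 : |(1 : ℝ)| = 1 := abs_one
  have n2 : |(-1 : ℝ)| = 1 := by norm_num
  have P11 := prod_err T _ _ _ hT (hx 1 1 n1 n1) E1 E3
  have P12 := prod_err T _ _ _ hT (hx 1 (-1) n1 n2) E2 E3
  have P21 := prod_err T _ _ _ hT (hx (-1) 1 n2 n1) E1 E4
  have P22 := prod_err T _ _ _ hT (hx (-1) (-1) n2 n2) E2 E4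
  have hE := S_bd T α β γ _ _ _ _ P11 P12 P21 P22
  have dd : ∀ x y z : ℝ, |x| < 1 → |y| < 1 →
      T ^ 2 * x ^ 2 * (2 * z ^ 2) + K / 2 * |T| ^ 3 * (z ^ 2 + γ ^ 2) ≤
      (T ^ 2 * (x + 1 * T) ^ 2 / (1 + 1 * T * x) ^ 3 + K * |T| ^ 3 / (1 + 1 * T * x))
          * ((z + γ * 1) ^ 2 / (1 - 1 * y)) +
      (T ^ 2 * (x + -1 * T) ^ 2 / (1 + -1 * T * x) ^ 3 + K * |T| ^ 3 / (1 + -1 * T * x))
          * ((z + γ * (-1)) ^ 2 / (1 - -1 * y)) := by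
    intro x y z hx' hy'
    have d1 := diag_lb T x 1 K (by linarith) hT hx'.le (Or.inl rfl)
    have d2 := diag_lb T x (-1) K (by linarith) hT hx'.le (Or.inr rfl)
    have hy1 := abs_lt.mp hy'
    have g1 : 0 ≤ (z + γ * 1) ^ 2 / (1 - 1 * y) := div_nonneg (sq_nonneg _) (by linarith)
    have g2 : 0 ≤ (z + γ * (-1)) ^ 2 / (1 - -1 * y) := div_nonneg (sq_nonneg _) (by linarith)
    have w1 := wsum_a y (z + γ) (z - γ) hy'
    have w2 := wsum_b y (z + γ) (z - γ) hy'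
    have e1 : (z + γ * 1) ^ 2 / (1 - 1 * y) = (z + γ) ^ 2 / (1 - y) := by
      rw [mul_one, one_mul]
    have e2 : (z + γ * (-1)) ^ 2 / (1 - -1 * y) = (z - γ) ^ 2 / (1 + y) := by
      congr 1 <;> ring
    have w1' : 2 * z ^ 2 ≤ (z + γ * 1) ^ 2 / (1 - 1 * y) + (z + γ * (-1)) ^ 2 / (1 - -1 * y) := by
      rw [e1, e2]; calc _ = 1 / 2 * (z + γ + (z - γ)) ^ 2 := by ring
        _ ≤ _ := w1
    have w2' : z ^ 2 + γ ^ 2 ≤ (z + γ * 1) ^ 2 / (1 - 1 * y) + (z + γ * (-1)) ^ 2 / (1 - -1 * y) := by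
      rw [e1, e2]; calc _ = 1 / 2 * ((z + γ) ^ 2 + (z - γ) ^ 2) := by ring
        _ ≤ _ := w2
    have hX : 0 ≤ T ^ 2 * x ^ 2 := by positivity
    have hY : 0 ≤ K / 2 * |T| ^ 3 := by
      have : 0 ≤ K := by linarith
      positivity
    calc T ^ 2 * x ^ 2 * (2 * z ^ 2) + K / 2 * |T| ^ 3 * (z ^ 2 + γ ^ 2)
        ≤ T ^ 2 * x ^ 2 * ((z + γ * 1) ^ 2 / (1 - 1 * y) + (z + γ * (-1)) ^ 2 / (1 - -1 * y))
          + K / 2 * |T| ^ 3 * ((z + γ * 1) ^ 2 / (1 - 1 * y)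
            + (z + γ * (-1)) ^ 2 / (1 - -1 * y)) :=
          add_le_add (mul_le_mul_of_nonneg_left w1' hX) (mul_le_mul_of_nonneg_left w2' hY)
      _ = (T ^ 2 * x ^ 2 + K / 2 * |T| ^ 3) * ((z + γ * 1) ^ 2 / (1 - 1 * y))
          + (T ^ 2 * x ^ 2 + K / 2 * |T| ^ 3) * ((z + γ * (-1)) ^ 2 / (1 - -1 * y)) := by ring
      _ ≤ _ := add_le_add (mul_le_mul_of_nonneg_right d1 g1) (mul_le_mul_of_nonneg_right d2 g2)
  have D1 := dd p q α hp hq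
  have D2 := dd q p β hq hp
  have F := final T p q α β γ K θ _ _ _ _ _ hK hT hp hq hθb hA hB hE D1 D2
  have hpos : 0 < (1 - p ^ 2) * (1 - q ^ 2) * D := by positivity
  have b3' : ((1 + 1 * 1 * T) * (1 + 1 * p) * (1 + 1 * q)
      + (1 + 1 * -1 * T) * (1 + 1 * p) * (1 + -1 * q)) *
      ((T ^ 2 * ((1 - ((q + 1 * T) / (1 + 1 * T * q)) ^ 2) * ((q + 1 * T) / (1 + 1 * T * q)) ^ 2)
        + K * |T| ^ 3 * (1 - ((q + 1 * T) / (1 + 1 * T * q)) ^ 2)) * (β + γ * 1) ^ 2)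
      = (1 - p ^ 2) * (1 - q ^ 2) * D *
        (2 * ((T ^ 2 * (q + 1 * T) ^ 2 / (1 + 1 * T * q) ^ 3 + K * |T| ^ 3 / (1 + 1 * T * q))
          * ((β + γ * 1) ^ 2 / (1 - 1 * p)))) := by
    rw [show (1 - p ^ 2) * (1 - q ^ 2) * D = (1 - q ^ 2) * (1 - p ^ 2) * D by ring, ← b3]
    congr 1; ring
  have b4' : ((1 + -1 * 1 * T) * (1 + -1 * p) * (1 + 1 * q)
      + (1 + -1 * -1 * T) * (1 + -1 * p) * (1 + -1 * q)) *
      ((T ^ 2 * ((1 - ((q + -1 * T) / (1 + -1 * T * q)) ^ 2) * ((q + -1 * T) / (1 + -1 * T * q)) ^ 2)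
        + K * |T| ^ 3 * (1 - ((q + -1 * T) / (1 + -1 * T * q)) ^ 2)) * (β + γ * -1) ^ 2)
      = (1 - p ^ 2) * (1 - q ^ 2) * D *
        (2 * ((T ^ 2 * (q + -1 * T) ^ 2 / (1 + -1 * T * q) ^ 3 + K * |T| ^ 3 / (1 + -1 * T * q))
          * ((β + γ * -1) ^ 2 / (1 - -1 * p)))) := by
    rw [show (1 - p ^ 2) * (1 - q ^ 2) * D = (1 - q ^ 2) * (1 - p ^ 2) * D by ring, ← b4]
    congr 1; ring
  refine le_trans (mul_nonneg hpos.le F) (le_of_eq ?_)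
  have hasm := assemble _ _ _ _ _ _ _ _ _ (T ^ 2) (K * |T| ^ 3) _ _ _ _ _ _ _ _ _ _ _ _
    c11 c12 c21 c22 b1 b2 b3' b4'
  simp only [cellF]
  rw [hDdef.symm, hasm]
  have e1 : ∀ x : ℝ, 1 + (x - 1) = x := fun x => by ring
  rw [e1, e1, e1, e1]
  exact assemble2 T p q θ ((1 - p ^ 2) * (1 - q ^ 2) * D) _ _ _ _ α β γ _ _ _ _

lemma sinh_le_mul_cosh {x : ℝ} (hx : 0 ≤ x) : sinh x ≤ x * cosh x := by
  rcases hx.eq_or_lt with rfl | hx
  · simp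
  obtain ⟨c, hc, hc'⟩ := exists_deriv_eq_slope sinh hx Real.continuous_sinh.continuousOn
    Real.differentiable_sinh.differentiableOn
  rw [Real.deriv_sinh, sinh_zero, sub_zero, sub_zero, eq_div_iff hx.ne'] at hc'
  rw [← hc']
  have : cosh c ≤ cosh x := by
    rw [Real.cosh_le_cosh, abs_of_pos hc.1, abs_of_pos hx]; exact hc.2.le
  nlinarith

lemma abs_tanh_le (x : ℝ) : |tanh x| ≤ |x| := by
  have key : ∀ y : ℝ, 0 ≤ y → |tanh y| ≤ |y| := by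
    intro y hy
    rw [tanh_eq_sinh_div_cosh, abs_div, abs_of_pos (cosh_pos y), div_le_iff₀ (cosh_pos y),
      abs_of_nonneg hy, abs_of_nonneg (Real.sinh_nonneg_iff.mpr hy)]
    exact sinh_le_mul_cosh hy
  rcases le_total 0 x with h | h
  · exact key x h
  · have := key (-x) (by linarith)
    rwa [Real.tanh_neg, abs_neg, abs_neg] at this

lemma tanh_ratio (J : ℝ) : tanh J / (1 - tanh J ^ 2) = sinh (2 * J) / 2 := by
  have hc := cosh_pos J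
  have h1 : 1 - tanh J ^ 2 = 1 / cosh J ^ 2 := by
    rw [tanh_eq_sinh_div_cosh]
    have := Real.cosh_sq J
    field_simp
    linarith
  rw [h1, tanh_eq_sinh_div_cosh, Real.sinh_two_mul]
  field_simp

lemma sinh_err (x : ℝ) (hx : |x| ≤ 1) : |sinh x - x| ≤ 2 / 9 * |x| ^ 3 := by
  have h1 := Real.exp_bound hx (n := 3) (by norm_num)
  have h2 := Real.exp_bound (x := -x) (by rwa [abs_neg]) (n := 3) (by norm_num)
  rw [abs_neg] at h2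
  simp only [Finset.sum_range_succ, Finset.sum_range_zero, Nat.factorial] at h1 h2
  norm_num at h1 h2
  rw [Real.sinh_eq]
  have b1 := abs_le.mp h1
  have b2 := abs_le.mp h2
  rw [abs_le]
  constructor <;> nlinarith [b1.1, b1.2, b2.1, b2.2]

lemma ratio_err (J : ℝ) (hJ : |J| ≤ 1 / 100) :
    |J - tanh J / (1 - tanh J ^ 2)| ≤ |J| ^ 3 := by
  rw [tanh_ratio]
  have h := sinh_err (2 * J) (by rw [abs_mul, abs_two]; linarith)
  have e : J - sinh (2 * J) / 2 = -((sinh (2 * J) - 2 * J) / 2) := by ring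
  rw [e, abs_neg, abs_div, abs_two]
  rw [abs_mul, abs_two] at h
  have : 0 ≤ |J| ^ 3 := by positivity
  calc |sinh (2 * J) - 2 * J| / 2 ≤ (2 / 9 * (2 * |J|) ^ 3) / 2 := by gcongr
    _ = 8 / 9 * |J| ^ 3 := by ring
    _ ≤ _ := by linarith

lemma tanh_add' (a b : ℝ) : tanh (a + b) = (tanh a + tanh b) / (1 + tanh b * tanh a) := by
  have ha := (cosh_pos a).ne'
  have hb := (cosh_pos b).ne'
  have hab := cosh_pos (a + b)
  have h := cosh_add a b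
  rw [tanh_eq_sinh_div_cosh, tanh_eq_sinh_div_cosh, tanh_eq_sinh_div_cosh, sinh_add, cosh_add]
  have h2 : cosh a * cosh b + sinh a * sinh b ≠ 0 := by rw [← h]; exact hab.ne'
  have h3 : 1 + sinh b / cosh b * (sinh a / cosh a) = (cosh a * cosh b + sinh a * sinh b) / (cosh a * cosh b) := by
    field_simp
  rw [h3]
  field_simp

lemma exp_sign (a s : ℝ) (hs : s = 1 ∨ s = -1) : exp (a * s) = cosh a * (1 + s * tanh a) := by
  have hc := (cosh_pos a).ne'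
  rw [tanh_eq_sinh_div_cosh]
  rcases hs with rfl | rfl
  · rw [mul_one, one_mul, ← Real.cosh_add_sinh]; field_simp
  · rw [mul_neg_one, ← Real.cosh_sub_sinh]; field_simp; ring

lemma tanh_sign (a J t : ℝ) (ht : t = 1 ∨ t = -1) :
    tanh (a + J * t) = (tanh a + t * tanh J) / (1 + t * tanh J * tanh a) := by
  rw [tanh_add']
  rcases ht with rfl | rfl
  · rw [mul_one, one_mul]
  · rw [mul_neg_one, Real.tanh_neg, neg_one_mul]

/-- comparison of one cell. -/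
lemma cell_mono (W s t m n J J' T u v K K' : ℝ) (hW : 0 ≤ W) (hm : m ^ 2 ≤ 1) (hn : n ^ 2 ≤ 1)
    (hK : 0 ≤ K) (hK' : K + 1 ≤ K')
    (hJ : |J - J'| ≤ |J| ^ 3) (hT : |T| ≤ |J|) :
    cellG W s t m n J' (T ^ 2) (K * |T| ^ 3) u v ≤ cellG W s t m n J (J ^ 2) (K' * |J| ^ 3) u v := by
  unfold cellG
  refine mul_le_mul_of_nonneg_left ?_ hW
  have h1 : 0 ≤ 1 - m ^ 2 := by linarith
  have h2 : 0 ≤ 1 - n ^ 2 := by linarith
  have hT2 : T ^ 2 ≤ J ^ 2 := sq_le_sq.mpr hT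
  have hT3 : |T| ^ 3 ≤ |J| ^ 3 := by gcongr
  have hJ3 : 0 ≤ |J| ^ 3 := by positivity
  have hKK : K * |T| ^ 3 + |J| ^ 3 ≤ K' * |J| ^ 3 := by nlinarith
  have hcross : |(J - J') * ((1 - m ^ 2) * (1 - n ^ 2) * (u * v))| ≤
      |J| ^ 3 * ((1 - m ^ 2) * u ^ 2 + (1 - n ^ 2) * v ^ 2) := by
    rw [abs_mul]
    have hx : |(1 - m ^ 2) * (1 - n ^ 2) * (u * v)| ≤ (1 - m ^ 2) * u ^ 2 + (1 - n ^ 2) * v ^ 2 := by
      rw [abs_mul, abs_of_nonneg (mul_nonneg h1 h2)]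
      have huv : |u * v| ≤ 1 / 2 * (u ^ 2 + v ^ 2) := by
        rw [abs_le]; constructor <;> nlinarith [sq_nonneg (u - v), sq_nonneg (u + v)]
      have a1 : (1 - m ^ 2) * (1 - n ^ 2) ≤ 1 - m ^ 2 := by nlinarith [sq_nonneg n]
      have a2 : (1 - m ^ 2) * (1 - n ^ 2) ≤ 1 - n ^ 2 := by nlinarith [sq_nonneg m]
      calc (1 - m ^ 2) * (1 - n ^ 2) * |u * v|
          ≤ (1 - m ^ 2) * (1 - n ^ 2) * (1 / 2 * (u ^ 2 + v ^ 2)) := by
            have := mul_nonneg h1 h2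
            gcongr
        _ = 1 / 2 * ((1 - m ^ 2) * (1 - n ^ 2) * u ^ 2) + 1 / 2 * ((1 - m ^ 2) * (1 - n ^ 2) * v ^ 2) := by
            ring
        _ ≤ 1 / 2 * ((1 - m ^ 2) * u ^ 2) + 1 / 2 * ((1 - n ^ 2) * v ^ 2) := by gcongr
        _ ≤ _ := by
            have := mul_nonneg h1 (sq_nonneg u)
            have := mul_nonneg h2 (sq_nonneg v)
            linarith
    gcongr
  have c1 := (abs_le.mp hcross).1
  have d1 : 0 ≤ (J ^ 2 - T ^ 2) * ((1 - m ^ 2) * m ^ 2 * u ^ 2) :=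
    mul_nonneg (by linarith) (by positivity)
  have d2 : 0 ≤ (J ^ 2 - T ^ 2) * ((1 - n ^ 2) * n ^ 2 * v ^ 2) :=
    mul_nonneg (by linarith) (by positivity)
  have d3 : 0 ≤ (K' * |J| ^ 3 - K * |T| ^ 3 - |J| ^ 3) * ((1 - m ^ 2) * u ^ 2) :=
    mul_nonneg (by linarith) (by positivity)
  have d4 : 0 ≤ (K' * |J| ^ 3 - K * |T| ^ 3 - |J| ^ 3) * ((1 - n ^ 2) * v ^ 2) :=
    mul_nonneg (by linarith) (by positivity)
  nlinarith [c1, d1, d2, d3, d4]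

/-- Two-spin inequality. -/
theorem star (J a b α β γ : ℝ) (hJ : |J| ≤ 1 / 100) :
    0 ≤ cellG (exp (J * (1 * 1) + a * 1 + b * 1)) 1 1 (tanh (a + J * 1)) (tanh (b + J * 1)) J
          (J ^ 2) (200 * |J| ^ 3) (α + γ * 1) (β + γ * 1)
      + cellG (exp (J * (1 * -1) + a * 1 + b * -1)) 1 (-1) (tanh (a + J * -1)) (tanh (b + J * 1)) J
          (J ^ 2) (200 * |J| ^ 3) (α + γ * -1) (β + γ * 1)
      + cellG (exp (J * (-1 * 1) + a * -1 + b * 1)) (-1) 1 (tanh (a + J * 1)) (tanh (b + J * -1)) J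
          (J ^ 2) (200 * |J| ^ 3) (α + γ * 1) (β + γ * -1)
      + cellG (exp (J * (-1 * -1) + a * -1 + b * -1)) (-1) (-1) (tanh (a + J * -1))
          (tanh (b + J * -1)) J (J ^ 2) (200 * |J| ^ 3) (α + γ * -1) (β + γ * -1) := by
  have hT : |tanh J| ≤ 1 / 100 := (abs_tanh_le J).trans hJ
  have hp : |tanh a| < 1 := by
    rw [abs_lt]; exact ⟨Real.neg_one_lt_tanh a, Real.tanh_lt_one a⟩
  have hq : |tanh b| < 1 := by
    rw [abs_lt]; exact ⟨Real.neg_one_lt_tanh b, Real.tanh_lt_one b⟩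
  have hS := star_alg (tanh J) (tanh a) (tanh b) α β γ 100 le_rfl hT hp hq
  have hcc : 0 < cosh J * cosh a * cosh b := by
    have := cosh_pos J; have := cosh_pos a; have := cosh_pos b; positivity
  have hS2 := mul_nonneg hcc.le hS
  refine le_trans hS2 ?_
  have msq : ∀ y : ℝ, tanh y ^ 2 ≤ 1 := fun y => (Real.tanh_sq_lt_one y).le
  have one : ∀ s t : ℝ, (s = 1 ∨ s = -1) → (t = 1 ∨ t = -1) →
      cosh J * cosh a * cosh b * cellF (tanh J) (tanh a) (tanh b) α β γ 100 s t ≤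
      cellG (exp (J * (s * t) + a * s + b * t)) s t (tanh (a + J * t)) (tanh (b + J * s)) J
          (J ^ 2) (200 * |J| ^ 3) (α + γ * t) (β + γ * s) := by
    intro s t hs ht
    have hst : s * t = 1 ∨ s * t = -1 := by
      rcases hs with rfl | rfl <;> rcases ht with rfl | rfl <;> norm_num
    have hW : exp (J * (s * t) + a * s + b * t) = cosh J * cosh a * cosh b *
        ((1 + s * t * tanh J) * (1 + s * tanh a) * (1 + t * tanh b)) := by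
      rw [Real.exp_add, Real.exp_add, exp_sign J _ hst, exp_sign a s hs, exp_sign b t ht]; ring
    have e : cosh J * cosh a * cosh b * cellF (tanh J) (tanh a) (tanh b) α β γ 100 s t
        = cellG (exp (J * (s * t) + a * s + b * t)) s t (tanh (a + J * t)) (tanh (b + J * s))
          (tanh J / (1 - tanh J ^ 2)) (tanh J ^ 2) (100 * |tanh J| ^ 3) (α + γ * t) (β + γ * s) := by
      rw [tanh_sign a J t ht, tanh_sign b J s hs, hW, cellF, cellG, cellG]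
      ring
    rw [e]
    exact cell_mono _ s t _ _ J _ _ _ _ 100 200 (Real.exp_pos _).le (msq _) (msq _) (by norm_num)
      (by norm_num) (ratio_err J hJ) (abs_tanh_le J)
  have o11 := one 1 1 (Or.inl rfl) (Or.inl rfl)
  have o12 := one 1 (-1) (Or.inl rfl) (Or.inr rfl)
  have o21 := one (-1) 1 (Or.inr rfl) (Or.inl rfl)
  have o22 := one (-1) (-1) (Or.inr rfl) (Or.inr rfl)
  calc _ = cosh J * cosh a * cosh b * cellF (tanh J) (tanh a) (tanh b) α β γ 100 1 1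
      + cosh J * cosh a * cosh b * cellF (tanh J) (tanh a) (tanh b) α β γ 100 1 (-1)
      + cosh J * cosh a * cosh b * cellF (tanh J) (tanh a) (tanh b) α β γ 100 (-1) 1
      + cosh J * cosh a * cosh b * cellF (tanh J) (tanh a) (tanh b) α β γ 100 (-1) (-1) := by ring
    _ ≤ _ := add_le_add (add_le_add (add_le_add o11 o12) o21) o22

end Vale.Agent.P150.Pair
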