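import Vale.Agent.P150.Core
import Vale.Agent.P150.Pair

/-!
P150 module GAP: `⟨Lf,Lf⟩ ≥ (1 - max(λ,2ρ) - K τ) ⟨f,Lf⟩`, uniformly in the external field.
-/

namespace Vale.Agent.P150

open scoped BigOperators

variable {n : ℕ}

namespace Gap

noncomputable section

/-- Local field at `i`. -/
def fld (J : Matrix (Fin n) (Fin n) ℝ) (h : Fin n → ℝ) (i : Fin n) (x : Cfg n) : ℝ :=
  h i + ∑ k, J i k * val (x k)

/-- Discrete derivative. -/
def du (i : Fin n) (f : Cfg n → ℝ) (x : Cfg n) : ℝ :=
  (f (Function.update x i 1) - f (Function.update x i (-1))) / 2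

lemma val_update (x : Cfg n) (i : Fin n) (s : ℤˣ) (k : Fin n) :
    val (Function.update x i s k) = val (x k) + (if k = i then val s - val (x i) else 0) := by
  by_cases hk : k = i
  · subst hk; simp
  · simp [hk]

lemma fld_update (J : Matrix (Fin n) (Fin n) ℝ) (h : Fin n → ℝ) (i j : Fin n) (x : Cfg n)
    (s : ℤˣ) :
    fld J h i (Function.update x j s) = fld J h i x + J i j * (val s - val (x j)) := by
  unfold fld
  simp only [val_update, mul_add, Finset.sum_add_distrib, mul_ite, mul_zero]
  rw [Finset.sum_ite_eq' Finset.univ j]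
  simp only [Finset.mem_univ, if_true]
  ring

lemma isH_update (J : Matrix (Fin n) (Fin n) ℝ) (hs : ∀ i j, J i j = J j i)
    (hd : ∀ i, J i i = 0) (h : Fin n → ℝ) (i : Fin n) (x : Cfg n) (s : ℤˣ) :
    isH J h (Function.update x i s) = isH J h x + (val s - val (x i)) * fld J h i x := by
  set δ := val s - val (x i) with hδ
  have e1 : ∀ k, val (Function.update x i s k) = val (x k) + (if k = i then δ else 0) :=
    fun k => val_update x i s k
  have hlin : lin h (Function.update x i s) = lin h x + h i * δ := by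
    unfold lin
    simp only [e1, mul_add, Finset.sum_add_distrib, mul_ite, mul_zero]
    rw [Finset.sum_ite_eq' Finset.univ i]
    simp
  have hquad : ∑ k, ∑ l, J k l * val (Function.update x i s k) * val (Function.update x i s l)
      = ∑ k, ∑ l, J k l * val (x k) * val (x l) + 2 * (δ * ∑ l, J i l * val (x l)) := by
    have e2 : ∀ k l, J k l * val (Function.update x i s k) * val (Function.update x i s l)
        = J k l * val (x k) * val (x l) + (if l = i then J k l * val (x k) * δ else 0)
          + (if k = i then J k l * δ * val (x l) else 0)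
          + (if k = i then (if l = i then J k l * δ * δ else 0) else 0) := by
      intro k l
      rw [e1, e1]
      by_cases hk : k = i <;> by_cases hl : l = i <;> simp [hk, hl] <;> ring
    simp only [e2, Finset.sum_add_distrib]
    have t1 : ∑ k, ∑ l, (if l = i then J k l * val (x k) * δ else 0)
        = δ * ∑ l, J i l * val (x l) := by
      have : ∀ k, ∑ l, (if l = i then J k l * val (x k) * δ else 0) = J k i * val (x k) * δ := by
        intro k
        rw [Finset.sum_ite_eq' Finset.univ i]; simp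
      simp only [this]
      rw [Finset.mul_sum]
      exact Finset.sum_congr rfl fun k _ => by rw [hs k i]; ring
    have t2 : ∑ k, ∑ l, (if k = i then J k l * δ * val (x l) else 0)
        = δ * ∑ l, J i l * val (x l) := by
      rw [Finset.sum_comm]
      have : ∀ l, ∑ k, (if k = i then J k l * δ * val (x l) else 0) = J i l * δ * val (x l) := by
        intro l
        rw [Finset.sum_ite_eq' Finset.univ i]; simp
      simp only [this]
      rw [Finset.mul_sum]
      exact Finset.sum_congr rfl fun k _ => by ring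
    have t3 : ∑ k, ∑ l, (if k = i then (if l = i then J k l * δ * δ else 0) else 0) = 0 := by
      refine Finset.sum_eq_zero fun k _ => Finset.sum_eq_zero fun l _ => ?_
      by_cases hk : k = i
      · by_cases hl : l = i
        · simp [hk, hl, hd i]
        · simp [hk, hl]
      · simp [hk]
    rw [t1, t2, t3]; ring
  unfold isH
  rw [hlin, hquad]
  unfold fld
  ring

/-- `f - Q_i f = (x_i - m_i) ∂_i f`. -/
lemma sub_condExp (J : Matrix (Fin n) (Fin n) ℝ) (hs : ∀ i j, J i j = J j i)
    (hd : ∀ i, J i i = 0) (h : Fin n → ℝ) (i : Fin n) (f : Cfg n → ℝ) (x : Cfg n) :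
    f x - condExp (isH J h) i f x = (val (x i) - Real.tanh (fld J h i x)) * du i f x := by
  rw [condExp_eq_exp, sum_spin, sum_spin, isH_update J hs hd, isH_update J hs hd, val_one,
    val_neg_one]
  set θ := fld J h i x
  set E := isH J h x
  have e1 : Real.exp (E + (1 - val (x i)) * θ) = Real.exp (E - val (x i) * θ) * Real.exp θ := by
    rw [← Real.exp_add]; congr 1; ring
  have e2 : Real.exp (E + (-1 - val (x i)) * θ) = Real.exp (E - val (x i) * θ) * Real.exp (-θ) := by
    rw [← Real.exp_add]; congr 1; ring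
  rw [e1, e2, Real.tanh_eq]
  have hE := Real.exp_pos (E - val (x i) * θ)
  have h1 := Real.exp_pos θ
  have h2 := Real.exp_pos (-θ)
  set X := Real.exp (E - val (x i) * θ)
  set P := Real.exp θ
  set N := Real.exp (-θ)
  have hd1 : X * P + X * N ≠ 0 := by positivity
  have hd2 : P + N ≠ 0 := by positivity
  unfold du
  rcases Int.units_eq_one_or (x i) with hx | hx
  · have a : Function.update x i 1 = x := by rw [← hx]; simp
    rw [a, hx, val_one]
    field_simp
    ring
  · have a : Function.update x i (-1) = x := by rw [← hx]; simp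
    rw [a, hx, val_neg_one]
    field_simp
    ring

lemma du_update (i : Fin n) (f : Cfg n → ℝ) (x : Cfg n) (s : ℤˣ) :
    du i f (Function.update x i s) = du i f x := by
  simp only [du, Function.update_idem]

lemma fld_update_self (J : Matrix (Fin n) (Fin n) ℝ) (hd : ∀ i, J i i = 0) (h : Fin n → ℝ)
    (i : Fin n) (x : Cfg n) (s : ℤˣ) :
    fld J h i (Function.update x i s) = fld J h i x := by
  rw [fld_update, hd]; ring

/-- `E[(D_i f)^2] = E[w_i (∂_i f)^2]`. -/
lemma avg_D_sq (J : Matrix (Fin n) (Fin n) ℝ) (hs : ∀ i j, J i j = J j i)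
    (hd : ∀ i, J i i = 0) (h : Fin n → ℝ) (i : Fin n) (f : Cfg n → ℝ) :
    avg (isH J h) (fun x => (f x - condExp (isH J h) i f x) ^ 2)
      = avg (isH J h) (fun x => (1 - Real.tanh (fld J h i x) ^ 2) * du i f x ^ 2) := by
  simp only [avg]
  rw [sum_resum i, sum_resum i
    (F := fun x => gibbs (isH J h) x * ((1 - Real.tanh (fld J h i x) ^ 2) * du i f x ^ 2))]
  congr 1
  refine Finset.sum_congr rfl fun x _ => ?_
  simp only [sum_spin, sub_condExp J hs hd, du_update, fld_update_self J hd,
    Function.update_self, val_one, val_neg_one, gibbs, isH_update J hs hd]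
  set θ := fld J h i x
  set E := isH J h x
  have e1 : Real.exp (E + (1 - val (x i)) * θ) = Real.exp (E - val (x i) * θ) * Real.exp θ := by
    rw [← Real.exp_add]; congr 1; ring
  have e2 : Real.exp (E + (-1 - val (x i)) * θ) = Real.exp (E - val (x i) * θ) * Real.exp (-θ) := by
    rw [← Real.exp_add]; congr 1; ring
  rw [e1, e2, Real.tanh_eq]
  have h1 := Real.exp_pos θ
  have h2 := Real.exp_pos (-θ)
  have hz := (Z_pos (isH J h)).ne'
  set X := Real.exp (E - val (x i) * θ)
  set P := Real.exp θ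
  set N := Real.exp (-θ)
  set Z := ∑ y, Real.exp (isH J h y)
  have hd2 : P + N ≠ 0 := by positivity
  field_simp
  ring

lemma condExp_idem (H : Cfg n → ℝ) (i : Fin n) (f : Cfg n → ℝ) (x : Cfg n) :
    condExp H i (condExp H i f) x = condExp H i f x := by
  have hD : (0 : ℝ) < ∑ s : ℤˣ, gibbs H (Function.update x i s) :=
    Finset.sum_pos (fun s _ => gibbs_pos H _) Finset.univ_nonempty
  conv_lhs => rw [condExp]
  simp only [condExp_update]
  rw [← Finset.sum_mul, mul_comm, mul_div_assoc, div_self hD.ne', mul_one]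

/-- `⟨f, Lf⟩ = ∑ ‖f - Q_i f‖²`. -/
lemma avg_mul_Lop (H : Cfg n → ℝ) (f : Cfg n → ℝ) :
    avg H (fun x => f x * Lop H f x) = ∑ i, avg H (fun x => (f x - condExp H i f x) ^ 2) := by
  have h1 : ∀ x, f x * Lop H f x = ∑ i, f x * (f x - condExp H i f x) := by
    intro x; rw [Lop, Finset.mul_sum]
  simp only [h1]
  rw [avg_sum]
  refine Finset.sum_congr rfl fun i _ => ?_
  have h2 := avg_condExp_mul H i f (condExp H i f)
  simp only [condExp_idem] at h2
  have e1 : avg H (fun x => f x * (f x - condExp H i f x))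
      = avg H (fun x => f x * f x) - avg H (fun x => f x * condExp H i f x) := by
    rw [← avg_sub]; congr 1; funext x; ring
  have e2 : avg H (fun x => (f x - condExp H i f x) ^ 2)
      = avg H (fun x => f x * f x) - 2 * avg H (fun x => f x * condExp H i f x)
        + avg H (fun x => condExp H i f x * condExp H i f x) := by
    rw [← avg_const_mul, ← avg_sub, ← avg_add]; congr 1; funext x; ring
  rw [e1, e2, h2]; ring

/-- The integrand of the pair inequality. -/
def pairG (J : Matrix (Fin n) (Fin n) ℝ) (h : Fin n → ℝ) (f : Cfg n → ℝ) (i j : Fin n)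
    (x : Cfg n) : ℝ :=
  ((val (x i) - Real.tanh (fld J h i x)) * (val (x j) - Real.tanh (fld J h j x)) +
    J i j * (1 - Real.tanh (fld J h i x) ^ 2) * (1 - Real.tanh (fld J h j x) ^ 2))
      * (du i f x * du j f x)
    + (J i j ^ 2 * ((1 - Real.tanh (fld J h i x) ^ 2) * Real.tanh (fld J h i x) ^ 2)
        + 200 * |J i j| ^ 3 * (1 - Real.tanh (fld J h i x) ^ 2)) * du i f x ^ 2
    + (J i j ^ 2 * ((1 - Real.tanh (fld J h j x) ^ 2) * Real.tanh (fld J h j x) ^ 2)
        + 200 * |J i j| ^ 3 * (1 - Real.tanh (fld J h j x) ^ 2)) * du j f x ^ 2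

/-- Averaged pair inequality. -/
lemma avg_pair (J : Matrix (Fin n) (Fin n) ℝ) (hs : ∀ i j, J i j = J j i)
    (hd : ∀ i, J i i = 0) (h : Fin n → ℝ) (f : Cfg n → ℝ) (i j : Fin n) (hij : i ≠ j)
    (hJ : |J i j| ≤ 1 / 100) :
    0 ≤ avg (isH J h) (pairG J h f i j) := by
  simp only [avg]
  rw [sum_resum i]
  refine mul_nonneg (by norm_num) ?_
  have hcomm : ∑ x : Cfg n, ∑ s : ℤˣ, gibbs (isH J h) (Function.update x i s)
      * pairG J h f i j (Function.update x i s)
      = 1 / 2 * ∑ x : Cfg n, ∑ t : ℤˣ, ∑ s : ℤˣ,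
        gibbs (isH J h) (Function.update (Function.update x j t) i s)
        * pairG J h f i j (Function.update (Function.update x j t) i s) := by
    exact sum_resum j (F := fun x => ∑ s : ℤˣ, gibbs (isH J h) (Function.update x i s)
      * pairG J h f i j (Function.update x i s))
  rw [hcomm]
  refine mul_nonneg (by norm_num) (Finset.sum_nonneg fun x _ => ?_)
  -- notation
  have hji : j ≠ i := hij.symm
  set y : ℤˣ → ℤˣ → Cfg n := fun s t => Function.update (Function.update x j t) i s with hy
  set a := fld J h i x - J i j * val (x j) with ha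
  set b := fld J h j x - J i j * val (x i) with hb
  set C := isH J h x - val (x i) * fld J h i x - val (x j) * fld J h j x
    + J i j * val (x i) * val (x j) with hC
  have yi : ∀ s t, y s t i = s := fun s t => by simp [hy]
  have yj : ∀ s t, y s t j = t := fun s t => by simp [hy, hji]
  have fi : ∀ s t, fld J h i (y s t) = a + J i j * val t := by
    intro s t
    simp only [hy, fld_update, hd, ha]; ring
  have fj : ∀ s t, fld J h j (y s t) = b + J i j * val s := by
    intro s t
    simp only [hy, fld_update, hd, hb, hs j i]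
    rw [Function.update_of_ne hij]; ring
  have Hy : ∀ s t, isH J h (y s t) = C + (J i j * (val s * val t) + a * val s + b * val t) := by
    intro s t
    simp only [hy]
    rw [isH_update J hs hd, isH_update J hs hd, fld_update, Function.update_of_ne hij, ha, hb, hC]
    ring
  have di : ∀ s t, du i f (y s t) = (f (y 1 t) - f (y (-1) t)) / 2 := by
    intro s t
    simp only [hy, du, Function.update_idem]
  have dj : ∀ s t, du j f (y s t) = (f (y s 1) - f (y s (-1))) / 2 := by
    intro s t
    have hr : ∀ r : ℤˣ, Function.update (Function.update (Function.update x j t) i s) j r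
        = Function.update (Function.update x j r) i s := by
      intro r
      rw [Function.update_comm hij, Function.update_idem]
    simp only [hy, du, hr]
  set u1 := (f (y 1 1) - f (y (-1) 1)) / 2 with hu1
  set u2 := (f (y 1 (-1)) - f (y (-1) (-1))) / 2 with hu2
  set v1 := (f (y 1 1) - f (y 1 (-1))) / 2 with hv1
  set v2 := (f (y (-1) 1) - f (y (-1) (-1))) / 2 with hv2
  set γ := (u1 - u2) / 2 with hγ
  set α := (u1 + u2) / 2 with hα
  set β := (v1 + v2) / 2 with hβ
  have g1 : u1 = α + γ * 1 := by rw [hα, hγ]; ring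
  have g2 : u2 = α + γ * -1 := by rw [hα, hγ]; ring
  have g3 : v1 = β + γ * 1 := by rw [hβ, hγ, hu1, hu2, hv1, hv2]; ring
  have g4 : v2 = β + γ * -1 := by rw [hβ, hγ, hu1, hu2, hv1, hv2]; ring
  have hstar := Pair.star (J i j) a b α β γ hJ
  rw [← g1, ← g2, ← g3, ← g4] at hstar
  have hZ := Z_pos (isH J h)
  set Z := ∑ y, Real.exp (isH J h y) with hZdef
  have cell : ∀ s t, gibbs (isH J h) (y s t) * pairG J h f i j (y s t)
      = Real.exp C / Z * Pair.cellG (Real.exp (J i j * (val s * val t) + a * val s + b * val t))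
        (val s) (val t) (Real.tanh (a + J i j * val t)) (Real.tanh (b + J i j * val s)) (J i j)
        (J i j ^ 2) (200 * |J i j| ^ 3) (du i f (y s t)) (du j f (y s t)) := by
    intro s t
    rw [gibbs, Hy, pairG, fi, fj, yi, yj, Pair.cellG, Real.exp_add C, ← hZdef]
    ring
  have hsum : ∑ t : ℤˣ, ∑ s : ℤˣ, gibbs (isH J h) (y s t) * pairG J h f i j (y s t)
      = Real.exp C / Z * (Pair.cellG (Real.exp (J i j * (1 * 1) + a * 1 + b * 1)) 1 1
          (Real.tanh (a + J i j * 1)) (Real.tanh (b + J i j * 1)) (J i j)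
          (J i j ^ 2) (200 * |J i j| ^ 3) u1 v1
      + Pair.cellG (Real.exp (J i j * (1 * -1) + a * 1 + b * -1)) 1 (-1)
          (Real.tanh (a + J i j * -1)) (Real.tanh (b + J i j * 1)) (J i j)
          (J i j ^ 2) (200 * |J i j| ^ 3) u2 v1
      + Pair.cellG (Real.exp (J i j * (-1 * 1) + a * -1 + b * 1)) (-1) 1
          (Real.tanh (a + J i j * 1)) (Real.tanh (b + J i j * -1)) (J i j)
          (J i j ^ 2) (200 * |J i j| ^ 3) u1 v2
      + Pair.cellG (Real.exp (J i j * (-1 * -1) + a * -1 + b * -1)) (-1) (-1)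
          (Real.tanh (a + J i j * -1)) (Real.tanh (b + J i j * -1)) (J i j)
          (J i j ^ 2) (200 * |J i j| ^ 3) u2 v2) := by
    simp only [sum_spin, cell, val_one, val_neg_one, di, dj]
    rw [← hu1, ← hu2, ← hv1, ← hv2]
    ring
  change 0 ≤ ∑ t : ℤˣ, ∑ s : ℤˣ, gibbs (isH J h) (y s t) * pairG J h f i j (y s t)
  rw [hsum]
  exact mul_nonneg (div_nonneg (Real.exp_pos _).le hZ.le) hstar

/-- Pointwise bound of the sum of the pair integrands. -/
lemma sum_pairG_le (J : Matrix (Fin n) (Fin n) ℝ) (lam rho tau : ℝ) (hG : Good J lam rho tau)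
    (h : Fin n → ℝ) (f : Cfg n → ℝ) (x : Cfg n) :
    ∑ i, ∑ j, pairG J h f i j x ≤ (Lop (isH J h) f x) ^ 2
      + (max lam (2 * rho) + 1000 * tau)
        * ∑ i, (1 - Real.tanh (fld J h i x) ^ 2) * du i f x ^ 2 := by
  set m : Fin n → ℝ := fun i => Real.tanh (fld J h i x) with hm
  set w : Fin n → ℝ := fun i => 1 - m i ^ 2 with hw
  set d : Fin n → ℝ := fun i => du i f x with hd
  have hw0 : ∀ i, 0 ≤ w i := fun i => by
    have := (Real.tanh_sq_lt_one (fld J h i x)).le
    simp only [hw, hm]; linarith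
  have hL : Lop (isH J h) f x = ∑ i, (val (x i) - m i) * d i := by
    unfold Lop
    exact Finset.sum_congr rfl fun i _ => sub_condExp J hG.symm hG.diag h i f x
  have hexp : ∑ i, ∑ j, pairG J h f i j x = (∑ i, (val (x i) - m i) * d i) ^ 2
      + ∑ i, ∑ j, J i j * (w i * d i) * (w j * d j)
      + 2 * ∑ i, (∑ j, J i j ^ 2) * (w i * m i ^ 2 * d i ^ 2)
      + 400 * ∑ i, (∑ j, |J i j| ^ 3) * (w i * d i ^ 2) := by
    have e : ∀ i j, pairG J h f i j x = ((val (x i) - m i) * d i) * ((val (x j) - m j) * d j)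
        + J i j * (w i * d i) * (w j * d j)
        + (J i j ^ 2 * (w i * m i ^ 2 * d i ^ 2) + J i j ^ 2 * (w j * m j ^ 2 * d j ^ 2))
        + (200 * (|J i j| ^ 3 * (w i * d i ^ 2)) + 200 * (|J i j| ^ 3 * (w j * d j ^ 2))) := by
      intro i j
      simp only [pairG, hw, hm, hd]; ring
    simp only [e, Finset.sum_add_distrib]
    have t0 : ∑ i, ∑ j, ((val (x i) - m i) * d i) * ((val (x j) - m j) * d j)
        = (∑ i, (val (x i) - m i) * d i) ^ 2 := by
      rw [sq, Finset.sum_mul_sum]
    have t1 : ∑ i, ∑ j, J i j ^ 2 * (w i * m i ^ 2 * d i ^ 2)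
        = ∑ i, (∑ j, J i j ^ 2) * (w i * m i ^ 2 * d i ^ 2) :=
      Finset.sum_congr rfl fun i _ => by rw [Finset.sum_mul]
    have t2 : ∑ i, ∑ j, J i j ^ 2 * (w j * m j ^ 2 * d j ^ 2)
        = ∑ i, (∑ j, J i j ^ 2) * (w i * m i ^ 2 * d i ^ 2) := by
      rw [Finset.sum_comm]
      refine Finset.sum_congr rfl fun i _ => ?_
      rw [Finset.sum_mul]
      exact Finset.sum_congr rfl fun j _ => by rw [hG.symm j i]
    have t3 : ∑ i, ∑ j, 200 * (|J i j| ^ 3 * (w i * d i ^ 2))
        = 200 * ∑ i, (∑ j, |J i j| ^ 3) * (w i * d i ^ 2) := by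
      rw [Finset.mul_sum]
      refine Finset.sum_congr rfl fun i _ => ?_
      rw [← Finset.mul_sum, ← Finset.sum_mul]
    have t4 : ∑ i, ∑ j, 200 * (|J i j| ^ 3 * (w j * d j ^ 2))
        = 200 * ∑ i, (∑ j, |J i j| ^ 3) * (w i * d i ^ 2) := by
      rw [Finset.sum_comm, Finset.mul_sum]
      refine Finset.sum_congr rfl fun i _ => ?_
      rw [← Finset.mul_sum, ← Finset.sum_mul]
      congr 2
      exact Finset.sum_congr rfl fun j _ => by rw [hG.symm j i]
    rw [t0, t1, t2, t3, t4]; ring
  rw [hexp, hL]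
  have hq := hG.quad (fun i => w i * d i)
  have h1 : lam * ∑ i, (w i * d i) ^ 2 + 2 * ∑ i, (∑ j, J i j ^ 2) * (w i * m i ^ 2 * d i ^ 2)
      + 400 * ∑ i, (∑ j, |J i j| ^ 3) * (w i * d i ^ 2)
      ≤ (max lam (2 * rho) + 1000 * tau) * ∑ i, w i * d i ^ 2 := by
    rw [Finset.mul_sum, Finset.mul_sum, Finset.mul_sum, Finset.mul_sum,
      ← Finset.sum_add_distrib, ← Finset.sum_add_distrib]
    refine Finset.sum_le_sum fun i _ => ?_
    have a1 : lam * (w i * d i) ^ 2 ≤ max lam (2 * rho) * (w i * (w i * d i ^ 2)) := by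
      calc lam * (w i * d i) ^ 2 = lam * (w i * (w i * d i ^ 2)) := by ring
        _ ≤ _ := mul_le_mul_of_nonneg_right (le_max_left _ _)
          (mul_nonneg (hw0 i) (mul_nonneg (hw0 i) (sq_nonneg _)))
    have hwm : 0 ≤ w i * m i ^ 2 * d i ^ 2 :=
      mul_nonneg (mul_nonneg (hw0 i) (sq_nonneg _)) (sq_nonneg _)
    have a2 : 2 * ((∑ j, J i j ^ 2) * (w i * m i ^ 2 * d i ^ 2))
        ≤ max lam (2 * rho) * (m i ^ 2 * (w i * d i ^ 2)) := by
      calc 2 * ((∑ j, J i j ^ 2) * (w i * m i ^ 2 * d i ^ 2))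
          ≤ 2 * (rho * (w i * m i ^ 2 * d i ^ 2)) := by
            have := mul_le_mul_of_nonneg_right (hG.row i) hwm
            linarith
        _ = (2 * rho) * (w i * m i ^ 2 * d i ^ 2) := by ring
        _ ≤ max lam (2 * rho) * (w i * m i ^ 2 * d i ^ 2) :=
            mul_le_mul_of_nonneg_right (le_max_right _ _) hwm
        _ = _ := by ring
    have hwd : 0 ≤ w i * d i ^ 2 := mul_nonneg (hw0 i) (sq_nonneg _)
    have hc0 : 0 ≤ ∑ j, |J i j| ^ 3 := Finset.sum_nonneg fun j _ => by positivity
    have a3 : 400 * ((∑ j, |J i j| ^ 3) * (w i * d i ^ 2)) ≤ 1000 * tau * (w i * d i ^ 2) := by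
      calc 400 * ((∑ j, |J i j| ^ 3) * (w i * d i ^ 2))
          ≤ 1000 * ((∑ j, |J i j| ^ 3) * (w i * d i ^ 2)) := by
            have := mul_nonneg hc0 hwd
            linarith
        _ ≤ 1000 * (tau * (w i * d i ^ 2)) := by
            have := mul_le_mul_of_nonneg_right (hG.cub i) hwd
            linarith
        _ = _ := by ring
    have hone : w i + m i ^ 2 = 1 := by simp only [hw]; ring
    calc lam * (w i * d i) ^ 2 + 2 * ((∑ j, J i j ^ 2) * (w i * m i ^ 2 * d i ^ 2))
        + 400 * ((∑ j, |J i j| ^ 3) * (w i * d i ^ 2))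
        ≤ max lam (2 * rho) * (w i * (w i * d i ^ 2)) + max lam (2 * rho) * (m i ^ 2 * (w i * d i ^ 2))
          + 1000 * tau * (w i * d i ^ 2) := by linarith
      _ = max lam (2 * rho) * ((w i + m i ^ 2) * (w i * d i ^ 2)) + 1000 * tau * (w i * d i ^ 2) := by
          ring
      _ = (max lam (2 * rho) + 1000 * tau) * (w i * d i ^ 2) := by rw [hone]; ring
  have hq' : ∑ i, ∑ j, J i j * (w i * d i) * (w j * d j) ≤ lam * ∑ i, (w i * d i) ^ 2 := hq
  linarith

end

end Gap

open Gap in
/-- The key deterministic inequality. -/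
theorem gap_ineq (J : Matrix (Fin n) (Fin n) ℝ) (lam rho tau : ℝ) (hG : Good J lam rho tau)
    (h : Fin n → ℝ) (f : Cfg n → ℝ) :
    (1 - max lam (2 * rho) - 1000 * tau) * avg (isH J h) (fun x => f x * Lop (isH J h) f x)
      ≤ avg (isH J h) (fun x => (Lop (isH J h) f x) ^ 2) := by
  rw [avg_mul_Lop]
  have hV : ∀ i, avg (isH J h) (fun x => (f x - condExp (isH J h) i f x) ^ 2)
      = avg (isH J h) (fun x => (1 - Real.tanh (fld J h i x) ^ 2) * du i f x ^ 2) :=
    fun i => avg_D_sq J hG.symm hG.diag h i f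
  have hdiag : ∀ i, avg (isH J h) (pairG J h f i i)
      = avg (isH J h) (fun x => (f x - condExp (isH J h) i f x) ^ 2) := by
    intro i
    congr 1
    funext x
    rw [sub_condExp J hG.symm hG.diag h i f x, pairG, hG.diag i]
    simp only [abs_zero]
    ring
  have hlow : ∑ i, avg (isH J h) (fun x => (f x - condExp (isH J h) i f x) ^ 2)
      ≤ ∑ i, ∑ j, avg (isH J h) (pairG J h f i j) := by
    refine Finset.sum_le_sum fun i _ => ?_
    rw [← hdiag i]
    refine Finset.single_le_sum (f := fun j => avg (isH J h) (pairG J h f i j))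
      (fun j _ => ?_) (Finset.mem_univ i)
    by_cases hij : i = j
    · subst hij
      change 0 ≤ avg (isH J h) (pairG J h f i i)
      rw [hdiag i]
      exact avg_nonneg _ fun x => sq_nonneg _
    · exact avg_pair J hG.symm hG.diag h f i j hij (hG.small i j)
  have hup : ∑ i, ∑ j, avg (isH J h) (pairG J h f i j)
      ≤ avg (isH J h) (fun x => (Lop (isH J h) f x) ^ 2)
        + (max lam (2 * rho) + 1000 * tau)
          * ∑ i, avg (isH J h) (fun x => (f x - condExp (isH J h) i f x) ^ 2) := by
    have e1 : ∑ i, ∑ j, avg (isH J h) (pairG J h f i j)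
        = avg (isH J h) (fun x => ∑ i, ∑ j, pairG J h f i j x) := by
      rw [avg_sum]
      refine Finset.sum_congr rfl fun i _ => ?_
      rw [avg_sum]
    have e2 : ∑ i, avg (isH J h) (fun x => (f x - condExp (isH J h) i f x) ^ 2)
        = avg (isH J h) (fun x => ∑ i, (1 - Real.tanh (fld J h i x) ^ 2) * du i f x ^ 2) := by
      rw [avg_sum]
      exact Finset.sum_congr rfl fun i _ => hV i
    rw [e1, e2, ← avg_const_mul, ← avg_add]
    exact avg_mono _ fun x => sum_pairG_le J lam rho tau hG h f x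
  nlinarith [hlow, hup]

end Vale.Agent.P150
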