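import Mathlib

/-!
P150 module GAUSSCALC: calculus for the standard Gaussian measure on `ι → ℝ` and functions of
exponential growth.
-/

namespace Vale.Agent.P150

open MeasureTheory ProbabilityTheory
open scoped BigOperators

/-- Standard Gaussian measure on `ι → ℝ`. -/
noncomputable def stdG (ι : Type*) [Fintype ι] : Measure (ι → ℝ) :=
  Measure.pi (fun _ => gaussianReal 0 1)

/-- `F` has at most exponential growth. -/
def EG {ι : Type*} [Fintype ι] (F : (ι → ℝ) → ℝ) : Prop :=
  ∃ C : ℝ, ∀ z, |F z| ≤ C * Real.exp (C * ∑ i, |z i|)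

instance instProbStdG (ι : Type*) [Fintype ι] : IsProbabilityMeasure (stdG ι) := by
  unfold stdG; infer_instance

variable {ι : Type*} [Fintype ι]

namespace Gausscalc

lemma int_exp_abs (C : ℝ) : Integrable (fun x : ℝ => Real.exp (C * |x|)) (gaussianReal 0 1) :=
  integrable_exp_mul_abs (X := fun x : ℝ => x) (integrable_exp_mul_gaussianReal C)
    (integrable_exp_mul_gaussianReal (-C))

lemma int_exp_abs_pi (C : ℝ) :
    Integrable (fun z : ι → ℝ => Real.exp (C * ∑ i, |z i|)) (stdG ι) := by
  have h : (fun z : ι → ℝ => Real.exp (C * ∑ i, |z i|))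
      = fun z => ∏ i, (fun x : ℝ => Real.exp (C * |x|)) (z i) := by
    funext z
    rw [Finset.mul_sum, Real.exp_sum]
  rw [h]
  exact Integrable.fintype_prod (fun i => int_exp_abs C)

lemma nonneg_of_bound {C : ℝ} {a t : ℝ} (h : |a| ≤ C * Real.exp t) : 0 ≤ C := by
  by_contra hC
  push Not at hC
  have h1 : C * Real.exp t < 0 := mul_neg_of_neg_of_pos hC (Real.exp_pos _)
  linarith [abs_nonneg a]

/-- Integrability of a measurable function with exponential bound. -/
lemma integrable_of_bound {F : (ι → ℝ) → ℝ} (hF : AEStronglyMeasurable F (stdG ι)) {C : ℝ}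
    (h : ∀ z, |F z| ≤ C * Real.exp (C * ∑ i, |z i|)) : Integrable F (stdG ι) :=
  ((int_exp_abs_pi C).const_mul C).mono' hF (Filter.Eventually.of_forall fun z => by
    rw [Real.norm_eq_abs]; exact h z)

lemma integrable_one {f : ℝ → ℝ} (hf : Continuous f) {C : ℝ}
    (h : ∀ u, |f u| ≤ C * Real.exp (C * |u|)) : Integrable f (gaussianReal 0 1) :=
  ((int_exp_abs C).const_mul C).mono' hf.aestronglyMeasurable
    (Filter.Eventually.of_forall fun z => by rw [Real.norm_eq_abs]; exact h z)

lemma abs_le_exp_abs (u : ℝ) : |u| ≤ Real.exp |u| :=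
  (by linarith [Real.add_one_le_exp |u|])

lemma integrable_one_mul {f : ℝ → ℝ} (hf : Continuous f) {C : ℝ}
    (h : ∀ u, |f u| ≤ C * Real.exp (C * |u|)) :
    Integrable (fun u => u * f u) (gaussianReal 0 1) := by
  have hC : 0 ≤ C := nonneg_of_bound (h 0)
  refine integrable_one (continuous_id.mul hf) (C := C + 1) ?_
  intro u
  rw [abs_mul]
  calc |u| * |f u| ≤ Real.exp |u| * (C * Real.exp (C * |u|)) :=
        mul_le_mul (abs_le_exp_abs u) (h u) (abs_nonneg _) (Real.exp_pos _).le
    _ = C * Real.exp ((C + 1) * |u|) := by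
        rw [show (C + 1) * |u| = |u| + C * |u| by ring, Real.exp_add]; ring
    _ ≤ (C + 1) * Real.exp ((C + 1) * |u|) := by
        apply mul_le_mul_of_nonneg_right (by linarith) (Real.exp_pos _).le

lemma hasDerivAt_pdf (x : ℝ) :
    HasDerivAt (gaussianPDFReal 0 1) (-x * gaussianPDFReal 0 1 x) x := by
  rw [gaussianPDFReal_def]
  simp only [NNReal.coe_one, mul_one, sub_zero]
  have h1 : HasDerivAt (fun y : ℝ => -y ^ 2 / 2) (-x) x := by
    have := ((hasDerivAt_pow 2 x).neg).div_const 2
    refine this.congr_deriv ?_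
    norm_num
    ring
  have h2 := (h1.exp).const_mul (Real.sqrt (2 * Real.pi))⁻¹
  refine h2.congr_deriv ?_
  ring

lemma integrable_pdf_mul_iff {g : ℝ → ℝ} :
    Integrable g (gaussianReal 0 1) ↔ Integrable (fun x => gaussianPDFReal 0 1 x * g x) := by
  rw [gaussianReal_of_var_ne_zero 0 one_ne_zero,
    integrable_withDensity_iff_integrable_smul' (measurable_gaussianPDF 0 1)
      (ae_of_all _ fun _ => gaussianPDF_lt_top)]
  simp only [toReal_gaussianPDF, smul_eq_mul]

/-- One-dimensional Gaussian integration by parts. -/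
lemma ibp_one {f f' : ℝ → ℝ} (hf : Continuous f) (hf' : Continuous f')
    (hd : ∀ u, HasDerivAt f (f' u) u) {C C' : ℝ}
    (h : ∀ u, |f u| ≤ C * Real.exp (C * |u|)) (h' : ∀ u, |f' u| ≤ C' * Real.exp (C' * |u|)) :
    ∫ u, u * f u ∂(gaussianReal 0 1) = ∫ u, f' u ∂(gaussianReal 0 1) := by
  rw [integral_gaussianReal_eq_integral_smul one_ne_zero,
    integral_gaussianReal_eq_integral_smul one_ne_zero]
  simp only [smul_eq_mul]
  have i1 := integrable_pdf_mul_iff.1 (integrable_one hf h)
  have i2 := integrable_pdf_mul_iff.1 (integrable_one hf' h')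
  have i3 := integrable_pdf_mul_iff.1 (integrable_one_mul hf h)
  have key : ∫ x, (gaussianPDFReal 0 1 x * f' x - gaussianPDFReal 0 1 x * (x * f x)) = 0 := by
    refine integral_eq_zero_of_hasDerivAt_of_integrable
      (f := fun x => gaussianPDFReal 0 1 x * f x) ?_ (i2.sub i3) i1
    intro x
    refine ((hasDerivAt_pdf x).mul (hd x)).congr_deriv ?_
    ring
  rw [integral_sub i2 i3] at key
  linarith

lemma sum_abs_update [DecidableEq ι] (i : ι) (z : ι → ℝ) (u : ℝ) :
    ∑ j, |Function.update z i u j| ≤ |u| + ∑ j, |z j| := by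
  have : ∀ j, |Function.update z i u j| ≤ (if j = i then |u| else 0) + |z j| := by
    intro j
    by_cases hj : j = i
    · subst hj; simp
    · simp [hj]
  calc ∑ j, |Function.update z i u j| ≤ ∑ j, ((if j = i then |u| else 0) + |z j|) :=
        Finset.sum_le_sum fun j _ => this j
    _ = |u| + ∑ j, |z j| := by rw [Finset.sum_add_distrib]; simp

lemma bound_update [DecidableEq ι] {F : (ι → ℝ) → ℝ} {C : ℝ}
    (h : ∀ z, |F z| ≤ C * Real.exp (C * ∑ i, |z i|)) (i : ι) (z : ι → ℝ) (u : ℝ) :
    |F (Function.update z i u)| ≤ (C * Real.exp (C * ∑ j, |z j|) + C) *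
      Real.exp ((C * Real.exp (C * ∑ j, |z j|) + C) * |u|) := by
  have hC : 0 ≤ C := nonneg_of_bound (h 0)
  have e1 : 0 ≤ C * Real.exp (C * ∑ j, |z j|) := by positivity
  calc |F (Function.update z i u)|
      ≤ C * Real.exp (C * ∑ j, |Function.update z i u j|) := h _
    _ ≤ C * Real.exp (C * (|u| + ∑ j, |z j|)) := by
        gcongr
        exact sum_abs_update i z u
    _ = C * Real.exp (C * ∑ j, |z j|) * Real.exp (C * |u|) := by
        rw [mul_assoc, ← Real.exp_add]; ring_nf
    _ ≤ (C * Real.exp (C * ∑ j, |z j|) + C) *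
      Real.exp ((C * Real.exp (C * ∑ j, |z j|) + C) * |u|) := by
        gcongr
        · linarith
        · linarith

omit [Fintype ι] in
lemma measurable_update2 [DecidableEq ι] (i : ι) :
    Measurable (fun p : ℝ × (ι → ℝ) => Function.update p.2 i p.1) := by
  rw [measurable_pi_iff]
  intro j
  by_cases hj : j = i
  · subst hj
    simp only [Function.update_self]
    exact measurable_fst
  · simp only [Function.update_of_ne hj]
    exact (measurable_pi_apply j).comp measurable_snd

lemma map_update2 [DecidableEq ι] (i : ι) :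
    Measure.map (fun p : ℝ × (ι → ℝ) => Function.update p.2 i p.1)
      ((gaussianReal 0 1).prod (stdG ι)) = stdG ι := by
  symm
  unfold stdG
  refine Measure.pi_eq ?_
  intro s hs
  rw [Measure.map_apply (measurable_update2 i) (MeasurableSet.univ_pi hs)]
  have hpre : (fun p : ℝ × (ι → ℝ) => Function.update p.2 i p.1) ⁻¹' (Set.univ.pi s)
      = s i ×ˢ Set.univ.pi (Function.update s i Set.univ) := by
    ext p
    simp only [Set.mem_preimage, Set.mem_pi, Set.mem_univ, true_implies, Set.mem_prod]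
    constructor
    · intro h
      refine ⟨by simpa using h i, ?_⟩
      intro j
      by_cases hj : j = i
      · subst hj; simp
      · have := h j
        rw [Function.update_of_ne hj] at this
        rw [Function.update_of_ne hj]; exact this
    · rintro ⟨h1, h2⟩ j
      by_cases hj : j = i
      · subst hj; simpa using h1
      · have := h2 j
        rw [Function.update_of_ne hj] at this
        rw [Function.update_of_ne hj]; exact this
  rw [hpre, Measure.prod_prod, Measure.pi_pi]
  rw [← Finset.mul_prod_erase Finset.univ (fun j => (gaussianReal 0 1) (s j)) (Finset.mem_univ i),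
    ← Finset.mul_prod_erase Finset.univ
      (fun j => (gaussianReal 0 1) (Function.update s i Set.univ j)) (Finset.mem_univ i)]
  simp only [Function.update_self, measure_univ, one_mul]
  congr 1
  refine Finset.prod_congr rfl fun j hj => ?_
  rw [Function.update_of_ne (Finset.ne_of_mem_erase hj)]

lemma measurePreserving_update2 [DecidableEq ι] (i : ι) :
    MeasurePreserving (fun p : ℝ × (ι → ℝ) => Function.update p.2 i p.1)
      ((gaussianReal 0 1).prod (stdG ι)) (stdG ι) :=
  ⟨measurable_update2 i, map_update2 i⟩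

/-- Resampling one coordinate. -/
lemma integral_resample [DecidableEq ι] (i : ι) {G : (ι → ℝ) → ℝ}
    (hG : Integrable G (stdG ι)) :
    ∫ z, G z ∂(stdG ι)
      = ∫ z, ∫ u, G (Function.update z i u) ∂(gaussianReal 0 1) ∂(stdG ι) := by
  have hm := measurePreserving_update2 (ι := ι) i
  have hi : Integrable (fun p : ℝ × (ι → ℝ) => G (Function.update p.2 i p.1))
      ((gaussianReal 0 1).prod (stdG ι)) := hm.integrable_comp_of_integrable hG
  have h1 : ∫ z, G z ∂(stdG ι)
      = ∫ p, G (Function.update p.2 i p.1) ∂((gaussianReal 0 1).prod (stdG ι)) := by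
    rw [← integral_map hm.measurable.aemeasurable (by rw [hm.map_eq]; exact hG.aestronglyMeasurable),
      hm.map_eq]
  rw [h1, integral_prod_symm _ hi]

end Gausscalc

open Gausscalc

theorem EG.integrable {F : (ι → ℝ) → ℝ} (hF : Continuous F) (h : EG F) :
    Integrable F (stdG ι) := by
  obtain ⟨C, hC⟩ := h
  exact integrable_of_bound hF.aestronglyMeasurable hC

theorem EG.add {F G : (ι → ℝ) → ℝ} (hF : EG F) (hG : EG G) : EG (fun z => F z + G z) := by
  obtain ⟨C, hC⟩ := hF
  obtain ⟨D, hD⟩ := hG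
  have hC0 : 0 ≤ C := nonneg_of_bound (hC 0)
  have hD0 : 0 ≤ D := nonneg_of_bound (hD 0)
  refine ⟨C + D, fun z => ?_⟩
  have hs : 0 ≤ ∑ i, |z i| := Finset.sum_nonneg fun _ _ => abs_nonneg _
  calc |F z + G z| ≤ |F z| + |G z| := abs_add_le _ _
    _ ≤ C * Real.exp (C * ∑ i, |z i|) + D * Real.exp (D * ∑ i, |z i|) := add_le_add (hC z) (hD z)
    _ ≤ C * Real.exp ((C + D) * ∑ i, |z i|) + D * Real.exp ((C + D) * ∑ i, |z i|) := by
        gcongr <;> linarith
    _ = (C + D) * Real.exp ((C + D) * ∑ i, |z i|) := by ring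

theorem EG.mul {F G : (ι → ℝ) → ℝ} (hF : EG F) (hG : EG G) : EG (fun z => F z * G z) := by
  obtain ⟨C, hC⟩ := hF
  obtain ⟨D, hD⟩ := hG
  have hC0 : 0 ≤ C := nonneg_of_bound (hC 0)
  have hD0 : 0 ≤ D := nonneg_of_bound (hD 0)
  refine ⟨C * D + C + D, fun z => ?_⟩
  have hs : 0 ≤ ∑ i, |z i| := Finset.sum_nonneg fun _ _ => abs_nonneg _
  have hCD : 0 ≤ C * D := mul_nonneg hC0 hD0
  calc |F z * G z| = |F z| * |G z| := abs_mul _ _
    _ ≤ (C * Real.exp (C * ∑ i, |z i|)) * (D * Real.exp (D * ∑ i, |z i|)) :=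
        mul_le_mul (hC z) (hD z) (abs_nonneg _) (by positivity)
    _ = (C * D) * Real.exp ((C + D) * ∑ i, |z i|) := by
        rw [add_mul, Real.exp_add]; ring
    _ ≤ (C * D + C + D) * Real.exp ((C * D + C + D) * ∑ i, |z i|) := by
        gcongr <;> linarith

theorem EG.const (c : ℝ) : EG (fun _ : ι → ℝ => c) := by
  refine ⟨|c|, fun z => ?_⟩
  have hs : 0 ≤ ∑ i, |z i| := Finset.sum_nonneg fun _ _ => abs_nonneg _
  have h1 : 1 ≤ Real.exp (|c| * ∑ i, |z i|) := Real.one_le_exp (by positivity)
  calc |c| = |c| * 1 := (mul_one _).symm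
    _ ≤ |c| * Real.exp (|c| * ∑ i, |z i|) := by gcongr

theorem EG.exp_lin (a : ι → ℝ) : EG (fun z : ι → ℝ => Real.exp (∑ i, a i * z i)) := by
  refine ⟨1 + ∑ i, |a i|, fun z => ?_⟩
  have ha : 0 ≤ ∑ i, |a i| := Finset.sum_nonneg fun _ _ => abs_nonneg _
  have hs : 0 ≤ ∑ i, |z i| := Finset.sum_nonneg fun _ _ => abs_nonneg _
  rw [abs_of_pos (Real.exp_pos _)]
  have h1 : ∑ i, a i * z i ≤ (1 + ∑ i, |a i|) * ∑ i, |z i| := by
    calc ∑ i, a i * z i ≤ ∑ i, (∑ j, |a j|) * |z i| := by
          refine Finset.sum_le_sum fun i _ => ?_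
          calc a i * z i ≤ |a i * z i| := le_abs_self _
            _ = |a i| * |z i| := abs_mul _ _
            _ ≤ (∑ j, |a j|) * |z i| := by
                gcongr
                exact Finset.single_le_sum (f := fun j => |a j|) (fun j _ => abs_nonneg _)
                  (Finset.mem_univ i)
      _ = (∑ j, |a j|) * ∑ i, |z i| := by rw [Finset.mul_sum]
      _ ≤ (1 + ∑ i, |a i|) * ∑ i, |z i| := by gcongr; linarith
  calc Real.exp (∑ i, a i * z i) ≤ Real.exp ((1 + ∑ i, |a i|) * ∑ i, |z i|) :=
        Real.exp_le_exp.2 h1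
    _ = 1 * Real.exp ((1 + ∑ i, |a i|) * ∑ i, |z i|) := (one_mul _).symm
    _ ≤ (1 + ∑ i, |a i|) * Real.exp ((1 + ∑ i, |a i|) * ∑ i, |z i|) := by
        gcongr; linarith

theorem EG.coord (i : ι) : EG (fun z : ι → ℝ => z i) := by
  refine ⟨1, fun z => ?_⟩
  rw [one_mul, one_mul]
  calc |z i| ≤ Real.exp |z i| := abs_le_exp_abs _
    _ ≤ Real.exp (∑ j, |z j|) := by
        apply Real.exp_le_exp.2
        exact Finset.single_le_sum (f := fun j => |z j|) (fun j _ => abs_nonneg _)
          (Finset.mem_univ i)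

theorem EG.mono {F G : (ι → ℝ) → ℝ} (hG : EG G) (h : ∀ z, |F z| ≤ |G z|) : EG F := by
  obtain ⟨C, hC⟩ := hG
  exact ⟨C, fun z => (h z).trans (hC z)⟩

theorem EG.sum {κ : Type*} (s : Finset κ) {F : κ → (ι → ℝ) → ℝ} (h : ∀ k ∈ s, EG (F k)) :
    EG (fun z => ∑ k ∈ s, F k z) := by
  classical
  induction s using Finset.induction_on with
  | empty => simpa using EG.const (ι := ι) 0
  | insert a s ha ih =>
      have h1 : EG (F a) := h a (Finset.mem_insert_self _ _)
      have h2 := ih fun k hk => h k (Finset.mem_insert_of_mem hk)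
      have h3 := h1.add h2
      have e : (fun z => ∑ k ∈ insert a s, F k z) = fun z => F a z + ∑ k ∈ s, F k z := by
        funext z
        rw [Finset.sum_insert ha]
      rw [e]; exact h3

/-- Gaussian integration by parts. -/
theorem gauss_ibp [DecidableEq ι] (i : ι) (F F' : (ι → ℝ) → ℝ) (hF : Continuous F)
    (hF' : Continuous F')
    (hd : ∀ z : ι → ℝ, HasDerivAt (fun u => F (Function.update z i u)) (F' z) (z i))
    (h : EG F) (h' : EG F') :
    ∫ z, z i * F z ∂(stdG ι) = ∫ z, F' z ∂(stdG ι) := by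
  have hi1 : Integrable (fun z : ι → ℝ => z i * F z) (stdG ι) :=
    ((EG.coord i).mul h).integrable ((continuous_apply i).mul hF)
  have hi2 : Integrable F' (stdG ι) := h'.integrable hF'
  rw [integral_resample i hi1, integral_resample i hi2]
  congr 1
  funext z
  obtain ⟨C, hC⟩ := h
  obtain ⟨D, hD⟩ := h'
  have hu : Continuous (fun u : ℝ => Function.update z i u) :=
    continuous_const.update i continuous_id
  simp only [Function.update_self]
  refine ibp_one (f := fun u => F (Function.update z i u))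
    (f' := fun u => F' (Function.update z i u)) (hF.comp hu) (hF'.comp hu) ?_
    (fun u => bound_update hC i z u) (fun u => bound_update hD i z u)
  intro u
  have := hd (Function.update z i u)
  simpa only [Function.update_idem, Function.update_self] using this

/-- Differentiation under the Gaussian integral. -/
theorem hasDerivAt_integral_stdG (F F' : ℝ → (ι → ℝ) → ℝ) (hF : ∀ s, Continuous (F s))
    (hF' : ∀ s, Continuous (F' s)) (hd : ∀ s z, HasDerivAt (fun u => F u z) (F' s z) s)
    (h0 : ∀ s, EG (F s))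
    (hb : ∀ S : ℝ, ∃ C : ℝ, ∀ s, |s| ≤ S → ∀ z : ι → ℝ,
      |F' s z| ≤ C * Real.exp (C * ∑ i, |z i|)) (s : ℝ) :
    HasDerivAt (fun u => ∫ z, F u z ∂(stdG ι)) (∫ z, F' s z ∂(stdG ι)) s := by
  obtain ⟨C, hC⟩ := hb (|s| + 1)
  refine (hasDerivAt_integral_of_dominated_loc_of_deriv_le
    (bound := fun z : ι → ℝ => C * Real.exp (C * ∑ i, |z i|)) (F := F) (F' := F')
    (Metric.ball_mem_nhds s one_pos)
    (Filter.Eventually.of_forall fun u => (hF u).aestronglyMeasurable)
    ((h0 s).integrable (hF s)) (hF' s).aestronglyMeasurable ?_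
    ((int_exp_abs_pi C).const_mul C) ?_).2
  · refine Filter.Eventually.of_forall fun z u hu => ?_
    rw [Real.norm_eq_abs]
    refine hC u ?_ z
    rw [Metric.mem_ball, Real.dist_eq] at hu
    have := abs_sub_abs_le_abs_sub u s
    linarith
  · exact Filter.Eventually.of_forall fun z u _ => hd u z

/-- Moment generating function of a linear form: `E exp ⟨a,z⟩ = exp (|a|²/2)`. -/
theorem integral_exp_lin_stdG (a : ι → ℝ) :
    ∫ z, Real.exp (∑ i, a i * z i) ∂(stdG ι) = Real.exp (1 / 2 * ∑ i, a i ^ 2) := by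
  have h : ∀ z : ι → ℝ, Real.exp (∑ i, a i * z i) = ∏ i, Real.exp (a i * z i) :=
    fun z => Real.exp_sum _ _
  simp only [h]
  unfold stdG
  rw [integral_fintype_prod_eq_prod (fun i (x : ℝ) => Real.exp (a i * x))]
  rw [Finset.mul_sum, Real.exp_sum]
  refine Finset.prod_congr rfl fun i _ => ?_
  have h2 : mgf (fun x : ℝ => x) (gaussianReal 0 1) (a i) = _ :=
    congrFun mgf_fun_id_gaussianReal (a i)
  unfold mgf at h2
  rw [h2]
  congr 1
  push_cast
  ring

theorem integrable_exp_lin_stdG (a : ι → ℝ) :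
    Integrable (fun z : ι → ℝ => Real.exp (∑ i, a i * z i)) (stdG ι) :=
  (EG.exp_lin a).integrable (by fun_prop)

end Vale.Agent.P150
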