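import Vale.Agent.P150.Core

/-!
P150 module KLMEAN (arbitrary exponent `H`).

`ν = f μ / μ(f)`, `b^f = mean of x under ν`, `b = mean under μ`; claim `μ(f) |b^f - b|² ≤ 2 A Ent_μ(f)`
when all exponential tilts of `μ` have covariance `≤ A`.
Proof: put `v = (b^f - b)/A`, `g(s) = log ∑_x exp (H x + s lin v x)`.  Then `g'' (s) = var (H + s lin v) (lin v)
≤ A |v|²`, `g'(0) = ⟨v,b⟩`, so `g 1 - g 0 ≤ ⟨v,b⟩ + A|v|²/2`.
Gibbs variational / Jensen: `∑ ν log(ν/μ) ≥ ν(v·x) - log μ(e^{v·x})`, i.e.
`Ent_μ(f)/μ(f) ≥ ⟨v,b^f⟩ - (g 1 - g 0) ≥ ⟨v, b^f - b⟩ - A|v|²/2 = |b^f-b|²/(2A)`.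
(`Ent_μ(f) = μ(f log f) - μ(f) log μ(f)`.)
-/

namespace Vale.Agent.P150

open scoped BigOperators

variable {n : ℕ}

namespace Klmean

/-- Partition function along the tilt by `s • u`. -/
noncomputable def Zt (H u : Cfg n → ℝ) (s : ℝ) : ℝ := ∑ x, Real.exp (H x + s * u x)

/-- Weighted sum along the tilt. -/
noncomputable def Wt (H u w : Cfg n → ℝ) (s : ℝ) : ℝ := ∑ x, Real.exp (H x + s * u x) * w x

lemma Zt_pos (H u : Cfg n → ℝ) (s : ℝ) : 0 < Zt H u s := Z_pos (fun x => H x + s * u x)

lemma hasDerivAt_exp_tilt (a b s : ℝ) :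
    HasDerivAt (fun s : ℝ => Real.exp (a + s * b)) (Real.exp (a + s * b) * b) s := by
  have h1 : HasDerivAt (fun s : ℝ => a + s * b) b s := by
    simpa using ((hasDerivAt_id s).mul_const b).const_add a
  exact h1.exp

lemma hasDerivAt_Zt (H u : Cfg n → ℝ) (s : ℝ) :
    HasDerivAt (Zt H u) (Wt H u u s) s := by
  unfold Zt Wt
  exact HasDerivAt.fun_sum fun x _ => hasDerivAt_exp_tilt (H x) (u x) s

lemma hasDerivAt_Wt (H u w : Cfg n → ℝ) (s : ℝ) :
    HasDerivAt (Wt H u w) (Wt H u (fun x => u x * w x) s) s := by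
  unfold Wt
  refine HasDerivAt.fun_sum fun x _ => ?_
  have := (hasDerivAt_exp_tilt (H x) (u x) s).mul_const (w x)
  simpa only [mul_assoc] using this

lemma avg_tilt (H u w : Cfg n → ℝ) (s : ℝ) :
    avg (fun x => H x + s * u x) w = Wt H u w s / Zt H u s := by
  simp only [avg, gibbs, Wt, Zt]
  rw [Finset.sum_div]
  exact Finset.sum_congr rfl fun x _ => by ring

lemma var_eq (H w : Cfg n → ℝ) : var H w = avg H (fun x => w x * w x) - avg H w ^ 2 := by
  unfold var
  have : (fun x => (w x - avg H w) ^ 2)
      = fun x => (w x * w x - (2 * avg H w) * w x) + avg H w ^ 2 := by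
    funext x; ring
  rw [this, avg_add, avg_sub, avg_const_mul, avg_const]
  ring

lemma hasDerivAt_mean (H u : Cfg n → ℝ) (s : ℝ) :
    HasDerivAt (fun s => Wt H u u s / Zt H u s) (var (fun x => H x + s * u x) u) s := by
  have h := (hasDerivAt_Wt H u u s).div (hasDerivAt_Zt H u s) (Zt_pos H u s).ne'
  have e : var (fun x => H x + s * u x) u
      = (Wt H u (fun x => u x * u x) s * Zt H u s - Wt H u u s * Wt H u u s) / Zt H u s ^ 2 := by
    rw [var_eq, avg_tilt, avg_tilt]
    have := (Zt_pos H u s).ne'
    field_simp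
  rw [e]
  exact h

lemma hasDerivAt_logZ (H u : Cfg n → ℝ) (s : ℝ) :
    HasDerivAt (fun s => Real.log (Zt H u s)) (Wt H u u s / Zt H u s) s :=
  (hasDerivAt_Zt H u s).log (Zt_pos H u s).ne'

/-- Second order bound on the log-Laplace transform. -/
lemma logZ_le (H u : Cfg n → ℝ) (B : ℝ)
    (hB : ∀ s : ℝ, var (fun x => H x + s * u x) u ≤ B) :
    Real.log (Zt H u 1) - Real.log (Zt H u 0) ≤ avg H u + B / 2 := by
  have hM0 : avg H u = Wt H u u 0 / Zt H u 0 := by
    rw [← avg_tilt]
    simp
  set m := avg H u with hm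
  let G : ℝ → ℝ := fun s => m + B * s - Wt H u u s / Zt H u s
  have hG : ∀ s, HasDerivAt G (B - var (fun x => H x + s * u x) u) s := by
    intro s
    have h1 : HasDerivAt (fun s : ℝ => m + B * s) B s := by
      simpa using ((hasDerivAt_id s).const_mul B).const_add m
    exact h1.sub (hasDerivAt_mean H u s)
  have hGmono : Monotone G :=
    monotone_of_hasDerivAt_nonneg hG fun s => by simpa using sub_nonneg.2 (hB s)
  have hG0 : G 0 = 0 := by simp only [G]; rw [← hM0]; ring
  let F : ℝ → ℝ := fun s => m * s + B * s ^ 2 / 2 - Real.log (Zt H u s)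
  have hF : ∀ s, HasDerivAt F (G s) s := by
    intro s
    have h1 : HasDerivAt (fun s : ℝ => m * s + B * s ^ 2 / 2) (m + B * s) s := by
      have a := (hasDerivAt_id s).const_mul m
      have b := ((hasDerivAt_pow 2 s).const_mul B).div_const 2
      have c := a.add b
      refine (c.congr_deriv ?_)
      simp only [mul_one, Nat.cast_ofNat]
      ring
    exact h1.sub (hasDerivAt_logZ H u s)
  have hFmono : MonotoneOn F (Set.Icc 0 1) := by
    refine monotoneOn_of_deriv_nonneg (convex_Icc 0 1) ?_ ?_ ?_
    · exact fun s _ => (hF s).continuousAt.continuousWithinAt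
    · exact fun s _ => (hF s).differentiableAt.differentiableWithinAt
    · intro s hs
      rw [interior_Icc] at hs
      rw [(hF s).deriv, ← hG0]
      exact hGmono hs.1.le
  have hle : F 0 ≤ F 1 := hFmono (by simp) (by simp) zero_le_one
  simp only [F] at hle
  linarith

/-- Young's inequality for the entropy. -/
lemma young (a t : ℝ) (ha : 0 < a) : a * t ≤ a * Real.log a - a + Real.exp t := by
  have h := Real.add_one_le_exp (t - Real.log a)
  have h2 : Real.exp t = a * Real.exp (t - Real.log a) := by
    rw [Real.exp_sub, Real.exp_log ha]; field_simp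
  rw [h2]
  nlinarith [mul_le_mul_of_nonneg_left h ha.le]

/-- Gibbs variational inequality. -/
lemma gibbs_var (H u f : Cfg n → ℝ) (hf : ∀ x, 0 < f x) :
    avg H (fun x => f x * u x) - avg H f * Real.log (avg H (fun x => Real.exp (u x)))
      ≤ ent H f := by
  have hF : 0 < avg H f := avg_pos H hf
  have hE : 0 < avg H (fun x => Real.exp (u x)) := avg_pos H fun x => Real.exp_pos _
  set F := avg H f with hFdef
  set E := avg H (fun x => Real.exp (u x)) with hEdef
  have key : ∀ x, f x * (u x - Real.log E) ≤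
      f x * Real.log (f x) - Real.log F * f x - f x + (F / E) * Real.exp (u x) := by
    intro x
    have h := young (f x / F) (u x - Real.log E) (div_pos (hf x) hF)
    rw [Real.log_div (hf x).ne' hF.ne', Real.exp_sub, Real.exp_log hE] at h
    have h2 := mul_le_mul_of_nonneg_left h hF.le
    have e1 : F * (f x / F * (u x - Real.log E)) = f x * (u x - Real.log E) := by
      field_simp
    have e2 : F * (f x / F * (Real.log (f x) - Real.log F) - f x / F + Real.exp (u x) / E)
        = f x * Real.log (f x) - Real.log F * f x - f x + (F / E) * Real.exp (u x) := by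
      field_simp
    rw [e1, e2] at h2
    exact h2
  have hs := avg_mono H key
  have e3 : avg H (fun x => f x * (u x - Real.log E))
      = avg H (fun x => f x * u x) - F * Real.log E := by
    have : (fun x => f x * (u x - Real.log E)) = fun x => f x * u x - Real.log E * f x := by
      funext x; ring
    rw [this, avg_sub, avg_const_mul, ← hFdef]
    ring
  have e4 : avg H (fun x => f x * Real.log (f x) - Real.log F * f x - f x
        + (F / E) * Real.exp (u x)) = ent H f := by
    rw [avg_add, avg_sub, avg_sub, avg_const_mul, avg_const_mul, ← hFdef, ← hEdef]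
    unfold ent
    rw [← hFdef]
    field_simp
    ring
  rw [e3, e4] at hs
  exact hs

end Klmean

open Klmean in
theorem kl_mean (H : Cfg n → ℝ) (A : ℝ) (hA : 0 < A)
    (hcov : ∀ h v : Fin n → ℝ, var (fun x => H x + lin h x) (lin v) ≤ A * ∑ i, v i ^ 2)
    (f : Cfg n → ℝ) (hf : ∀ x, 0 < f x) :
    avg H f * ∑ i, (avg H (fun x => f x * val (x i)) / avg H f
        - avg H (fun x => val (x i))) ^ 2 ≤ 2 * A * ent H f := by
  have hF : 0 < avg H f := avg_pos H hf
  set F := avg H f with hFdef
  let d : Fin n → ℝ := fun i => avg H (fun x => f x * val (x i)) / F - avg H (fun x => val (x i))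
  let v : Fin n → ℝ := fun i => d i / A
  -- the log-Laplace bound
  have hB : ∀ s : ℝ, var (fun x => H x + s * lin v x) (lin v) ≤ A * ∑ i, v i ^ 2 := by
    intro s
    have e : (fun x : Cfg n => H x + s * lin v x) = fun x => H x + lin (fun i => s * v i) x := by
      funext x
      simp only [lin, Finset.mul_sum, mul_assoc]
    rw [e]
    exact hcov _ _
  have h1 := logZ_le H (lin v) _ hB
  -- the Gibbs variational inequality
  have h2 := gibbs_var H (lin v) f hf
  have eE : Real.log (avg H (fun x => Real.exp (lin v x)))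
      = Real.log (Zt H (lin v) 1) - Real.log (Zt H (lin v) 0) := by
    rw [← Real.log_div (Zt_pos _ _ _).ne' (Zt_pos _ _ _).ne']
    congr 1
    simp only [avg, gibbs, Zt, one_mul, zero_mul, add_zero, Real.exp_add]
    rw [Finset.sum_div]
    exact Finset.sum_congr rfl fun x _ => by ring
  have ea : avg H (lin v) = ∑ i, v i * avg H (fun x => val (x i)) := by
    have : lin v = fun x : Cfg n => ∑ i, v i * val (x i) := rfl
    rw [this, avg_sum]
    exact Finset.sum_congr rfl fun i _ => avg_const_mul _ _ _
  have eb : avg H (fun x => f x * lin v x) = ∑ i, v i * avg H (fun x => f x * val (x i)) := by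
    have : (fun x : Cfg n => f x * lin v x) = fun x => ∑ i, v i * (f x * val (x i)) := by
      funext x
      simp only [lin, Finset.mul_sum]
      exact Finset.sum_congr rfl fun i _ => by ring
    rw [this, avg_sum]
    exact Finset.sum_congr rfl fun i _ => avg_const_mul _ _ _
  rw [eE, ← hFdef] at h2
  have h3 : avg H (fun x => f x * lin v x) - F * (avg H (lin v) + (A * ∑ i, v i ^ 2) / 2)
      ≤ ent H f := by
    have := mul_le_mul_of_nonneg_left h1 hF.le
    linarith
  -- the left-hand side
  have e5 : avg H (fun x => f x * lin v x) - F * (avg H (lin v) + (A * ∑ i, v i ^ 2) / 2)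
      = F / (2 * A) * ∑ i, d i ^ 2 := by
    rw [ea, eb]
    have : ∀ i, avg H (fun x => f x * val (x i)) = F * (d i + avg H (fun x => val (x i))) := by
      intro i
      simp only [d]
      field_simp
      ring
    simp only [this]
    have e6 : ∑ i, v i * (F * (d i + avg H (fun x => val (x i))))
        = F * ∑ i, v i * d i + F * ∑ i, v i * avg H (fun x => val (x i)) := by
      rw [Finset.mul_sum, Finset.mul_sum, ← Finset.sum_add_distrib]
      exact Finset.sum_congr rfl fun i _ => by ring
    have e7 : ∑ i, v i * d i = (∑ i, d i ^ 2) / A := by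
      rw [Finset.sum_div]
      exact Finset.sum_congr rfl fun i _ => by simp only [v]; ring
    have e8 : ∑ i, v i ^ 2 = (∑ i, d i ^ 2) / A ^ 2 := by
      rw [Finset.sum_div]
      exact Finset.sum_congr rfl fun i _ => by simp only [v]; ring
    rw [e6, e7, e8]
    field_simp
    ring
  rw [e5] at h3
  have h4 : F * ∑ i, d i ^ 2 = 2 * A * (F / (2 * A) * ∑ i, d i ^ 2) := by
    field_simp
  change F * ∑ i, d i ^ 2 ≤ 2 * A * ent H f
  rw [h4]
  exact mul_le_mul_of_nonneg_left h3 (by positivity)

end Vale.Agent.P150
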