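import Vale.Agent.P150.Core
import Vale.Agent.P150.GaussCalc

/-!
P150 module LOCA: derivative along the stochastic localisation.

`(Rx)_k = rx R x k`;  weights `e^{locH R h t z x}`, `locH = ½(1-t)|Rx|² + ⟨h,x⟩ + ⟨z,Rx⟩`.
`Z_t(z), F_t(z)` both satisfy `(∂_t + ½Δ_z) = 0`.  `Ψ = F (log F - log Z)` satisfies
`(∂_t + ½Δ)Ψ = ½ F |∇ log F - ∇ log Z|²`.
-/

namespace Vale.Agent.P150

open MeasureTheory ProbabilityTheory
open scoped BigOperators

noncomputable section

variable {n : ℕ}

/-- `(R x)_k`. -/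
def rx (R : Matrix (Fin n) (Fin n) ℝ) (x : Cfg n) (k : Fin n) : ℝ := ∑ j, R k j * val (x j)

/-- Localised exponent. -/
def locH (R : Matrix (Fin n) (Fin n) ℝ) (h : Fin n → ℝ) (t : ℝ) (z : Fin n → ℝ)
    (x : Cfg n) : ℝ :=
  1 / 2 * (1 - t) * ∑ k, rx R x k ^ 2 + lin h x + ∑ k, z k * rx R x k

/-- Localised partition function. -/
def locZ (R : Matrix (Fin n) (Fin n) ℝ) (h : Fin n → ℝ) (t : ℝ) (z : Fin n → ℝ) : ℝ :=
  ∑ x, Real.exp (locH R h t z x)

/-- Localised integral of `f`. -/
def locF (R : Matrix (Fin n) (Fin n) ℝ) (h : Fin n → ℝ) (f : Cfg n → ℝ) (t : ℝ)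
    (z : Fin n → ℝ) : ℝ :=
  ∑ x, f x * Real.exp (locH R h t z x)

/-- `Ψ = F (log F - log Z)`. -/
def locPsi (R : Matrix (Fin n) (Fin n) ℝ) (h : Fin n → ℝ) (f : Cfg n → ℝ) (t : ℝ)
    (z : Fin n → ℝ) : ℝ :=
  locF R h f t z * (Real.log (locF R h f t z) - Real.log (locZ R h t z))

/-- `∇_k (log F - log Z)`. -/
def locD (R : Matrix (Fin n) (Fin n) ℝ) (h : Fin n → ℝ) (f : Cfg n → ℝ) (t : ℝ)
    (z : Fin n → ℝ) (k : Fin n) : ℝ :=
  (∑ x, f x * rx R x k * Real.exp (locH R h t z x)) / locF R h f t z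
    - (∑ x, rx R x k * Real.exp (locH R h t z x)) / locZ R h t z

namespace Loca

/-- Locally uniform exponential growth. -/
def UG (G : ℝ → ℝ → (Fin n → ℝ) → ℝ) : Prop :=
  ∀ S : ℝ, ∃ C : ℝ, 0 ≤ C ∧ ∀ t s : ℝ, |t| ≤ S → |s| ≤ S → ∀ z : Fin n → ℝ,
    |G t s z| ≤ C * Real.exp (C * ∑ i, |z i|)

lemma UG.eg {G : ℝ → ℝ → (Fin n → ℝ) → ℝ} (h : UG G) (t s : ℝ) : EG (G t s) := by
  obtain ⟨C, _, hC⟩ := h (max |t| |s|)
  exact ⟨C, fun z => hC t s (le_max_left _ _) (le_max_right _ _) z⟩

lemma UG.add {F G : ℝ → ℝ → (Fin n → ℝ) → ℝ} (hF : UG F) (hG : UG G) :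
    UG (fun t s z => F t s z + G t s z) := by
  intro S
  obtain ⟨C, hC0, hC⟩ := hF S
  obtain ⟨D, hD0, hD⟩ := hG S
  refine ⟨C + D, add_nonneg hC0 hD0, fun t s ht hs z => ?_⟩
  have hz : 0 ≤ ∑ i, |z i| := Finset.sum_nonneg fun _ _ => abs_nonneg _
  calc |F t s z + G t s z| ≤ |F t s z| + |G t s z| := abs_add_le _ _
    _ ≤ C * Real.exp (C * ∑ i, |z i|) + D * Real.exp (D * ∑ i, |z i|) :=
        add_le_add (hC t s ht hs z) (hD t s ht hs z)
    _ ≤ C * Real.exp ((C + D) * ∑ i, |z i|) + D * Real.exp ((C + D) * ∑ i, |z i|) := by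
        gcongr <;> linarith
    _ = (C + D) * Real.exp ((C + D) * ∑ i, |z i|) := by ring

lemma UG.mul {F G : ℝ → ℝ → (Fin n → ℝ) → ℝ} (hF : UG F) (hG : UG G) :
    UG (fun t s z => F t s z * G t s z) := by
  intro S
  obtain ⟨C, hC0, hC⟩ := hF S
  obtain ⟨D, hD0, hD⟩ := hG S
  have hCD : 0 ≤ C * D := mul_nonneg hC0 hD0
  refine ⟨C * D + C + D, by positivity, fun t s ht hs z => ?_⟩
  have hz : 0 ≤ ∑ i, |z i| := Finset.sum_nonneg fun _ _ => abs_nonneg _
  calc |F t s z * G t s z| = |F t s z| * |G t s z| := abs_mul _ _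
    _ ≤ (C * Real.exp (C * ∑ i, |z i|)) * (D * Real.exp (D * ∑ i, |z i|)) :=
        mul_le_mul (hC t s ht hs z) (hD t s ht hs z) (abs_nonneg _) (by positivity)
    _ = (C * D) * Real.exp ((C + D) * ∑ i, |z i|) := by
        rw [add_mul, Real.exp_add]; ring
    _ ≤ (C * D + C + D) * Real.exp ((C * D + C + D) * ∑ i, |z i|) := by
        gcongr <;> linarith

lemma UG.mono {F G : ℝ → ℝ → (Fin n → ℝ) → ℝ} (hG : UG G)
    (h : ∀ t s z, |F t s z| ≤ |G t s z|) : UG F := by
  intro S
  obtain ⟨C, hC0, hC⟩ := hG S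
  exact ⟨C, hC0, fun t s ht hs z => (h t s z).trans (hC t s ht hs z)⟩

lemma UG.bdd {F : ℝ → ℝ → (Fin n → ℝ) → ℝ} (c : ℝ) (h : ∀ t s z, |F t s z| ≤ c) : UG F := by
  intro S
  have hc : 0 ≤ c := (abs_nonneg _).trans (h 0 0 0)
  refine ⟨c, hc, fun t s _ _ z => ?_⟩
  have hz : 0 ≤ ∑ i, |z i| := Finset.sum_nonneg fun _ _ => abs_nonneg _
  have h1 : 1 ≤ Real.exp (c * ∑ i, |z i|) := Real.one_le_exp (by positivity)
  calc |F t s z| ≤ c * 1 := by rw [mul_one]; exact h t s z
    _ ≤ c * Real.exp (c * ∑ i, |z i|) := by gcongr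

lemma UG.const (c : ℝ) : UG (n := n) (fun _ _ _ => c) := UG.bdd |c| fun _ _ _ => le_rfl

lemma UG.neg {F : ℝ → ℝ → (Fin n → ℝ) → ℝ} (hF : UG F) : UG (fun t s z => - F t s z) :=
  hF.mono fun t s z => by rw [abs_neg]

lemma UG.sub {F G : ℝ → ℝ → (Fin n → ℝ) → ℝ} (hF : UG F) (hG : UG G) :
    UG (fun t s z => F t s z - G t s z) := by
  have := hF.add hG.neg
  simpa only [← sub_eq_add_neg] using this

lemma UG.sum {κ : Type*} (s : Finset κ) {F : κ → ℝ → ℝ → (Fin n → ℝ) → ℝ}
    (h : ∀ k ∈ s, UG (F k)) : UG (fun t u z => ∑ k ∈ s, F k t u z) := by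
  classical
  induction s using Finset.induction_on with
  | empty => simpa using UG.const (n := n) 0
  | insert a s ha ih =>
      have h1 : UG (F a) := h a (Finset.mem_insert_self _ _)
      have h2 := ih fun k hk => h k (Finset.mem_insert_of_mem hk)
      have h3 := h1.add h2
      have e : (fun t u z => ∑ k ∈ insert a s, F k t u z)
          = fun t u z => F a t u z + ∑ k ∈ s, F k t u z := by
        funext t u z
        rw [Finset.sum_insert ha]
      rw [e]; exact h3

lemma UG.par : UG (n := n) (fun _ s _ => s) := by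
  intro S
  refine ⟨|S|, abs_nonneg _, fun t s _ hs z => ?_⟩
  have hz : 0 ≤ ∑ i, |z i| := Finset.sum_nonneg fun _ _ => abs_nonneg _
  have h1 : 1 ≤ Real.exp (|S| * ∑ i, |z i|) := Real.one_le_exp (by positivity)
  calc |s| ≤ |S| * 1 := by rw [mul_one]; exact hs.trans (le_abs_self _)
    _ ≤ |S| * Real.exp (|S| * ∑ i, |z i|) := by gcongr

lemma UG.coord (k : Fin n) : UG (fun _ _ z => z k) := by
  intro S
  obtain ⟨C, hC⟩ := EG.coord k
  have hC0 : 0 ≤ C := Gausscalc.nonneg_of_bound (hC 0)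
  exact ⟨C, hC0, fun t s _ _ z => hC z⟩

variable (R : Matrix (Fin n) (Fin n) ℝ) (h : Fin n → ℝ)

/-- `|Rx|²`. -/
def qq (x : Cfg n) : ℝ := ∑ k, rx R x k ^ 2

/-- Weighted sums. -/
def sG (g : Cfg n → ℝ) (t s : ℝ) (z : Fin n → ℝ) : ℝ :=
  ∑ x, g x * Real.exp (locH R h t (fun k => s * z k) x)

lemma locH_le (x : Cfg n) {S t s : ℝ} (ht : |t| ≤ S) (hs : |s| ≤ S) (z : Fin n → ℝ) :
    locH R h t (fun k => s * z k) x ≤
      1 / 2 * (1 + S) * qq R x + |lin h x| + (S * ∑ k, |rx R x k|) * ∑ i, |z i| := by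
  unfold locH qq
  have hq : 0 ≤ ∑ k, rx R x k ^ 2 := Finset.sum_nonneg fun _ _ => sq_nonneg _
  have hS : 0 ≤ S := (abs_nonneg _).trans ht
  have h1 : 1 / 2 * (1 - t) * ∑ k, rx R x k ^ 2 ≤ 1 / 2 * (1 + S) * ∑ k, rx R x k ^ 2 := by
    have := (abs_le.1 ht).1
    gcongr
    linarith
  have h2 : ∑ k, s * z k * rx R x k ≤ (S * ∑ k, |rx R x k|) * ∑ i, |z i| := by
    calc ∑ k, s * z k * rx R x k ≤ ∑ k, (S * ∑ j, |rx R x j|) * |z k| := by
          refine Finset.sum_le_sum fun k _ => ?_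
          calc s * z k * rx R x k ≤ |s * z k * rx R x k| := le_abs_self _
            _ = |s| * |z k| * |rx R x k| := by rw [abs_mul, abs_mul]
            _ ≤ S * |z k| * ∑ j, |rx R x j| := by
                gcongr
                exact Finset.single_le_sum (f := fun j => |rx R x j|) (fun j _ => abs_nonneg _)
                  (Finset.mem_univ k)
            _ = (S * ∑ j, |rx R x j|) * |z k| := by ring
      _ = (S * ∑ k, |rx R x k|) * ∑ i, |z i| := (Finset.mul_sum _ _ _).symm
  have h3 := le_abs_self (lin h x)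
  linarith

lemma ug_wt (x : Cfg n) : UG (fun t s z => Real.exp (locH R h t (fun k => s * z k) x)) := by
  intro S
  set A := Real.exp (1 / 2 * (1 + S) * qq R x + |lin h x|) with hA
  set B := S * ∑ k, |rx R x k| with hB
  refine ⟨A + |B|, by positivity, fun t s ht hs z => ?_⟩
  have hz : 0 ≤ ∑ i, |z i| := Finset.sum_nonneg fun _ _ => abs_nonneg _
  have hA0 : 0 < A := Real.exp_pos _
  rw [abs_of_pos (Real.exp_pos _)]
  calc Real.exp (locH R h t (fun k => s * z k) x)
      ≤ Real.exp (1 / 2 * (1 + S) * qq R x + |lin h x| + B * ∑ i, |z i|) :=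
        Real.exp_le_exp.2 (locH_le R h x ht hs z)
    _ = A * Real.exp (B * ∑ i, |z i|) := by rw [Real.exp_add]
    _ ≤ (A + |B|) * Real.exp ((A + |B|) * ∑ i, |z i|) := by
        have h1 : B ≤ A + |B| := by linarith [le_abs_self B]
        have h2 : A ≤ A + |B| := by linarith [abs_nonneg B]
        gcongr

lemma ug_sG (g : Cfg n → ℝ) : UG (sG R h g) := by
  unfold sG
  exact UG.sum _ fun x _ => (UG.const (g x)).mul (ug_wt R h x)

lemma cont_wt (t s : ℝ) (x : Cfg n) :
    Continuous (fun z : Fin n → ℝ => Real.exp (locH R h t (fun k => s * z k) x)) := by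
  unfold locH
  fun_prop

lemma cont_sG (g : Cfg n → ℝ) (t s : ℝ) : Continuous (sG R h g t s) := by
  unfold sG
  exact continuous_finsetSum _ fun x _ => continuous_const.mul (cont_wt R h t s x)

lemma sG_pos {g : Cfg n → ℝ} (hg : ∀ x, 0 < g x) (t s : ℝ) (z : Fin n → ℝ) :
    0 < sG R h g t s z :=
  Finset.sum_pos (fun x _ => mul_pos (hg x) (Real.exp_pos _)) Finset.univ_nonempty

lemma sG_sum (g : Fin n → Cfg n → ℝ) (t s : ℝ) (z : Fin n → ℝ) :
    ∑ k, sG R h (g k) t s z = sG R h (fun x => ∑ k, g k x) t s z := by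
  unfold sG
  rw [Finset.sum_comm]
  exact Finset.sum_congr rfl fun x _ => by rw [Finset.sum_mul]

/-- ratio bound -/
lemma abs_ratio_le {f : Cfg n → ℝ} (hf : ∀ x, 0 < f x) (g : Cfg n → ℝ) (t s : ℝ)
    (z : Fin n → ℝ) :
    |sG R h (fun x => f x * g x) t s z / sG R h f t s z| ≤ ∑ x, |g x| := by
  have hp := sG_pos R h hf t s z
  rw [abs_div, abs_of_pos hp, div_le_iff₀ hp]
  unfold sG
  rw [Finset.mul_sum]
  refine (Finset.abs_sum_le_sum_abs _ _).trans (Finset.sum_le_sum fun x _ => ?_)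
  rw [abs_mul, abs_mul, abs_of_pos (hf x), abs_of_pos (Real.exp_pos _)]
  have h1 : |g x| ≤ ∑ y, |g y| :=
    Finset.single_le_sum (f := fun y => |g y|) (fun _ _ => abs_nonneg _) (Finset.mem_univ x)
  have h2 : 0 ≤ f x * Real.exp (locH R h t (fun k => s * z k) x) :=
    (mul_pos (hf x) (Real.exp_pos _)).le
  calc f x * |g x| * Real.exp (locH R h t (fun k => s * z k) x)
      = |g x| * (f x * Real.exp (locH R h t (fun k => s * z k) x)) := by ring
    _ ≤ (∑ y, |g y|) * (f x * Real.exp (locH R h t (fun k => s * z k) x)) := by gcongr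

/-- Derivative along the path `(u², u z)`. -/
lemma sG_path (g : Cfg n → ℝ) (z : Fin n → ℝ) (s : ℝ) :
    HasDerivAt (fun u => sG R h g (u ^ 2) u z)
      (-s * sG R h (fun x => g x * qq R x) (s ^ 2) s z
        + ∑ k, z k * sG R h (fun x => g x * rx R x k) (s ^ 2) s z) s := by
  have h1 : ∀ x : Cfg n, HasDerivAt (fun u : ℝ => locH R h (u ^ 2) (fun k => u * z k) x)
      (-s * qq R x + ∑ k, z k * rx R x k) s := by
    intro x
    unfold locH qq
    have a1 : HasDerivAt (fun u : ℝ => 1 / 2 * (1 - u ^ 2) * ∑ k, rx R x k ^ 2)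
        (-s * ∑ k, rx R x k ^ 2) s := by
      have := (((hasDerivAt_pow 2 s).const_sub 1).const_mul (1 / 2 : ℝ)).mul_const
        (∑ k, rx R x k ^ 2)
      refine this.congr_deriv ?_
      simp only [Nat.cast_ofNat]
      ring
    have a2 : HasDerivAt (fun u : ℝ => ∑ k, u * z k * rx R x k) (∑ k, z k * rx R x k) s := by
      refine HasDerivAt.fun_sum fun k _ => ?_
      have := ((hasDerivAt_id s).mul_const (z k)).mul_const (rx R x k)
      refine this.congr_deriv ?_
      ring
    refine ((a1.add_const (lin h x)).add a2).congr_deriv ?_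
    ring
  unfold sG
  have h2 : HasDerivAt (fun u => ∑ x, g x * Real.exp (locH R h (u ^ 2) (fun k => u * z k) x))
      (∑ x, g x * (Real.exp (locH R h (s ^ 2) (fun k => s * z k) x) *
        (-s * qq R x + ∑ k, z k * rx R x k))) s :=
    HasDerivAt.fun_sum fun x _ => ((h1 x).exp).const_mul (g x)
  refine h2.congr_deriv ?_
  have e1 : ∑ k, z k * ∑ x, g x * rx R x k * Real.exp (locH R h (s ^ 2) (fun k => s * z k) x)
      = ∑ x, g x * Real.exp (locH R h (s ^ 2) (fun k => s * z k) x) * ∑ k, z k * rx R x k := by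
    simp only [Finset.mul_sum]
    rw [Finset.sum_comm]
    exact Finset.sum_congr rfl fun x _ => Finset.sum_congr rfl fun k _ => by ring
  rw [e1, Finset.mul_sum, ← Finset.sum_add_distrib]
  exact Finset.sum_congr rfl fun x _ => by ring

/-- Derivative in the `i`-th coordinate. -/
lemma sG_coord (g : Cfg n → ℝ) (t s : ℝ) (z : Fin n → ℝ) (i : Fin n) :
    HasDerivAt (fun u => sG R h g t s (Function.update z i u))
      (s * sG R h (fun x => g x * rx R x i) t s z) (z i) := by
  have h1 : ∀ x : Cfg n, HasDerivAt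
      (fun u : ℝ => locH R h t (fun k => s * Function.update z i u k) x)
      (s * rx R x i) (z i) := by
    intro x
    unfold locH
    have a2 : HasDerivAt (fun u : ℝ => ∑ k, s * Function.update z i u k * rx R x k)
        (∑ k, if k = i then s * rx R x i else 0) (z i) := by
      refine HasDerivAt.fun_sum fun k _ => ?_
      by_cases hk : k = i
      · subst hk
        simp only [Function.update_self, if_true]
        have := ((hasDerivAt_id (z k)).const_mul s).mul_const (rx R x k)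
        refine this.congr_deriv ?_
        ring
      · simp only [Function.update_of_ne hk, if_neg hk]
        exact hasDerivAt_const _ _
    rw [Finset.sum_ite_eq' Finset.univ i, if_pos (Finset.mem_univ i)] at a2
    exact a2.const_add _
  unfold sG
  have h2 : HasDerivAt
      (fun u => ∑ x, g x * Real.exp (locH R h t (fun k => s * Function.update z i u k) x))
      (∑ x, g x * (Real.exp (locH R h t (fun k => s * Function.update z i (z i) k) x) *
        (s * rx R x i))) (z i) :=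
    HasDerivAt.fun_sum fun x _ => ((h1 x).exp).const_mul (g x)
  refine h2.congr_deriv ?_
  rw [Function.update_eq_self, Finset.mul_sum]
  exact Finset.sum_congr rfl fun x _ => by ring

variable (f : Cfg n → ℝ)

/-- `ℓ = log F - log Z`. -/
def ell (t s : ℝ) (z : Fin n → ℝ) : ℝ :=
  Real.log (sG R h f t s z) - Real.log (sG R h (fun _ => 1) t s z)

/-- `sG g / Z`. -/
def rat (g : Cfg n → ℝ) (t s : ℝ) (z : Fin n → ℝ) : ℝ :=
  sG R h g t s z / sG R h (fun _ => 1) t s z

/-- `G_g = S(fg) ℓ + S(fg) - F S(g)/Z`. -/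
def gG (g : Cfg n → ℝ) (t s : ℝ) (z : Fin n → ℝ) : ℝ :=
  sG R h (fun x => f x * g x) t s z * ell R h f t s z + sG R h (fun x => f x * g x) t s z
    - sG R h f t s z * rat R h g t s z

lemma Z_pos' (t s : ℝ) (z : Fin n → ℝ) : 0 < sG R h (fun _ => 1) t s z :=
  sG_pos R h (fun _ => one_pos) t s z

lemma rat_bdd (g : Cfg n → ℝ) (t s : ℝ) (z : Fin n → ℝ) : |rat R h g t s z| ≤ ∑ x, |g x| := by
  have := abs_ratio_le R h (f := fun _ => (1 : ℝ)) (fun _ => one_pos) g t s z
  simpa only [rat, one_mul] using this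

lemma ell_bdd {f : Cfg n → ℝ} (hf : ∀ x, 0 < f x) :
    ∃ L : ℝ, ∀ t s z, |ell R h f t s z| ≤ L := by
  refine ⟨∑ x, |Real.log (f x)|, fun t s z => ?_⟩
  set L := ∑ x, |Real.log (f x)| with hL
  have hb : ∀ x, |Real.log (f x)| ≤ L := fun x =>
    Finset.single_le_sum (f := fun y => |Real.log (f y)|) (fun _ _ => abs_nonneg _)
      (Finset.mem_univ x)
  have hup : ∀ x, f x ≤ Real.exp L := fun x => by
    rw [← Real.exp_log (hf x)]
    exact Real.exp_le_exp.2 ((le_abs_self _).trans (hb x))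
  have hlo : ∀ x, Real.exp (-L) ≤ f x := fun x => by
    rw [← Real.exp_log (hf x)]
    exact Real.exp_le_exp.2 (by have := neg_abs_le (Real.log (f x)); linarith [hb x])
  have hF := sG_pos R h hf t s z
  have hZ := Z_pos' R h t s z
  have h1 : sG R h f t s z ≤ Real.exp L * sG R h (fun _ => 1) t s z := by
    unfold sG
    rw [Finset.mul_sum]
    refine Finset.sum_le_sum fun x _ => ?_
    rw [one_mul]
    exact mul_le_mul_of_nonneg_right (hup x) (Real.exp_pos _).le
  have h2 : Real.exp (-L) * sG R h (fun _ => 1) t s z ≤ sG R h f t s z := by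
    unfold sG
    rw [Finset.mul_sum]
    refine Finset.sum_le_sum fun x _ => ?_
    rw [one_mul]
    exact mul_le_mul_of_nonneg_right (hlo x) (Real.exp_pos _).le
  have h1' := Real.log_le_log hF h1
  have h2' := Real.log_le_log (mul_pos (Real.exp_pos _) hZ) h2
  rw [Real.log_mul (Real.exp_pos _).ne' hZ.ne', Real.log_exp] at h1' h2'
  unfold ell
  rw [abs_le]
  constructor <;> linarith

lemma ug_rat (g : Cfg n → ℝ) : UG (rat R h g) := UG.bdd _ fun t s z => rat_bdd R h g t s z

variable {f}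

lemma ug_ell (hf : ∀ x, 0 < f x) : UG (ell R h f) := by
  obtain ⟨L, hL⟩ := ell_bdd R h hf
  exact UG.bdd L hL

lemma ug_gG (hf : ∀ x, 0 < f x) (g : Cfg n → ℝ) : UG (gG R h f g) :=
  (((ug_sG R h _).mul (ug_ell R h hf)).add (ug_sG R h _)).sub ((ug_sG R h _).mul (ug_rat R h g))

lemma cont_rat (g : Cfg n → ℝ) (t s : ℝ) : Continuous (rat R h g t s) :=
  (cont_sG R h g t s).div (cont_sG R h _ t s) fun z => (Z_pos' R h t s z).ne'

lemma cont_ell (hf : ∀ x, 0 < f x) (t s : ℝ) : Continuous (ell R h f t s) :=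
  ((cont_sG R h f t s).log fun z => (sG_pos R h hf t s z).ne').sub
    ((cont_sG R h _ t s).log fun z => (Z_pos' R h t s z).ne')

lemma cont_gG (hf : ∀ x, 0 < f x) (g : Cfg n → ℝ) (t s : ℝ) : Continuous (gG R h f g t s) :=
  (((cont_sG R h _ t s).mul (cont_ell R h hf t s)).add (cont_sG R h _ t s)).sub
    ((cont_sG R h _ t s).mul (cont_rat R h g t s))

lemma F_eq (f : Cfg n → ℝ) (t s : ℝ) (z : Fin n → ℝ) :
    locF R h f t (fun k => s * z k) = sG R h f t s z := rfl

lemma Z_eq (t s : ℝ) (z : Fin n → ℝ) :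
    locZ R h t (fun k => s * z k) = sG R h (fun _ => 1) t s z := by
  simp only [locZ, sG, one_mul]

lemma Psi_eq (f : Cfg n → ℝ) (t s : ℝ) (z : Fin n → ℝ) :
    locPsi R h f t (fun k => s * z k) = sG R h f t s z * ell R h f t s z := by
  simp only [locPsi, F_eq, Z_eq, ell]

lemma D_eq (f : Cfg n → ℝ) (t s : ℝ) (z : Fin n → ℝ) (k : Fin n) :
    locD R h f t (fun k => s * z k) k =
      sG R h (fun x => f x * rx R x k) t s z / sG R h f t s z
        - rat R h (fun x => rx R x k) t s z := by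
  simp only [locD, F_eq, Z_eq, rat, sG]

/-- Derivative of `Ψ` along the path. -/
lemma Psi_path (hf : ∀ x, 0 < f x) (z : Fin n → ℝ) (s : ℝ) :
    HasDerivAt (fun u => sG R h f (u ^ 2) u z * ell R h f (u ^ 2) u z)
      (-s * gG R h f (qq R) (s ^ 2) s z
        + ∑ k, z k * gG R h f (fun x => rx R x k) (s ^ 2) s z) s := by
  have hF := sG_pos R h hf (s ^ 2) s z
  have hZ := Z_pos' R h (s ^ 2) s z
  have d1 := sG_path R h f z s
  have d2 := sG_path R h (fun _ => 1) z s
  have d3 := (d1.log hF.ne').sub (d2.log hZ.ne')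
  have d4 := d1.mul d3
  refine HasDerivAt.congr_deriv (f := fun u => sG R h f (u ^ 2) u z * ell R h f (u ^ 2) u z) d4 ?_
  simp only [one_mul, gG, rat, ell, Pi.sub_apply]
  have e1 : ∀ k, z k * (sG R h (fun x => f x * rx R x k) (s ^ 2) s z *
      (Real.log (sG R h f (s ^ 2) s z) - Real.log (sG R h (fun _ => 1) (s ^ 2) s z))
        + sG R h (fun x => f x * rx R x k) (s ^ 2) s z
        - sG R h f (s ^ 2) s z * (sG R h (fun x => rx R x k) (s ^ 2) s z
          / sG R h (fun _ => 1) (s ^ 2) s z))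
      = (z k * sG R h (fun x => f x * rx R x k) (s ^ 2) s z) *
        (Real.log (sG R h f (s ^ 2) s z) - Real.log (sG R h (fun _ => 1) (s ^ 2) s z) + 1)
        - (z k * sG R h (fun x => rx R x k) (s ^ 2) s z) *
          (sG R h f (s ^ 2) s z / sG R h (fun _ => 1) (s ^ 2) s z) := by
    intro k; ring
  simp only [e1]
  rw [Finset.sum_sub_distrib, ← Finset.sum_mul, ← Finset.sum_mul]
  field_simp
  ring

/-- the coordinate derivative of `gG` -/
def kK (R : Matrix (Fin n) (Fin n) ℝ) (h : Fin n → ℝ) (f : Cfg n → ℝ) (k : Fin n) (t s : ℝ)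
    (z : Fin n → ℝ) : ℝ :=
  sG R h (fun x => f x * rx R x k * rx R x k) t s z * ell R h f t s z
    + sG R h (fun x => f x * rx R x k) t s z *
      (sG R h (fun x => f x * rx R x k) t s z / sG R h f t s z
        - rat R h (fun x => rx R x k) t s z)
    + sG R h (fun x => f x * rx R x k * rx R x k) t s z
    - sG R h (fun x => f x * rx R x k) t s z * rat R h (fun x => rx R x k) t s z
    - sG R h f t s z * (rat R h (fun x => rx R x k * rx R x k) t s z
      - rat R h (fun x => rx R x k) t s z ^ 2)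

lemma gG_coord (hf : ∀ x, 0 < f x) (k : Fin n) (t s : ℝ) (z : Fin n → ℝ) :
    HasDerivAt (fun u => gG R h f (fun x => rx R x k) t s (Function.update z k u))
      (s * kK R h f k t s z) (z k) := by
  have hF := sG_pos R h hf t s z
  have hZ := Z_pos' R h t s z
  have ez : Function.update z k (z k) = z := Function.update_eq_self k z
  have d1 := sG_coord R h f t s z k
  have d2 := sG_coord R h (fun _ => 1) t s z k
  have d3 := sG_coord R h (fun x => f x * rx R x k) t s z k
  have d4 := sG_coord R h (fun x => rx R x k) t s z k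
  have hF' : sG R h f t s (Function.update z k (z k)) ≠ 0 := by rw [ez]; exact hF.ne'
  have hZ' : sG R h (fun _ => 1) t s (Function.update z k (z k)) ≠ 0 := by rw [ez]; exact hZ.ne'
  have d5 := (d1.log hF').sub (d2.log hZ')
  have d6 := d4.div d2 hZ'
  have d7 := ((d3.mul d5).add d3).sub (d1.mul d6)
  refine HasDerivAt.congr_deriv
    (f := fun u => gG R h f (fun x => rx R x k) t s (Function.update z k u)) d7 ?_
  simp only [ez, one_mul, kK, rat, ell, Pi.sub_apply, Pi.div_apply]
  field_simp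
  ring

lemma ug_Fratio (hf : ∀ x, 0 < f x) (g : Cfg n → ℝ) :
    UG (fun t s z => sG R h (fun x => f x * g x) t s z / sG R h f t s z) :=
  UG.bdd _ fun t s z => abs_ratio_le R h hf g t s z

lemma cont_Fratio (hf : ∀ x, 0 < f x) (g : Cfg n → ℝ) (t s : ℝ) :
    Continuous (fun z => sG R h (fun x => f x * g x) t s z / sG R h f t s z) :=
  (cont_sG R h _ t s).div (cont_sG R h _ t s) fun z => (sG_pos R h hf t s z).ne'

lemma ug_kK (hf : ∀ x, 0 < f x) (k : Fin n) : UG (kK R h f k) := by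
  have a1 := (ug_sG R h (fun x => f x * rx R x k * rx R x k)).mul (ug_ell R h hf)
  have a2 := (ug_sG R h (fun x => f x * rx R x k)).mul
    ((ug_Fratio R h hf (fun x => rx R x k)).sub (ug_rat R h (fun x => rx R x k)))
  have a3 := ug_sG R h (fun x => f x * rx R x k * rx R x k)
  have a4 := (ug_sG R h (fun x => f x * rx R x k)).mul (ug_rat R h (fun x => rx R x k))
  have a5 := (ug_rat R h (fun x => rx R x k)).mul (ug_rat R h (fun x => rx R x k))
  have a6 := (ug_sG R h f).mul ((ug_rat R h (fun x => rx R x k * rx R x k)).sub a5)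
  have := (((a1.add a2).add a3).sub a4).sub a6
  unfold kK
  simpa only [pow_two] using this

lemma cont_kK (hf : ∀ x, 0 < f x) (k : Fin n) (t s : ℝ) : Continuous (kK R h f k t s) := by
  have a1 := (cont_sG R h (fun x => f x * rx R x k * rx R x k) t s).mul (cont_ell R h hf t s)
  have a2 := (cont_sG R h (fun x => f x * rx R x k) t s).mul
    ((cont_Fratio R h hf (fun x => rx R x k) t s).sub (cont_rat R h (fun x => rx R x k) t s))
  have a3 := cont_sG R h (fun x => f x * rx R x k * rx R x k) t s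
  have a4 := (cont_sG R h (fun x => f x * rx R x k) t s).mul
    (cont_rat R h (fun x => rx R x k) t s)
  have a5 := (cont_rat R h (fun x => rx R x k) t s).pow 2
  have a6 := (cont_sG R h f t s).mul ((cont_rat R h (fun x => rx R x k * rx R x k) t s).sub a5)
  exact (((a1.add a2).add a3).sub a4).sub a6

lemma sum_kK (hf : ∀ x, 0 < f x) (t s : ℝ) (z : Fin n → ℝ) :
    ∑ k, kK R h f k t s z = gG R h f (qq R) t s z
      + sG R h f t s z * ∑ k, (sG R h (fun x => f x * rx R x k) t s z / sG R h f t s z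
        - rat R h (fun x => rx R x k) t s z) ^ 2 := by
  have hF := sG_pos R h hf t s z
  have hZ := Z_pos' R h t s z
  have e1 : sG R h (fun x => f x * qq R x) t s z
      = ∑ k, sG R h (fun x => f x * rx R x k * rx R x k) t s z := by
    rw [sG_sum]
    congr 1
    funext x
    simp only [qq, Finset.mul_sum]
    exact Finset.sum_congr rfl fun k _ => by ring
  have e2 : sG R h (qq R) t s z = ∑ k, sG R h (fun x => rx R x k * rx R x k) t s z := by
    rw [sG_sum]
    congr 1
    funext x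
    simp only [qq]
    exact Finset.sum_congr rfl fun k _ => by ring
  simp only [gG, rat, e1, e2, kK]
  rw [Finset.sum_mul, Finset.sum_div, Finset.mul_sum, Finset.mul_sum, ← Finset.sum_add_distrib,
    ← Finset.sum_sub_distrib, ← Finset.sum_add_distrib]
  refine Finset.sum_congr rfl fun k _ => ?_
  field_simp
  ring

lemma ug_FD (hf : ∀ x, 0 < f x) : UG (fun t s z => sG R h f t s z *
    ∑ k, (sG R h (fun x => f x * rx R x k) t s z / sG R h f t s z
        - rat R h (fun x => rx R x k) t s z) ^ 2) := by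
  have a : ∀ k : Fin n, UG (fun t s z =>
      (sG R h (fun x => f x * rx R x k) t s z / sG R h f t s z
        - rat R h (fun x => rx R x k) t s z) ^ 2) := by
    intro k
    have b := (ug_Fratio R h hf (fun x => rx R x k)).sub (ug_rat R h (fun x => rx R x k))
    simpa only [pow_two] using b.mul b
  exact (ug_sG R h f).mul (UG.sum _ fun k _ => a k)

lemma cont_FD (hf : ∀ x, 0 < f x) (t s : ℝ) : Continuous (fun z => sG R h f t s z *
    ∑ k, (sG R h (fun x => f x * rx R x k) t s z / sG R h f t s z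
        - rat R h (fun x => rx R x k) t s z) ^ 2) :=
  (cont_sG R h f t s).mul (continuous_finsetSum _ fun k _ =>
    ((cont_Fratio R h hf (fun x => rx R x k) t s).sub
      (cont_rat R h (fun x => rx R x k) t s)).pow 2)

end Loca

open Loca

theorem loc_deriv (R : Matrix (Fin n) (Fin n) ℝ) (h : Fin n → ℝ) (f : Cfg n → ℝ)
    (hf : ∀ x, 0 < f x) (s : ℝ) :
    HasDerivAt (fun u => ∫ z, locPsi R h f (u ^ 2) (fun k => u * z k) ∂(stdG (Fin n)))
      (s * ∫ z, locF R h f (s ^ 2) (fun k => s * z k) *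
        ∑ k, locD R h f (s ^ 2) (fun k => s * z k) k ^ 2 ∂(stdG (Fin n))) s := by
  simp only [Psi_eq, F_eq, D_eq]
  have ugd : UG (fun t s z => -s * gG R h f (qq R) t s z
      + ∑ k, z k * gG R h f (fun x => rx R x k) t s z) :=
    ((UG.par.neg).mul (ug_gG R h hf _)).add
      (UG.sum _ fun k _ => (UG.coord k).mul (ug_gG R h hf _))
  have key := hasDerivAt_integral_stdG
    (F := fun u z => sG R h f (u ^ 2) u z * ell R h f (u ^ 2) u z)
    (F' := fun u z => -u * gG R h f (qq R) (u ^ 2) u z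
      + ∑ k, z k * gG R h f (fun x => rx R x k) (u ^ 2) u z)
    (fun u => (cont_sG R h f _ u).mul (cont_ell R h hf _ u))
    (fun u => (continuous_const.mul (cont_gG R h hf _ _ u)).add
      (continuous_finsetSum _ fun k _ => (continuous_apply k).mul (cont_gG R h hf _ _ u)))
    (fun u z => Psi_path R h hf z u)
    (fun u => ((ug_sG R h f).mul (ug_ell R h hf)).eg (u ^ 2) u)
    (by
      intro S
      obtain ⟨C, _, hC⟩ := ugd (max |S| (S ^ 2))
      refine ⟨C, fun u hu z => hC (u ^ 2) u ?_ ?_ z⟩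
      · rw [abs_of_nonneg (sq_nonneg u)]
        refine le_trans ?_ (le_max_right _ _)
        have hS : 0 ≤ S := (abs_nonneg u).trans hu
        exact sq_le_sq' (by linarith [(abs_le.1 hu).1]) ((le_abs_self u).trans hu)
      · exact (hu.trans (le_abs_self S)).trans (le_max_left _ _))
    s
  refine key.congr_deriv ?_
  have i1 : Integrable (fun z => -s * gG R h f (qq R) (s ^ 2) s z) (stdG (Fin n)) :=
    (((ug_gG R h hf (qq R)).eg (s ^ 2) s).integrable (cont_gG R h hf _ _ s)).const_mul (-s)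
  have i2 : ∀ k : Fin n, Integrable
      (fun z : Fin n → ℝ => z k * gG R h f (fun x => rx R x k) (s ^ 2) s z) (stdG (Fin n)) :=
    fun k => (((UG.coord k).mul (ug_gG R h hf (fun x => rx R x k))).eg (s ^ 2) s).integrable
      ((continuous_apply k).mul (cont_gG R h hf _ _ s))
  have i3 : ∀ k : Fin n, Integrable (fun z => s * kK R h f k (s ^ 2) s z) (stdG (Fin n)) :=
    fun k => (((ug_kK R h hf k).eg (s ^ 2) s).integrable (cont_kK R h hf k _ s)).const_mul s
  have i4 : Integrable (fun z => sG R h f (s ^ 2) s z *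
      ∑ k, (sG R h (fun x => f x * rx R x k) (s ^ 2) s z / sG R h f (s ^ 2) s z
        - rat R h (fun x => rx R x k) (s ^ 2) s z) ^ 2) (stdG (Fin n)) :=
    ((ug_FD R h hf).eg (s ^ 2) s).integrable (cont_FD R h hf _ s)
  have i5 : Integrable (fun z => gG R h f (qq R) (s ^ 2) s z) (stdG (Fin n)) :=
    ((ug_gG R h hf (qq R)).eg (s ^ 2) s).integrable (cont_gG R h hf _ _ s)
  rw [integral_add i1 (integrable_finsetSum _ fun k _ => i2 k),
    integral_finsetSum _ fun k _ => i2 k]
  have ibp : ∀ k : Fin n,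
      ∫ z, z k * gG R h f (fun x => rx R x k) (s ^ 2) s z ∂(stdG (Fin n))
        = ∫ z, s * kK R h f k (s ^ 2) s z ∂(stdG (Fin n)) := by
    intro k
    exact gauss_ibp k _ _ (cont_gG R h hf _ _ s) (continuous_const.mul (cont_kK R h hf k _ s))
      (fun z => gG_coord R h hf k (s ^ 2) s z) ((ug_gG R h hf _).eg _ _)
      (((UG.const s).mul (ug_kK R h hf k)).eg (s ^ 2) s)
  simp only [ibp]
  rw [← integral_finsetSum _ fun k _ => i3 k]
  simp only [← Finset.mul_sum]
  simp only [sum_kK R h hf]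
  rw [integral_const_mul, integral_const_mul, integral_add i5 i4]
  ring

/-- Integrability facts needed by LocB. -/
theorem locPsi_integrable (R : Matrix (Fin n) (Fin n) ℝ) (h : Fin n → ℝ) (f : Cfg n → ℝ)
    (hf : ∀ x, 0 < f x) (t s : ℝ) :
    Integrable (fun z => locPsi R h f t (fun k => s * z k)) (stdG (Fin n)) := by
  simp only [Psi_eq]
  exact (((ug_sG R h f).mul (ug_ell R h hf)).eg t s).integrable
    ((cont_sG R h f t s).mul (cont_ell R h hf t s))

theorem locFD_integrable (R : Matrix (Fin n) (Fin n) ℝ) (h : Fin n → ℝ) (f : Cfg n → ℝ)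
    (hf : ∀ x, 0 < f x) (t s : ℝ) :
    Integrable (fun z => locF R h f t (fun k => s * z k) *
        ∑ k, locD R h f t (fun k => s * z k) k ^ 2) (stdG (Fin n)) := by
  simp only [F_eq, D_eq]
  exact ((ug_FD R h hf).eg t s).integrable (cont_FD R h hf t s)

end

end Vale.Agent.P150
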