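import Vale.Agent.P150.Core

/-!
P150 module TENS.

* `tens`: tensorisation of entropy for a product measure on the cube (`H` additive):
  `Ent_μ(f) ≤ ∑_i E_μ[Ent_i f]`.  (Averaging out the coordinates one at a time; convexity of
  the conditional entropies.)
* `mixture`: if `exp (H x) = ∫ exp (Hω x) dP(ω)` then the averaged conditional entropies do not increase
  by conditioning: `∫ ∑_x e^{Hω x} condEnt Hω i f x ≤ ∑_x e^{H x} condEnt H i f x`.
  Resum over `x_i` (`sum_resum`): the inner sum over spins is
  `S(ω) = ∑_s a_s(ω) f_s log f_s - b(ω) log (b(ω)/a(ω))`, `a = ∑_s a_s`, `b = ∑_s a_s f_s`, and for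
  `r = E b/E a`:  `b log(b/a) ≥ b log r + b - a r` (from `log y ≥ 1 - 1/y`); integrate.
-/

namespace Vale.Agent.P150

open MeasureTheory
open scoped BigOperators

variable {n : ℕ}

namespace Tens

/-- `y log y ≥ y log r + y - r`. -/
lemma mul_log_ge {y r : ℝ} (hy : 0 < y) (hr : 0 < r) :
    y * Real.log r + y - r ≤ y * Real.log y := by
  have h := Real.log_le_sub_one_of_pos (div_pos hr hy)
  rw [Real.log_div hr.ne' hy.ne'] at h
  have h2 : y * (Real.log r - Real.log y) ≤ y * (r / y - 1) :=
    mul_le_mul_of_nonneg_left h hy.le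
  have h3 : y * (r / y - 1) = r - y := by field_simp
  rw [h3] at h2
  linarith

/-- Scaled version: `b log (b/a) ≥ b log r + b - a r`. -/
lemma mul_log_div_ge {a b r : ℝ} (ha : 0 < a) (hb : 0 < b) (hr : 0 < r) :
    b * Real.log r + b - a * r ≤ b * Real.log (b / a) := by
  have h := mul_log_ge (div_pos hb ha) hr
  have h2 := mul_le_mul_of_nonneg_left h ha.le
  have e1 : a * (b / a * Real.log r + b / a - r) = b * Real.log r + b - a * r := by
    field_simp
  have e2 : a * (b / a * Real.log (b / a)) = b * Real.log (b / a) := by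
    field_simp
  rw [e1, e2] at h2
  exact h2

/-- Log-sum inequality. -/
lemma log_sum {ι : Type*} (s : Finset ι) (w y : ι → ℝ) (hs : s.Nonempty)
    (hw : ∀ i ∈ s, 0 < w i) (hy : ∀ i ∈ s, 0 < y i) :
    (∑ i ∈ s, y i) * Real.log ((∑ i ∈ s, y i) / ∑ i ∈ s, w i)
      ≤ ∑ i ∈ s, y i * Real.log (y i / w i) := by
  have hW : 0 < ∑ i ∈ s, w i := Finset.sum_pos hw hs
  have hY : 0 < ∑ i ∈ s, y i := Finset.sum_pos hy hs
  set r := (∑ i ∈ s, y i) / ∑ i ∈ s, w i with hr
  have hr0 : 0 < r := div_pos hY hW
  have h1 : ∑ i ∈ s, (y i * Real.log r + y i - w i * r) ≤ ∑ i ∈ s, y i * Real.log (y i / w i) :=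
    Finset.sum_le_sum fun i hi => mul_log_div_ge (hw i hi) (hy i hi) hr0
  have h2 : ∑ i ∈ s, (y i * Real.log r + y i - w i * r)
      = (∑ i ∈ s, y i) * Real.log r + ∑ i ∈ s, y i - (∑ i ∈ s, w i) * r := by
    rw [Finset.sum_sub_distrib, Finset.sum_add_distrib, Finset.sum_mul, Finset.sum_mul]
  have h3 : (∑ i ∈ s, w i) * r = ∑ i ∈ s, y i := by
    rw [hr]; field_simp
  rw [h2, h3] at h1
  linarith

/-- Jensen for `y log y` with weights. -/
lemma jensen {ι : Type*} (s : Finset ι) (w y : ι → ℝ) (hs : s.Nonempty)
    (hw : ∀ i ∈ s, 0 < w i) (hy : ∀ i ∈ s, 0 < y i) :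
    (∑ i ∈ s, w i * y i) * Real.log ((∑ i ∈ s, w i * y i) / ∑ i ∈ s, w i)
      ≤ ∑ i ∈ s, w i * (y i * Real.log (y i)) := by
  have h := log_sum s w (fun i => w i * y i) hs hw (fun i hi => mul_pos (hw i hi) (hy i hi))
  refine h.trans (le_of_eq (Finset.sum_congr rfl fun i hi => ?_))
  have := (hw i hi).ne'
  rw [mul_div_cancel_left₀ _ this, mul_assoc]

/-- The weighted block entropy. -/
noncomputable def blk (H : Cfg n → ℝ) (i : Fin n) (f : Cfg n → ℝ) (x : Cfg n) : ℝ :=
  ∑ s : ℤˣ, Real.exp (H (Function.update x i s)) *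
      (f (Function.update x i s) * Real.log (f (Function.update x i s)))
    - (∑ s : ℤˣ, Real.exp (H (Function.update x i s)) * f (Function.update x i s)) *
      Real.log ((∑ s : ℤˣ, Real.exp (H (Function.update x i s)) * f (Function.update x i s)) /
        ∑ s : ℤˣ, Real.exp (H (Function.update x i s)))

lemma blk_nonneg (H : Cfg n → ℝ) (i : Fin n) (f : Cfg n → ℝ) (hf : ∀ x, 0 < f x)
    (x : Cfg n) : 0 ≤ blk H i f x := by
  have := jensen (Finset.univ : Finset ℤˣ)
    (fun s => Real.exp (H (Function.update x i s))) (fun s => f (Function.update x i s))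
    Finset.univ_nonempty (fun s _ => Real.exp_pos _) (fun s _ => hf _)
  exact sub_nonneg.mpr this

lemma condEnt_eq_blk (H : Cfg n → ℝ) (i : Fin n) (f : Cfg n → ℝ) (x : Cfg n) :
    condEnt H i f x = blk H i f x / ∑ s : ℤˣ, Real.exp (H (Function.update x i s)) := by
  simp only [condEnt, condExp_eq_exp, blk]
  ring

lemma condEnt_update (H : Cfg n → ℝ) (i : Fin n) (f : Cfg n → ℝ) (x : Cfg n) (s : ℤˣ) :
    condEnt H i f (Function.update x i s) = condEnt H i f x := by
  simp only [condEnt, condExp_update]

lemma sum_exp_pos (H : Cfg n → ℝ) (i : Fin n) (x : Cfg n) :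
    0 < ∑ s : ℤˣ, Real.exp (H (Function.update x i s)) :=
  Finset.sum_pos (fun _ _ => Real.exp_pos _) Finset.univ_nonempty

lemma sum_exp_condEnt (H : Cfg n → ℝ) (i : Fin n) (f : Cfg n → ℝ) :
    ∑ x, Real.exp (H x) * condEnt H i f x = 1 / 2 * ∑ x, blk H i f x := by
  rw [sum_resum i]
  congr 1
  refine Finset.sum_congr rfl fun x _ => ?_
  simp only [condEnt_update]
  rw [← Finset.sum_mul, condEnt_eq_blk, mul_div_cancel₀ _ (sum_exp_pos H i x).ne']

/-- Single-site marginal weights of a product measure. -/
noncomputable def pw (h : Fin n → ℝ) (i : Fin n) (s : ℤˣ) : ℝ :=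
  Real.exp (h i * val s) / ∑ t : ℤˣ, Real.exp (h i * val t)

lemma pw_pos (h : Fin n → ℝ) (i : Fin n) (s : ℤˣ) : 0 < pw h i s :=
  div_pos (Real.exp_pos _) (Finset.sum_pos (fun _ _ => Real.exp_pos _) Finset.univ_nonempty)

lemma sum_pw (h : Fin n → ℝ) (i : Fin n) : ∑ s, pw h i s = 1 := by
  simp only [pw]
  rw [← Finset.sum_div, div_self]
  exact (Finset.sum_pos (fun _ _ => Real.exp_pos _) Finset.univ_nonempty).ne'

lemma lin_update (h : Fin n → ℝ) (i : Fin n) (x : Cfg n) (s : ℤˣ) :
    lin h (Function.update x i s) = h i * val s + ∑ j ∈ Finset.univ.erase i, h j * val (x j) := by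
  simp only [lin]
  rw [← Finset.add_sum_erase _ _ (Finset.mem_univ i), Function.update_self]
  congr 1
  refine Finset.sum_congr rfl fun j hj => ?_
  rw [Function.update_of_ne (Finset.ne_of_mem_erase hj)]

lemma condExp_lin (h : Fin n → ℝ) (i : Fin n) (f : Cfg n → ℝ) (x : Cfg n) :
    condExp (lin h) i f x = ∑ s, pw h i s * f (Function.update x i s) := by
  rw [condExp_eq_exp]
  simp only [lin_update, Real.exp_add, pw]
  set c := Real.exp (∑ j ∈ Finset.univ.erase i, h j * val (x j)) with hc
  have hc0 : c ≠ 0 := (Real.exp_pos _).ne'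
  rw [← Finset.sum_mul]
  have hZ : (∑ t : ℤˣ, Real.exp (h i * val t)) ≠ 0 :=
    (Finset.sum_pos (fun _ _ => Real.exp_pos _) Finset.univ_nonempty).ne'
  rw [div_eq_iff (mul_ne_zero hZ hc0), Finset.sum_mul]
  refine Finset.sum_congr rfl fun s _ => ?_
  field_simp

/-- The averaged-out function has no larger conditional entropies (pointwise form). -/
lemma condEnt_condExp_le (h : Fin n → ℝ) {j k : Fin n} (hjk : j ≠ k) (g : Cfg n → ℝ)
    (hg : ∀ x, 0 < g x) (x : Cfg n) :
    condEnt (lin h) k (condExp (lin h) j g) x ≤ condExp (lin h) j (condEnt (lin h) k g) x := by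
  -- block values
  let G : ℤˣ → ℤˣ → ℝ := fun s t => g (Function.update (Function.update x j t) k s)
  have hG : ∀ s t, 0 < G s t := fun s t => hg _
  have hcomm : ∀ s t, g (Function.update (Function.update x k s) j t) = G s t := by
    intro s t
    change g _ = g _
    rw [Function.update_comm hjk]
  have e1 : condEnt (lin h) k (condExp (lin h) j g) x
      = ∑ s, pw h k s * ((∑ t, pw h j t * G s t) * Real.log (∑ t, pw h j t * G s t))
        - (∑ s, pw h k s * ∑ t, pw h j t * G s t) *
          Real.log (∑ s, pw h k s * ∑ t, pw h j t * G s t) := by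
    simp only [condEnt, condExp_lin, hcomm]
  have e2 : condExp (lin h) j (condEnt (lin h) k g) x
      = ∑ t, pw h j t * (∑ s, pw h k s * (G s t * Real.log (G s t))
        - (∑ s, pw h k s * G s t) * Real.log (∑ s, pw h k s * G s t)) := by
    simp only [condEnt, condExp_lin]
    rfl
  rw [e1, e2]
  -- block means
  set m : ℤˣ → ℝ := fun t => ∑ s, pw h k s * G s t with hm
  set M : ℤˣ → ℝ := fun s => ∑ t, pw h j t * G s t with hM
  have hm0 : ∀ t, 0 < m t := fun t =>
    Finset.sum_pos (fun s _ => mul_pos (pw_pos h k s) (hG s t)) Finset.univ_nonempty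
  have hM0 : ∀ s, 0 < M s := fun s =>
    Finset.sum_pos (fun t _ => mul_pos (pw_pos h j t) (hG s t)) Finset.univ_nonempty
  have hT : ∑ s, pw h k s * M s = ∑ t, pw h j t * m t := by
    simp only [hm, hM, Finset.mul_sum]
    rw [Finset.sum_comm]
    exact Finset.sum_congr rfl fun t _ => Finset.sum_congr rfl fun s _ => by ring
  set Tt := ∑ s, pw h k s * M s with hTt
  have hT0 : 0 < Tt :=
    Finset.sum_pos (fun s _ => mul_pos (pw_pos h k s) (hM0 s)) Finset.univ_nonempty
  -- log-sum for each s
  have key : ∀ s, M s * Real.log (M s / Tt) ≤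
      ∑ t, pw h j t * (G s t * (Real.log (G s t) - Real.log (m t))) := by
    intro s
    have := log_sum (Finset.univ : Finset ℤˣ) (fun t => pw h j t * m t)
      (fun t => pw h j t * G s t) Finset.univ_nonempty
      (fun t _ => mul_pos (pw_pos h j t) (hm0 t)) (fun t _ => mul_pos (pw_pos h j t) (hG s t))
    rw [hT]
    refine this.trans (le_of_eq (Finset.sum_congr rfl fun t _ => ?_))
    rw [mul_div_mul_left _ _ (pw_pos h j t).ne', Real.log_div (hG s t).ne' (hm0 t).ne', mul_assoc]
  have key2 : ∑ s, pw h k s * (M s * Real.log (M s / Tt)) ≤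
      ∑ s, pw h k s * ∑ t, pw h j t * (G s t * (Real.log (G s t) - Real.log (m t))) :=
    Finset.sum_le_sum fun s _ => mul_le_mul_of_nonneg_left (key s) (pw_pos h k s).le
  have l1 : ∑ s, pw h k s * (M s * Real.log (M s / Tt))
      = ∑ s, pw h k s * (M s * Real.log (M s)) - Tt * Real.log Tt := by
    have : ∀ s, pw h k s * (M s * Real.log (M s / Tt))
        = pw h k s * (M s * Real.log (M s)) - (pw h k s * M s) * Real.log Tt := by
      intro s
      rw [Real.log_div (hM0 s).ne' hT0.ne']
      ring
    simp only [this, Finset.sum_sub_distrib, ← Finset.sum_mul]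
    rfl
  have l2 : ∑ s, pw h k s * ∑ t, pw h j t * (G s t * (Real.log (G s t) - Real.log (m t)))
      = ∑ t, pw h j t * (∑ s, pw h k s * (G s t * Real.log (G s t)) - m t * Real.log (m t)) := by
    have h1 : ∀ t, pw h j t * (∑ s, pw h k s * (G s t * Real.log (G s t)) - m t * Real.log (m t))
        = ∑ s, pw h k s * (pw h j t * (G s t * (Real.log (G s t) - Real.log (m t)))) := by
      intro t
      have h2 : m t * Real.log (m t) = ∑ s, pw h k s * (G s t * Real.log (m t)) := by
        have : m t = ∑ s, pw h k s * G s t := rfl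
        conv_lhs => rw [this, Finset.sum_mul]
        exact Finset.sum_congr rfl fun s _ => by ring
      rw [h2, ← Finset.sum_sub_distrib, Finset.mul_sum]
      exact Finset.sum_congr rfl fun s _ => by ring
    simp only [h1]
    rw [Finset.sum_comm]
    exact Finset.sum_congr rfl fun s _ => by rw [Finset.mul_sum]
  rw [l1, l2] at key2
  exact key2

lemma condExp_pos (H : Cfg n → ℝ) (i : Fin n) {f : Cfg n → ℝ} (hf : ∀ x, 0 < f x)
    (x : Cfg n) : 0 < condExp H i f x :=
  div_pos (Finset.sum_pos (fun _ _ => mul_pos (gibbs_pos H _) (hf _)) Finset.univ_nonempty)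
    (Finset.sum_pos (fun _ _ => gibbs_pos H _) Finset.univ_nonempty)

/-- A function not seeing any coordinate is constant. -/
lemma const_of_update {g : Cfg n → ℝ} (h : ∀ i, ∀ x : Cfg n, ∀ s, g (Function.update x i s) = g x)
    (x y : Cfg n) : g x = g y := by
  classical
  have key : ∀ A : Finset (Fin n), g (A.piecewise y x) = g x := by
    intro A
    induction A using Finset.induction_on with
    | empty => simp
    | insert a A _ ih => rw [Finset.piecewise_insert, h, ih]
  have := key Finset.univ
  rw [Finset.piecewise_univ] at this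
  exact this.symm

/-- Averaging out the coordinates in a finite set. -/
lemma avg_out (h : Fin n → ℝ) (f : Cfg n → ℝ) (hf : ∀ x, 0 < f x) (A : Finset (Fin n)) :
    ∃ g : Cfg n → ℝ, (∀ x, 0 < g x) ∧ avg (lin h) g = avg (lin h) f ∧
      (∀ i ∈ A, ∀ x s, g (Function.update x i s) = g x) ∧
      (∀ k, k ∉ A → avg (lin h) (condEnt (lin h) k g) ≤ avg (lin h) (condEnt (lin h) k f)) ∧
      avg (lin h) (fun x => f x * Real.log (f x)) - avg (lin h) (fun x => g x * Real.log (g x))
        ≤ ∑ i ∈ A, avg (lin h) (condEnt (lin h) i f) := by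
  classical
  induction A using Finset.induction_on with
  | empty => exact ⟨f, hf, rfl, by simp, fun k _ => le_rfl, by simp⟩
  | insert a A ha ih =>
    obtain ⟨g, hg, hav, hinv, hce, hent⟩ := ih
    refine ⟨condExp (lin h) a g, fun x => condExp_pos _ a hg x, ?_, ?_, ?_, ?_⟩
    · rw [avg_condExp, hav]
    · intro i hi x s
      rcases Finset.mem_insert.mp hi with rfl | hi
      · exact condExp_update _ _ _ _ _
      · have hne : i ≠ a := fun h => ha (h ▸ hi)
        rw [condExp_lin, condExp_lin]
        refine Finset.sum_congr rfl fun t _ => ?_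
        rw [Function.update_comm hne, hinv i hi]
    · intro k hk
      have hka : a ≠ k := fun h => hk (by rw [← h]; exact Finset.mem_insert_self _ _)
      have hkA : k ∉ A := fun h => hk (Finset.mem_insert_of_mem h)
      calc avg (lin h) (condEnt (lin h) k (condExp (lin h) a g))
          ≤ avg (lin h) (condExp (lin h) a (condEnt (lin h) k g)) :=
            avg_mono _ fun x => condEnt_condExp_le h hka g hg x
        _ = avg (lin h) (condEnt (lin h) k g) := avg_condExp _ _ _
        _ ≤ _ := hce k hkA
    · rw [Finset.sum_insert ha]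
      have e : avg (lin h) (fun x => g x * Real.log (g x))
          - avg (lin h) (fun x => condExp (lin h) a g x * Real.log (condExp (lin h) a g x))
          = avg (lin h) (condEnt (lin h) a g) := by
        have : avg (lin h) (condEnt (lin h) a g)
            = avg (lin h) (fun x => condExp (lin h) a (fun y => g y * Real.log (g y)) x
              - condExp (lin h) a g x * Real.log (condExp (lin h) a g x)) := rfl
        rw [this, avg_sub, ← avg_condExp (lin h) a (fun y => g y * Real.log (g y))]
      have := hce a ha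
      linarith

end Tens

theorem condEnt_nonneg (H : Cfg n → ℝ) (i : Fin n) (f : Cfg n → ℝ) (hf : ∀ x, 0 < f x)
    (x : Cfg n) : 0 ≤ condEnt H i f x := by
  rw [Tens.condEnt_eq_blk]
  exact div_nonneg (Tens.blk_nonneg H i f hf x) (Tens.sum_exp_pos H i x).le

theorem ent_nonneg (H : Cfg n → ℝ) (f : Cfg n → ℝ) (hf : ∀ x, 0 < f x) : 0 ≤ ent H f := by
  have := Tens.jensen (Finset.univ : Finset (Cfg n)) (gibbs H) f Finset.univ_nonempty
    (fun x _ => gibbs_pos H x) (fun x _ => hf x)
  rw [sum_gibbs, div_one] at this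
  exact sub_nonneg.mpr this

theorem tens (h : Fin n → ℝ) (f : Cfg n → ℝ) (hf : ∀ x, 0 < f x) :
    ent (lin h) f ≤ ∑ i, avg (lin h) (condEnt (lin h) i f) := by
  obtain ⟨g, hg, hav, hinv, -, hent⟩ := Tens.avg_out h f hf Finset.univ
  have hc : ∀ x y, g x = g y :=
    Tens.const_of_update fun i x s => hinv i (Finset.mem_univ i) x s
  have x0 : Cfg n := fun _ => 1
  have hg0 : g = fun _ => g x0 := funext fun x => hc x x0
  have e1 : avg (lin h) g = g x0 := by rw [hg0]; exact avg_const _ _
  have e2 : avg (lin h) (fun x => g x * Real.log (g x)) = g x0 * Real.log (g x0) := by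
    have : (fun x => g x * Real.log (g x)) = fun _ : Cfg n => g x0 * Real.log (g x0) :=
      funext fun x => by rw [hc x x0]
    rw [this, avg_const]
  rw [e2, ← e1, hav] at hent
  exact hent

theorem mixture {Ω : Type*} [MeasurableSpace Ω] (P : Measure Ω) (Hw : Ω → Cfg n → ℝ)
    (H : Cfg n → ℝ) (hm : ∀ x, Measurable fun w => Hw w x)
    (hint : ∀ x, Integrable (fun w => Real.exp (Hw w x)) P)
    (hH : ∀ x, ∫ w, Real.exp (Hw w x) ∂P = Real.exp (H x))
    (f : Cfg n → ℝ) (hf : ∀ x, 0 < f x) (i : Fin n) :
    Integrable (fun w => ∑ x, Real.exp (Hw w x) * condEnt (Hw w) i f x) P ∧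
    ∫ w, ∑ x, Real.exp (Hw w x) * condEnt (Hw w) i f x ∂P
      ≤ ∑ x, Real.exp (H x) * condEnt H i f x := by
  simp only [Tens.sum_exp_condEnt]
  -- pointwise in x
  have key : ∀ x, Integrable (fun w => Tens.blk (Hw w) i f x) P ∧
      ∫ w, Tens.blk (Hw w) i f x ∂P ≤ Tens.blk H i f x := by
    intro x
    set a : ℝ := ∑ s : ℤˣ, Real.exp (H (Function.update x i s)) with ha
    set b : ℝ := ∑ s : ℤˣ, Real.exp (H (Function.update x i s)) * f (Function.update x i s)
      with hb
    have ha0 : 0 < a := Tens.sum_exp_pos H i x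
    have hb0 : 0 < b :=
      Finset.sum_pos (fun s _ => mul_pos (Real.exp_pos _) (hf _)) Finset.univ_nonempty
    set r := b / a with hr
    have hr0 : 0 < r := div_pos hb0 ha0
    let U : Ω → ℝ := fun w =>
      ∑ s : ℤˣ, Real.exp (Hw w (Function.update x i s)) *
        (f (Function.update x i s) * Real.log (f (Function.update x i s))
          - f (Function.update x i s) * Real.log r - f (Function.update x i s) + r)
    have hU : Integrable U P :=
      integrable_finsetSum _ fun s _ => (hint _).mul_const _
    have hle : ∀ w, Tens.blk (Hw w) i f x ≤ U w := by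
      intro w
      have ha1 : 0 < ∑ s : ℤˣ, Real.exp (Hw w (Function.update x i s)) :=
        Tens.sum_exp_pos (Hw w) i x
      have hb1 : 0 < ∑ s : ℤˣ, Real.exp (Hw w (Function.update x i s)) *
          f (Function.update x i s) :=
        Finset.sum_pos (fun s _ => mul_pos (Real.exp_pos _) (hf _)) Finset.univ_nonempty
      have h := Tens.mul_log_div_ge ha1 hb1 hr0
      have e : U w = ∑ s : ℤˣ, Real.exp (Hw w (Function.update x i s)) *
            (f (Function.update x i s) * Real.log (f (Function.update x i s)))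
          - ((∑ s : ℤˣ, Real.exp (Hw w (Function.update x i s)) * f (Function.update x i s))
              * Real.log r
            + (∑ s : ℤˣ, Real.exp (Hw w (Function.update x i s)) * f (Function.update x i s))
            - (∑ s : ℤˣ, Real.exp (Hw w (Function.update x i s))) * r) := by
        simp only [U, Finset.sum_mul]
        rw [← Finset.sum_add_distrib, ← Finset.sum_sub_distrib, ← Finset.sum_sub_distrib]
        exact Finset.sum_congr rfl fun s _ => by ring
      rw [e]
      simp only [Tens.blk]
      linarith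
    have hmeas : Measurable fun w => Tens.blk (Hw w) i f x := by
      simp only [Tens.blk]
      have h1 : ∀ s : ℤˣ, Measurable fun w => Real.exp (Hw w (Function.update x i s)) :=
        fun s => Real.measurable_exp.comp (hm _)
      have h2 : Measurable fun w => ∑ s : ℤˣ, Real.exp (Hw w (Function.update x i s)) *
          f (Function.update x i s) :=
        Finset.measurable_sum _ fun s _ => (h1 s).mul_const _
      have h3 : Measurable fun w => ∑ s : ℤˣ, Real.exp (Hw w (Function.update x i s)) :=
        Finset.measurable_sum _ fun s _ => h1 s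
      have h4 : Measurable fun w => ∑ s : ℤˣ, Real.exp (Hw w (Function.update x i s)) *
          (f (Function.update x i s) * Real.log (f (Function.update x i s))) :=
        Finset.measurable_sum _ fun s _ => (h1 s).mul_const _
      exact h4.sub (h2.mul (Real.measurable_log.comp (h2.div h3)))
    have hI : Integrable (fun w => Tens.blk (Hw w) i f x) P := by
      refine hU.mono' hmeas.aestronglyMeasurable (Filter.Eventually.of_forall fun w => ?_)
      rw [Real.norm_eq_abs, abs_of_nonneg (Tens.blk_nonneg (Hw w) i f hf x)]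
      exact hle w
    refine ⟨hI, ?_⟩
    refine (integral_mono hI hU hle).trans (le_of_eq ?_)
    have e1 : ∫ w, U w ∂P = ∑ s : ℤˣ, Real.exp (H (Function.update x i s)) *
        (f (Function.update x i s) * Real.log (f (Function.update x i s))
          - f (Function.update x i s) * Real.log r - f (Function.update x i s) + r) := by
      simp only [U]
      rw [integral_finsetSum _ fun s _ => (hint _).mul_const _]
      refine Finset.sum_congr rfl fun s _ => ?_
      rw [integral_mul_const, hH]
    rw [e1]
    have e2 : ∑ s : ℤˣ, Real.exp (H (Function.update x i s)) *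
        (f (Function.update x i s) * Real.log (f (Function.update x i s))
          - f (Function.update x i s) * Real.log r - f (Function.update x i s) + r)
        = ∑ s : ℤˣ, Real.exp (H (Function.update x i s)) *
            (f (Function.update x i s) * Real.log (f (Function.update x i s)))
          - (b * Real.log r + b - a * r) := by
      simp only [ha, hb, Finset.sum_mul]
      rw [← Finset.sum_add_distrib, ← Finset.sum_sub_distrib, ← Finset.sum_sub_distrib]
      exact Finset.sum_congr rfl fun s _ => by ring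
    have e3 : a * r = b := by rw [hr]; field_simp
    rw [e2, e3]
    simp only [Tens.blk]
    rw [← hb, ← ha, ← hr]
    ring
  refine ⟨(integrable_finsetSum _ fun x _ => (key x).1).const_mul _, ?_⟩
  rw [integral_const_mul, integral_finsetSum _ fun x _ => (key x).1]
  exact mul_le_mul_of_nonneg_left (Finset.sum_le_sum fun x _ => (key x).2) (by norm_num)

end Vale.Agent.P150
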