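import Vale.Agent.P150.LocA
import Vale.Agent.P150.KLmean
import Vale.Agent.P150.Tens

/-!
P150 module LOCB: entropy factorisation from uniform covariance bounds.

Let `U(s) = ∫ locZ · ent (locH R h (s²) (s z)) f = ∫ (∑_x f log f e^{locH}) - locPsi`.
`∫ ∑_x f log f e^{locH (s²) (s z) x} dz` does not depend on `s` (Gaussian mgf,
`integral_exp_lin_stdG`), so by `loc_deriv` `U'(s) = - s ∫ F |R(b^f-b)|²`, and
`F|R(b^f-b)|² ≤ kap F |b^f-b|² ≤ 2 A kap Z ent` (`kl_mean` for `H = locH ..`).
So `U' ≥ -2 s kap A U` on `[0,1]`, `U(0) ≤ e^{kap A} U(1)`.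
-/

namespace Vale.Agent.P150

open MeasureTheory ProbabilityTheory
open scoped BigOperators MatrixOrder

variable {n : ℕ}

namespace Locb

open Loca

lemma sq_form (R : Matrix (Fin n) (Fin n) ℝ) (v : Fin n → ℝ) :
    ∑ k, (∑ j, R k j * v j) ^ 2 = ∑ i, ∑ j, (R.transpose * R) i j * v i * v j := by
  simp only [Matrix.mul_apply, Matrix.transpose_apply, pow_two, Finset.sum_mul_sum]
  rw [Finset.sum_comm]
  refine Finset.sum_congr rfl fun i _ => ?_
  rw [Finset.sum_comm]
  refine Finset.sum_congr rfl fun j _ => ?_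
  rw [Finset.sum_mul, Finset.sum_mul]
  exact Finset.sum_congr rfl fun k _ => by ring

lemma qq_eq (R : Matrix (Fin n) (Fin n) ℝ) (x : Cfg n) :
    ∑ k, rx R x k ^ 2 = ∑ i, ∑ j, (R.transpose * R) i j * val (x i) * val (x j) :=
  sq_form R fun j => val (x j)

lemma zlin (R : Matrix (Fin n) (Fin n) ℝ) (z : Fin n → ℝ) (x : Cfg n) :
    ∑ k, z k * rx R x k = lin (fun i => ∑ k, z k * R k i) x := by
  simp only [rx, lin, Finset.mul_sum, Finset.sum_mul]
  rw [Finset.sum_comm]
  exact Finset.sum_congr rfl fun j _ => Finset.sum_congr rfl fun k _ => by ring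

lemma lin_add (a b : Fin n → ℝ) (x : Cfg n) : lin (fun i => a i + b i) x = lin a x + lin b x := by
  simp only [lin, add_mul, Finset.sum_add_distrib]

lemma smul_form (t : ℝ) (K : Matrix (Fin n) (Fin n) ℝ) (x : Cfg n) :
    ∑ i, ∑ j, (t • K) i j * val (x i) * val (x j)
      = t * ∑ i, ∑ j, K i j * val (x i) * val (x j) := by
  simp only [Matrix.smul_apply, smul_eq_mul, Finset.mul_sum]
  exact Finset.sum_congr rfl fun i _ => Finset.sum_congr rfl fun k _ => by ring

lemma locH_add (R : Matrix (Fin n) (Fin n) ℝ) (h : Fin n → ℝ) (t : ℝ) (z h' : Fin n → ℝ)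
    (x : Cfg n) :
    locH R h t z x + lin h' x
      = isH ((1 - t) • (R.transpose * R)) (fun i => h i + (h' i + ∑ k, z k * R k i)) x := by
  unfold locH isH
  rw [smul_form, qq_eq, zlin, lin_add h, lin_add h']
  ring

lemma locH_eq (R : Matrix (Fin n) (Fin n) ℝ) (h : Fin n → ℝ) (t : ℝ) (z : Fin n → ℝ)
    (x : Cfg n) :
    locH R h t z x
      = isH ((1 - t) • (R.transpose * R)) (fun i => h i + ∑ k, z k * R k i) x := by
  unfold locH isH
  rw [smul_form, qq_eq, zlin, lin_add h]
  ring

lemma locH_one (R : Matrix (Fin n) (Fin n) ℝ) (h : Fin n → ℝ) (z : Fin n → ℝ) :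
    locH R h 1 z = lin (fun i => h i + ∑ k, z k * R k i) := by
  funext x
  unfold locH
  rw [zlin, lin_add h]
  ring

lemma locH_zero (R : Matrix (Fin n) (Fin n) ℝ) (h : Fin n → ℝ) :
    locH R h 0 (fun _ => 0) = isH (R.transpose * R) h := by
  funext x
  rw [locH_eq]
  simp

lemma avg_eq (H : Cfg n → ℝ) (g : Cfg n → ℝ) :
    avg H g = (∑ x, g x * Real.exp (H x)) / ∑ x, Real.exp (H x) := by
  simp only [avg, gibbs]
  rw [Finset.sum_div]
  exact Finset.sum_congr rfl fun x _ => by ring

lemma Z_ent (H : Cfg n → ℝ) (f : Cfg n → ℝ) (hf : ∀ x, 0 < f x) :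
    (∑ x, Real.exp (H x)) * ent H f = ∑ x, f x * Real.log (f x) * Real.exp (H x)
      - (∑ x, f x * Real.exp (H x)) * (Real.log (∑ x, f x * Real.exp (H x))
        - Real.log (∑ x, Real.exp (H x))) := by
  have hZ := Z_pos H
  have hF : 0 < ∑ x, f x * Real.exp (H x) :=
    Finset.sum_pos (fun x _ => mul_pos (hf x) (Real.exp_pos _)) Finset.univ_nonempty
  unfold ent
  rw [avg_eq, avg_eq, Real.log_div hF.ne' hZ.ne']
  field_simp

lemma locD_eq (R : Matrix (Fin n) (Fin n) ℝ) (h : Fin n → ℝ) (f : Cfg n → ℝ)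
    (hf : ∀ x, 0 < f x) (t : ℝ) (z : Fin n → ℝ) (k : Fin n) :
    locD R h f t z k = ∑ j, R k j *
      (avg (locH R h t z) (fun x => f x * val (x j)) / avg (locH R h t z) f
        - avg (locH R h t z) (fun x => val (x j))) := by
  have hZ := Z_pos (locH R h t z)
  have hF : 0 < ∑ x, f x * Real.exp (locH R h t z x) :=
    Finset.sum_pos (fun x _ => mul_pos (hf x) (Real.exp_pos _)) Finset.univ_nonempty
  unfold locD locF locZ
  simp only [avg_eq, mul_sub, Finset.sum_sub_distrib]
  congr 1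
  · have e : ∀ j, R k j * ((∑ x, f x * val (x j) * Real.exp (locH R h t z x)) /
        (∑ x, Real.exp (locH R h t z x)) / ((∑ x, f x * Real.exp (locH R h t z x)) /
        ∑ x, Real.exp (locH R h t z x)))
        = (R k j * ∑ x, f x * val (x j) * Real.exp (locH R h t z x)) /
          ∑ x, f x * Real.exp (locH R h t z x) := by
      intro j
      field_simp
    simp only [e]
    rw [← Finset.sum_div]
    congr 1
    simp only [rx, Finset.mul_sum, Finset.sum_mul]
    rw [Finset.sum_comm]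
    exact Finset.sum_congr rfl fun j _ => Finset.sum_congr rfl fun x _ => by ring
  · have e : ∀ j, R k j * ((∑ x, val (x j) * Real.exp (locH R h t z x)) /
        (∑ x, Real.exp (locH R h t z x)))
        = (R k j * ∑ x, val (x j) * Real.exp (locH R h t z x)) /
          ∑ x, Real.exp (locH R h t z x) := by
      intro j
      ring
    simp only [e]
    rw [← Finset.sum_div]
    congr 1
    simp only [rx, Finset.mul_sum, Finset.sum_mul]
    rw [Finset.sum_comm]
    exact Finset.sum_congr rfl fun j _ => Finset.sum_congr rfl fun x _ => by ring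

/-- The differential inequality, pointwise. -/
lemma FD_le (R : Matrix (Fin n) (Fin n) ℝ) (kap A : ℝ) (hA : 0 < A) (hkap : 0 ≤ kap)
    (hR : ∀ v : Fin n → ℝ, ∑ k, (∑ j, R k j * v j) ^ 2 ≤ kap * ∑ i, v i ^ 2)
    (hcov : ∀ t : ℝ, 0 ≤ t → t ≤ 1 → ∀ h v : Fin n → ℝ,
      var (isH (t • (R.transpose * R)) h) (lin v) ≤ A * ∑ i, v i ^ 2)
    (h : Fin n → ℝ) (f : Cfg n → ℝ) (hf : ∀ x, 0 < f x) (t : ℝ) (ht0 : 0 ≤ t) (ht1 : t ≤ 1)
    (z : Fin n → ℝ) :
    locF R h f t z * ∑ k, locD R h f t z k ^ 2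
      ≤ 2 * (kap * A) * (locZ R h t z * ent (locH R h t z) f) := by
  have hZ : 0 < locZ R h t z := Z_pos (locH R h t z)
  have hF : 0 < locF R h f t z :=
    Finset.sum_pos (fun x _ => mul_pos (hf x) (Real.exp_pos _)) Finset.univ_nonempty
  have hkl := kl_mean (locH R h t z) A hA (fun h' v => by
    have e : (fun x => locH R h t z x + lin h' x)
        = isH ((1 - t) • (R.transpose * R)) (fun i => h i + (h' i + ∑ k, z k * R k i)) := by
      funext x
      exact locH_add R h t z h' x
    rw [e]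
    exact hcov (1 - t) (by linarith) (by linarith) _ v) f hf
  set d : Fin n → ℝ := fun j => avg (locH R h t z) (fun x => f x * val (x j)) /
    avg (locH R h t z) f - avg (locH R h t z) (fun x => val (x j)) with hd
  have hFe : locF R h f t z = locZ R h t z * avg (locH R h t z) f := by
    rw [avg_eq]
    unfold locF locZ
    have := (Z_pos (locH R h t z)).ne'
    field_simp
  have h1 : ∑ k, locD R h f t z k ^ 2 ≤ kap * ∑ j, d j ^ 2 := by
    have := hR d
    simp only [locD_eq R h f hf t z]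
    exact this
  have h2 : avg (locH R h t z) f * ∑ j, d j ^ 2 ≤ 2 * A * ent (locH R h t z) f := hkl
  calc locF R h f t z * ∑ k, locD R h f t z k ^ 2
      ≤ locF R h f t z * (kap * ∑ j, d j ^ 2) := mul_le_mul_of_nonneg_left h1 hF.le
    _ = locZ R h t z * kap * (avg (locH R h t z) f * ∑ j, d j ^ 2) := by rw [hFe]; ring
    _ ≤ locZ R h t z * kap * (2 * A * ent (locH R h t z) f) :=
        mul_le_mul_of_nonneg_left h2 (mul_nonneg hZ.le hkap)
    _ = 2 * (kap * A) * (locZ R h t z * ent (locH R h t z) f) := by ring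

lemma int_wt (R : Matrix (Fin n) (Fin n) ℝ) (h : Fin n → ℝ) (s : ℝ) (x : Cfg n) :
    ∫ z, Real.exp (locH R h (s ^ 2) (fun k => s * z k) x) ∂(stdG (Fin n))
      = Real.exp (isH (R.transpose * R) h x) := by
  have e : ∀ z : Fin n → ℝ, Real.exp (locH R h (s ^ 2) (fun k => s * z k) x)
      = Real.exp (1 / 2 * (1 - s ^ 2) * ∑ k, rx R x k ^ 2 + lin h x) *
        Real.exp (∑ k, (s * rx R x k) * z k) := by
    intro z
    rw [← Real.exp_add]
    unfold locH
    congr 2
    exact Finset.sum_congr rfl fun k _ => by ring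
  simp only [e]
  rw [integral_const_mul, integral_exp_lin_stdG, ← Real.exp_add]
  congr 1
  unfold isH
  rw [← qq_eq]
  have : ∑ k, (s * rx R x k) ^ 2 = s ^ 2 * ∑ k, rx R x k ^ 2 := by
    rw [Finset.mul_sum]
    exact Finset.sum_congr rfl fun k _ => by ring
  rw [this]
  ring

lemma integrable_wt (R : Matrix (Fin n) (Fin n) ℝ) (h : Fin n → ℝ) (t s : ℝ) (x : Cfg n) :
    Integrable (fun z => Real.exp (locH R h t (fun k => s * z k) x)) (stdG (Fin n)) :=
  ((ug_wt R h x).eg t s).integrable (cont_wt R h t s x)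

lemma int_flog (R : Matrix (Fin n) (Fin n) ℝ) (h : Fin n → ℝ) (g : Cfg n → ℝ) (s : ℝ) :
    ∫ z, sG R h g (s ^ 2) s z ∂(stdG (Fin n))
      = ∑ x, g x * Real.exp (isH (R.transpose * R) h x) := by
  unfold sG
  rw [integral_finsetSum _ fun x _ => (integrable_wt R h _ s x).const_mul (g x)]
  exact Finset.sum_congr rfl fun x _ => by rw [integral_const_mul, int_wt]

lemma integrable_sG (R : Matrix (Fin n) (Fin n) ℝ) (h : Fin n → ℝ) (g : Cfg n → ℝ) (t s : ℝ) :
    Integrable (sG R h g t s) (stdG (Fin n)) :=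
  ((ug_sG R h g).eg t s).integrable (cont_sG R h g t s)

/-- `U`. -/
noncomputable def uU (R : Matrix (Fin n) (Fin n) ℝ) (h : Fin n → ℝ) (f : Cfg n → ℝ) (s : ℝ) : ℝ :=
  ∫ z, locZ R h (s ^ 2) (fun k => s * z k) * ent (locH R h (s ^ 2) (fun k => s * z k)) f
    ∂(stdG (Fin n))

lemma Zent_eq (R : Matrix (Fin n) (Fin n) ℝ) (h : Fin n → ℝ) (f : Cfg n → ℝ)
    (hf : ∀ x, 0 < f x) (t s : ℝ) (z : Fin n → ℝ) :
    locZ R h t (fun k => s * z k) * ent (locH R h t (fun k => s * z k)) f
      = sG R h (fun x => f x * Real.log (f x)) t s z - locPsi R h f t (fun k => s * z k) := by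
  unfold locZ locPsi locF locZ sG
  exact Z_ent _ f hf

lemma integrable_Zent (R : Matrix (Fin n) (Fin n) ℝ) (h : Fin n → ℝ) (f : Cfg n → ℝ)
    (hf : ∀ x, 0 < f x) (t s : ℝ) :
    Integrable (fun z => locZ R h t (fun k => s * z k) *
      ent (locH R h t (fun k => s * z k)) f) (stdG (Fin n)) := by
  simp only [Zent_eq R h f hf]
  exact (integrable_sG R h _ t s).sub (locPsi_integrable R h f hf t s)

lemma uU_eq (R : Matrix (Fin n) (Fin n) ℝ) (h : Fin n → ℝ) (f : Cfg n → ℝ)
    (hf : ∀ x, 0 < f x) (s : ℝ) :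
    uU R h f s = ∑ x, f x * Real.log (f x) * Real.exp (isH (R.transpose * R) h x)
      - ∫ z, locPsi R h f (s ^ 2) (fun k => s * z k) ∂(stdG (Fin n)) := by
  unfold uU
  simp only [Zent_eq R h f hf]
  rw [integral_sub (integrable_sG R h _ _ s) (locPsi_integrable R h f hf _ s), int_flog]

lemma uU_deriv (R : Matrix (Fin n) (Fin n) ℝ) (h : Fin n → ℝ) (f : Cfg n → ℝ)
    (hf : ∀ x, 0 < f x) (s : ℝ) :
    HasDerivAt (uU R h f) (-(s * ∫ z, locF R h f (s ^ 2) (fun k => s * z k) *
        ∑ k, locD R h f (s ^ 2) (fun k => s * z k) k ^ 2 ∂(stdG (Fin n)))) s := by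
  have e : uU R h f = fun s => ∑ x, f x * Real.log (f x) * Real.exp (isH (R.transpose * R) h x)
      - ∫ z, locPsi R h f (s ^ 2) (fun k => s * z k) ∂(stdG (Fin n)) :=
    funext fun s => uU_eq R h f hf s
  rw [e]
  exact (loc_deriv R h f hf s).const_sub _

lemma uU_mono (R : Matrix (Fin n) (Fin n) ℝ) (kap A : ℝ) (hA : 0 < A) (hkap : 0 ≤ kap)
    (hR : ∀ v : Fin n → ℝ, ∑ k, (∑ j, R k j * v j) ^ 2 ≤ kap * ∑ i, v i ^ 2)
    (hcov : ∀ t : ℝ, 0 ≤ t → t ≤ 1 → ∀ h v : Fin n → ℝ,
      var (isH (t • (R.transpose * R)) h) (lin v) ≤ A * ∑ i, v i ^ 2)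
    (h : Fin n → ℝ) (f : Cfg n → ℝ) (hf : ∀ x, 0 < f x) :
    uU R h f 0 ≤ Real.exp (kap * A) * uU R h f 1 := by
  let g : ℝ → ℝ := fun s => uU R h f s * Real.exp (kap * A * s ^ 2)
  have hg : ∀ s, HasDerivAt g ((-(s * ∫ z, locF R h f (s ^ 2) (fun k => s * z k) *
        ∑ k, locD R h f (s ^ 2) (fun k => s * z k) k ^ 2 ∂(stdG (Fin n)))
          + 2 * s * (kap * A) * uU R h f s) * Real.exp (kap * A * s ^ 2)) s := by
    intro s
    have h1 := uU_deriv R h f hf s
    have h2 : HasDerivAt (fun s : ℝ => Real.exp (kap * A * s ^ 2))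
        (Real.exp (kap * A * s ^ 2) * (2 * s * (kap * A))) s := by
      have := ((hasDerivAt_pow 2 s).const_mul (kap * A)).exp
      refine this.congr_deriv ?_
      simp only [Nat.cast_ofNat]
      ring
    refine (h1.mul h2).congr_deriv ?_
    ring
  have hmono : MonotoneOn g (Set.Icc 0 1) := by
    refine monotoneOn_of_deriv_nonneg (convex_Icc 0 1)
      (fun s _ => (hg s).continuousAt.continuousWithinAt)
      (fun s _ => (hg s).differentiableAt.differentiableWithinAt) ?_
    intro s hs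
    rw [interior_Icc] at hs
    rw [(hg s).deriv]
    refine mul_nonneg ?_ (Real.exp_pos _).le
    have hle : ∫ z, locF R h f (s ^ 2) (fun k => s * z k) *
        ∑ k, locD R h f (s ^ 2) (fun k => s * z k) k ^ 2 ∂(stdG (Fin n))
          ≤ 2 * (kap * A) * uU R h f s := by
      unfold uU
      rw [← integral_const_mul]
      refine integral_mono (locFD_integrable R h f hf _ s)
        ((integrable_Zent R h f hf _ s).const_mul _) fun z => ?_
      exact FD_le R kap A hA hkap hR hcov h f hf (s ^ 2) (sq_nonneg s)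
        (by nlinarith [hs.1, hs.2]) _
    nlinarith [hs.1, mul_le_mul_of_nonneg_left hle hs.1.le]
  have := hmono (Set.left_mem_Icc.2 zero_le_one) (Set.right_mem_Icc.2 zero_le_one) zero_le_one
  simpa [g, mul_comm] using this

end Locb

open Locb Loca

theorem ent_factor (R : Matrix (Fin n) (Fin n) ℝ) (kap A : ℝ) (hA : 0 < A) (hkap : 0 ≤ kap)
    (hR : ∀ v : Fin n → ℝ, ∑ k, (∑ j, R k j * v j) ^ 2 ≤ kap * ∑ i, v i ^ 2)
    (hcov : ∀ t : ℝ, 0 ≤ t → t ≤ 1 → ∀ h v : Fin n → ℝ,
      var (isH (t • (R.transpose * R)) h) (lin v) ≤ A * ∑ i, v i ^ 2)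
    (h : Fin n → ℝ) (f : Cfg n → ℝ) (hf : ∀ x, 0 < f x) :
    ent (isH (R.transpose * R) h) f ≤
      Real.exp (kap * A) * ∑ i, avg (isH (R.transpose * R) h)
        (condEnt (isH (R.transpose * R) h) i f) := by
  have hU := uU_mono R kap A hA hkap hR hcov h f hf
  set H := isH (R.transpose * R) h with hH
  have hZ := Z_pos H
  have h0 : uU R h f 0 = (∑ x, Real.exp (H x)) * ent H f := by
    unfold uU
    have e : ∀ z : Fin n → ℝ, (fun k => (0 : ℝ) * z k) = fun _ => 0 := by
      intro z; funext k; rw [zero_mul]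
    have e2 : (0 : ℝ) ^ 2 = 0 := by norm_num
    simp only [e, e2]
    rw [integral_const]
    simp only [locZ, locH_zero, measureReal_def, measure_univ, ENNReal.toReal_one, one_smul]
    rfl
  have hmix : ∀ i : Fin n, _ := fun i => mixture (stdG (Fin n)) (fun z => locH R h 1 z) H
    (fun x => by
      unfold locH
      fun_prop)
    (fun x => by
      have := integrable_wt R h 1 1 x
      simpa only [one_mul] using this)
    (fun x => by
      have := int_wt R h 1 x
      simpa only [one_mul, one_pow] using this) f hf i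
  have h1 : uU R h f 1 ≤ ∑ i, ∑ x, Real.exp (H x) * condEnt H i f x := by
    calc uU R h f 1 = ∫ z, locZ R h 1 z * ent (locH R h 1 z) f ∂(stdG (Fin n)) := by
          unfold uU; simp only [one_mul, one_pow]
      _ ≤ ∫ z, ∑ i, ∑ x, Real.exp (locH R h 1 z x) * condEnt (locH R h 1 z) i f x
            ∂(stdG (Fin n)) := by
          refine integral_mono ?_ (integrable_finsetSum _ fun i _ => (hmix i).1) fun z => ?_
          · have := integrable_Zent R h f hf 1 1
            simpa only [one_mul] using this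
          · have ht := tens (fun i => h i + ∑ k, z k * R k i) f hf
            rw [← locH_one R h z] at ht
            have hz : 0 < ∑ x, Real.exp (locH R h 1 z x) := Z_pos _
            calc locZ R h 1 z * ent (locH R h 1 z) f
                ≤ (∑ x, Real.exp (locH R h 1 z x)) *
                  ∑ i, avg (locH R h 1 z) (condEnt (locH R h 1 z) i f) :=
                  mul_le_mul_of_nonneg_left ht hz.le
              _ = ∑ i, ∑ x, Real.exp (locH R h 1 z x) * condEnt (locH R h 1 z) i f x := by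
                  rw [Finset.mul_sum]
                  refine Finset.sum_congr rfl fun i _ => ?_
                  rw [avg_eq, mul_div_cancel₀ _ hz.ne']
                  exact Finset.sum_congr rfl fun x _ => mul_comm _ _
      _ = ∑ i, ∫ z, ∑ x, Real.exp (locH R h 1 z x) * condEnt (locH R h 1 z) i f x
            ∂(stdG (Fin n)) := integral_finsetSum _ fun i _ => (hmix i).1
      _ ≤ ∑ i, ∑ x, Real.exp (H x) * condEnt H i f x :=
          Finset.sum_le_sum fun i _ => (hmix i).2
  have e3 : ∑ i, ∑ x, Real.exp (H x) * condEnt H i f x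
      = (∑ x, Real.exp (H x)) * ∑ i, avg H (condEnt H i f) := by
    rw [Finset.mul_sum]
    refine Finset.sum_congr rfl fun i _ => ?_
    rw [avg_eq, mul_div_cancel₀ _ hZ.ne']
    exact Finset.sum_congr rfl fun x _ => mul_comm _ _
  have hfin : (∑ x, Real.exp (H x)) * ent H f ≤
      (∑ x, Real.exp (H x)) * (Real.exp (kap * A) * ∑ i, avg H (condEnt H i f)) := by
    calc (∑ x, Real.exp (H x)) * ent H f = uU R h f 0 := h0.symm
      _ ≤ Real.exp (kap * A) * uU R h f 1 := hU
      _ ≤ Real.exp (kap * A) * ((∑ x, Real.exp (H x)) * ∑ i, avg H (condEnt H i f)) := by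
          rw [← e3]
          exact mul_le_mul_of_nonneg_left h1 (Real.exp_pos _).le
      _ = _ := by ring
  exact le_of_mul_le_mul_left hfin hZ

/-- Same for `J` with `-kap0 ≤ J ≤ kap1` as a quadratic form: take `K = J + kap0 I = RᵀR`;
`isH K h = isH J h + const`, so Gibbs measures, `ent`, `condEnt` agree. -/
theorem ent_factor_J (J : Matrix (Fin n) (Fin n) ℝ) (hJ : ∀ i j, J i j = J j i)
    (kap0 kap1 A : ℝ) (hA : 0 < A) (h01 : 0 ≤ kap0 + kap1)
    (hlo : ∀ v : Fin n → ℝ, -kap0 * ∑ i, v i ^ 2 ≤ ∑ i, ∑ j, J i j * v i * v j)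
    (hup : ∀ v : Fin n → ℝ, ∑ i, ∑ j, J i j * v i * v j ≤ kap1 * ∑ i, v i ^ 2)
    (hcov : ∀ t : ℝ, 0 ≤ t → t ≤ 1 → ∀ h v : Fin n → ℝ,
      var (isH (t • J) h) (lin v) ≤ A * ∑ i, v i ^ 2)
    (h : Fin n → ℝ) (f : Cfg n → ℝ) (hf : ∀ x, 0 < f x) :
    ent (isH J h) f ≤
      Real.exp ((kap0 + kap1) * A) * ∑ i, avg (isH J h) (condEnt (isH J h) i f) := by
  classical
  set K : Matrix (Fin n) (Fin n) ℝ := J + kap0 • (1 : Matrix (Fin n) (Fin n) ℝ) with hK
  have hKform : ∀ v : Fin n → ℝ, ∑ i, ∑ j, K i j * v i * v j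
      = ∑ i, ∑ j, J i j * v i * v j + kap0 * ∑ i, v i ^ 2 := by
    intro v
    rw [Finset.mul_sum, ← Finset.sum_add_distrib]
    refine Finset.sum_congr rfl fun i _ => ?_
    have e : ∀ j, K i j * v i * v j = J i j * v i * v j
        + if i = j then kap0 * v i ^ 2 else 0 := by
      intro j
      simp only [hK, Matrix.add_apply, Matrix.smul_apply, Matrix.one_apply, smul_eq_mul]
      by_cases hij : i = j
      · subst hij; simp only [if_true]; ring
      · simp only [if_neg hij]; ring
    simp only [e]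
    rw [Finset.sum_add_distrib]
    simp
  have hpsd : K.PosSemidef := by
    rw [Matrix.posSemidef_iff_dotProduct_mulVec]
    refine ⟨?_, fun v => ?_⟩
    · ext i j
      simp only [hK, Matrix.conjTranspose_apply, Matrix.add_apply, Matrix.smul_apply,
        Matrix.one_apply, star_trivial, hJ j i, eq_comm (a := j) (b := i)]
    · have e : star v ⬝ᵥ K.mulVec v = ∑ i, ∑ j, K i j * v i * v j := by
        simp only [dotProduct, Matrix.mulVec, Pi.star_apply, star_trivial, Finset.mul_sum]
        exact Finset.sum_congr rfl fun i _ => Finset.sum_congr rfl fun j _ => by ring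
      rw [e, hKform]
      have := hlo v
      linarith
  obtain ⟨R, hR⟩ : ∃ R : Matrix (Fin n) (Fin n) ℝ, K = R.transpose * R := by
    obtain ⟨B, hB⟩ := CStarAlgebra.nonneg_iff_eq_star_mul_self.mp hpsd.nonneg
    refine ⟨B, ?_⟩
    rw [hB, Matrix.star_eq_conjTranspose]
    congr 1
  have hval : ∀ x : Cfg n, ∑ i, val (x i) ^ 2 = n := by
    intro x
    simp only [val_sq, Finset.sum_const, Finset.card_univ, Fintype.card_fin, nsmul_eq_mul, mul_one]
  have hgibbs : ∀ (t : ℝ) (h : Fin n → ℝ), gibbs (isH (t • K) h) = gibbs (isH (t • J) h) := by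
    intro t h
    have e : isH (t • K) h = fun x => isH (t • J) h x + 1 / 2 * (t * (kap0 * n)) := by
      funext x
      unfold isH
      rw [smul_form, smul_form, hKform (fun i => val (x i)), hval]
      ring
    rw [e, gibbs_add_const]
  have hvar : ∀ (t : ℝ) (h : Fin n → ℝ) (g : Cfg n → ℝ),
      var (isH (t • K) h) g = var (isH (t • J) h) g := by
    intro t h g
    simp only [var, avg, hgibbs]
  have h1 := hgibbs 1 h
  rw [one_smul, one_smul] at h1
  have key := ent_factor R (kap0 + kap1) A hA h01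
    (by
      intro v
      rw [sq_form, ← hR, hKform]
      have := hup v
      linarith)
    (by
      intro t ht0 ht1 h v
      rw [← hR, hvar]
      exact hcov t ht0 ht1 h v) h f hf
  rw [← hR] at key
  have e1 : ent (isH K h) f = ent (isH J h) f := by
    simp only [ent, avg, h1]
  have e2 : ∀ i, avg (isH K h) (condEnt (isH K h) i f) = avg (isH J h) (condEnt (isH J h) i f) := by
    intro i
    have : condEnt (isH K h) i f = condEnt (isH J h) i f := by
      funext x
      simp only [condEnt, condExp, h1]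
    simp only [avg, h1, this]
  rw [e1] at key
  simpa only [e2] using key

end Vale.Agent.P150
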