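import Vale.Agent.P150.Core
import Vale.Agent.P150.Slow.MixGap

/-!
P150 module MIX: entropy factorisation ⇒ mixing time bound (arbitrary exponent `H`).
-/

namespace Vale.Agent.P150

open scoped BigOperators

variable {n : ℕ}

namespace MixAux

lemma semi_zero (H : Cfg n → ℝ) (f : Cfg n → ℝ) : semi H 0 f = f := by
  unfold semi
  rw [zero_smul, NormedSpace.exp_zero]; rfl

lemma semi_deriv (H : Cfg n → ℝ) (f : Cfg n → ℝ) (t : ℝ) (x : Cfg n) :
    HasDerivAt (fun s : ℝ => semi H s f x) (gen H (semi H t f) x) t := by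
  set A : (Cfg n → ℝ) →L[ℝ] (Cfg n → ℝ) := LinearMap.toContinuousLinearMap (genL H) with hA
  have h1 : HasDerivAt (fun s : ℝ => NormedSpace.exp (s • A)) (A * NormedSpace.exp (t • A)) t :=
    hasDerivAt_exp_smul_const' A t
  have h2 : HasDerivAt (fun s : ℝ => (NormedSpace.exp (s • A)) f)
      ((A * NormedSpace.exp (t • A)) f + (NormedSpace.exp (t • A)) 0) t :=
    h1.clm_apply (hasDerivAt_const t f)
  rw [map_zero, add_zero] at h2
  exact (hasDerivAt_pi.mp h2) x

/-- self-adjointness of the semigroup -/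
lemma semi_symm (H : Cfg n → ℝ) (f g : Cfg n → ℝ) (t : ℝ) :
    avg H (fun x => semi H t f x * g x) = avg H (fun x => f x * semi H t g x) := by
  have hd : ∀ s : ℝ, HasDerivAt
      (fun s : ℝ => avg H (fun x => semi H s f x * semi H (t - s) g x)) 0 s := by
    intro s
    have h1 : ∀ x, HasDerivAt (fun s : ℝ => gibbs H x * (semi H s f x * semi H (t - s) g x))
        (gibbs H x * (gen H (semi H s f) x * semi H (t - s) g x
          + semi H s f x * (-(gen H (semi H (t - s) g) x)))) s := by
      intro x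
      have h2 := semi_deriv H f s x
      have h3 : HasDerivAt (fun s : ℝ => semi H (t - s) g x) (-(gen H (semi H (t - s) g) x)) s := by
        have h4 := semi_deriv H g (t - s) x
        have h5 : HasDerivAt (fun s : ℝ => t - s) (-1) s := by
          simpa using (hasDerivAt_id s).const_sub t
        have h6 := h4.scomp s h5
        have h7 : (-1 : ℝ) • gen H (semi H (t - s) g) x = -(gen H (semi H (t - s) g) x) := by
          rw [smul_eq_mul]; ring
        rw [h7] at h6
        exact h6
      exact (h2.mul h3).const_mul _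
    have h7 := HasDerivAt.fun_sum (u := Finset.univ) (fun x _ => h1 x)
    have e : ∑ x, gibbs H x * (gen H (semi H s f) x * semi H (t - s) g x
          + semi H s f x * (-(gen H (semi H (t - s) g) x))) = 0 := by
      have h8 := Slow.Mixgap.avg_gen_mul H (semi H s f) (semi H (t - s) g)
      have h9 : ∑ x, gibbs H x * (gen H (semi H s f) x * semi H (t - s) g x
          + semi H s f x * (-(gen H (semi H (t - s) g) x))) =
          avg H (fun x => gen H (semi H s f) x * semi H (t - s) g x)
          - avg H (fun x => semi H s f x * gen H (semi H (t - s) g) x) := by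
        rw [← avg_sub]
        simp only [avg]
        exact Finset.sum_congr rfl fun x _ => by ring
      rw [h9, h8, sub_self]
    rw [e] at h7
    exact h7
  have hc := is_const_of_deriv_eq_zero (fun s => (hd s).differentiableAt)
    (fun s => (hd s).deriv) t 0
  simp only [sub_self, sub_zero, semi_zero] at hc
  exact hc

lemma avg_semi (H : Cfg n → ℝ) (f : Cfg n → ℝ) (t : ℝ) : avg H (semi H t f) = avg H f := by
  have hd : ∀ s : ℝ, HasDerivAt (fun s : ℝ => avg H (semi H s f)) 0 s := by
    intro s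
    have h1 : ∀ x, HasDerivAt (fun s : ℝ => gibbs H x * semi H s f x)
        (gibbs H x * gen H (semi H s f) x) s := fun x => (semi_deriv H f s x).const_mul _
    have h7 := HasDerivAt.fun_sum (u := Finset.univ) (fun x _ => h1 x)
    have e : ∑ x, gibbs H x * gen H (semi H s f) x = 0 := Slow.Mixgap.avg_gen H (semi H s f)
    rw [e] at h7
    exact h7
  have hc := is_const_of_deriv_eq_zero (fun s => (hd s).differentiableAt)
    (fun s => (hd s).deriv) t 0
  simp only [semi_zero] at hc
  exact hc

lemma semi_const (H : Cfg n → ℝ) (c : ℝ) (t : ℝ) : semi H t (fun _ => c) = fun _ => c := by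
  have h := Slow.Mixgap.semi_eigen H (fun _ => c) 0 (by
    funext x
    rw [Slow.Mixgap.gen_const]
    simp) t
  rw [h]
  funext x
  simp

/-- the sum of the heat-bath updates, `ℒ + n`. -/
noncomputable def upd (H : Cfg n → ℝ) : (Cfg n → ℝ) →L[ℝ] (Cfg n → ℝ) :=
  LinearMap.toContinuousLinearMap (genL H) + (n : ℝ) • ContinuousLinearMap.id ℝ (Cfg n → ℝ)

lemma upd_apply (H : Cfg n → ℝ) (f : Cfg n → ℝ) (x : Cfg n) :
    upd H f x = ∑ i, condExp H i f x := by
  have h : upd H f x = gen H f x + n * f x := rfl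
  rw [h, gen, Finset.sum_sub_distrib]
  simp

lemma upd_nonneg (H : Cfg n → ℝ) (f : Cfg n → ℝ) (hf : ∀ x, 0 ≤ f x) (x : Cfg n) :
    0 ≤ upd H f x := by
  rw [upd_apply]
  refine Finset.sum_nonneg fun i _ => ?_
  unfold condExp
  exact div_nonneg (Finset.sum_nonneg fun s _ => mul_nonneg (gibbs_nonneg H _) (hf _))
    (Finset.sum_nonneg fun s _ => gibbs_nonneg H _)

lemma upd_pow_nonneg (H : Cfg n → ℝ) (f : Cfg n → ℝ) (hf : ∀ x, 0 ≤ f x) (k : ℕ) :
    ∀ x, 0 ≤ ((upd H) ^ k) f x := by
  induction k with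
  | zero => intro x; simpa using hf x
  | succ k ih =>
    intro x
    rw [pow_succ']
    exact upd_nonneg H _ ih x

lemma exp_upd_nonneg (H : Cfg n → ℝ) (f : Cfg n → ℝ) (hf : ∀ x, 0 ≤ f x) (t : ℝ) (ht : 0 ≤ t)
    (x : Cfg n) : 0 ≤ (NormedSpace.exp (t • upd H)) f x := by
  have h1 := NormedSpace.exp_series_hasSum_exp' (𝕂 := ℝ) (t • upd H)
  have h2 : HasSum (fun k : ℕ => (((k.factorial : ℝ)⁻¹ • (t • upd H) ^ k) f) x)
      ((NormedSpace.exp (t • upd H)) f x) := by
    have h3 := h1.mapL (ContinuousLinearMap.apply ℝ (Cfg n → ℝ) f)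
    have h4 := h3.mapL (ContinuousLinearMap.proj (R := ℝ) (φ := fun _ : Cfg n => ℝ) x)
    exact h4
  refine h2.nonneg fun k => ?_
  rw [smul_pow, smul_smul]
  have h5 : ((((k.factorial : ℝ)⁻¹ * t ^ k) • (upd H) ^ k) f) x =
      ((k.factorial : ℝ)⁻¹ * t ^ k) * (((upd H) ^ k) f x) := rfl
  rw [h5]
  exact mul_nonneg (by positivity) (upd_pow_nonneg H f hf k x)

lemma semi_nonneg (H : Cfg n → ℝ) (f : Cfg n → ℝ) (hf : ∀ x, 0 ≤ f x) (t : ℝ) (ht : 0 ≤ t)
    (x : Cfg n) : 0 ≤ semi H t f x := by
  have h1 : t • LinearMap.toContinuousLinearMap (genL H) =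
      t • upd H + (-(t * n)) • (1 : (Cfg n → ℝ) →L[ℝ] (Cfg n → ℝ)) := by
    ext g y
    change t * gen H g y = t * (gen H g y + n * g y) + (-(t * n)) * g y
    ring
  have h2 : semi H t = NormedSpace.exp (t • upd H) *
      NormedSpace.exp ((-(t * n)) • (1 : (Cfg n → ℝ) →L[ℝ] (Cfg n → ℝ))) := by
    unfold semi
    rw [h1]
    let _ : NormedAlgebra ℚ ((Cfg n → ℝ) →L[ℝ] (Cfg n → ℝ)) := NormedAlgebra.restrictScalars ℚ ℝ _
    exact NormedSpace.exp_add_of_commute (((Commute.one_right _).smul_right _))
  have h3 : NormedSpace.exp ((-(t * n)) • (1 : (Cfg n → ℝ) →L[ℝ] (Cfg n → ℝ))) =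
      Real.exp (-(t * n)) • (1 : (Cfg n → ℝ) →L[ℝ] (Cfg n → ℝ)) := by
    have h4 := (NormedSpace.algebraMap_exp_comm (𝕂 := ℝ) (𝔸 := (Cfg n → ℝ) →L[ℝ] (Cfg n → ℝ)) (-(t * n)))
    rw [Algebra.algebraMap_eq_smul_one, Algebra.algebraMap_eq_smul_one] at h4
    rw [← h4, Real.exp_eq_exp_ℝ]
  rw [h2, h3]
  change 0 ≤ (NormedSpace.exp (t • upd H)) (Real.exp (-(t * n)) • f) x
  rw [map_smul, Pi.smul_apply, smul_eq_mul]
  exact mul_nonneg (Real.exp_nonneg _) (exp_upd_nonneg H f hf t ht x)

lemma semi_pos (H : Cfg n → ℝ) (f : Cfg n → ℝ) (hf : ∀ x, 0 < f x) (t : ℝ) (ht : 0 ≤ t)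
    (x : Cfg n) : 0 < semi H t f x := by
  obtain ⟨x0, hx0⟩ := Finite.exists_min f
  have h1 := semi_nonneg H (f - fun _ => f x0) (fun y => by
    rw [Pi.sub_apply]; linarith [hx0 y]) t ht x
  rw [map_sub, Pi.sub_apply, semi_const] at h1
  have := hf x0
  linarith


lemma avg_condEnt (H : Cfg n → ℝ) (i : Fin n) (u : Cfg n → ℝ) :
    avg H (condEnt H i u) = avg H (fun x => u x * Real.log (u x))
      - avg H (fun x => condExp H i u x * Real.log (condExp H i u x)) := by
  have h : condEnt H i u = fun x => condExp H i (fun y => u y * Real.log (u y)) x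
      - condExp H i u x * Real.log (condExp H i u x) := rfl
  rw [h, avg_sub]
  congr 1
  exact avg_condExp H i _

lemma condExp_pos (H : Cfg n → ℝ) (i : Fin n) (u : Cfg n → ℝ) (hu : ∀ x, 0 < u x) (x : Cfg n) :
    0 < condExp H i u x := by
  unfold condExp
  exact div_pos (Finset.sum_pos (fun s _ => mul_pos (gibbs_pos H _) (hu _)) Finset.univ_nonempty)
    (Finset.sum_pos (fun s _ => gibbs_pos H _) Finset.univ_nonempty)

lemma avg_condExp_log_le (H : Cfg n → ℝ) (i : Fin n) (u : Cfg n → ℝ) (hu : ∀ x, 0 < u x) :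
    avg H (fun x => condExp H i u x * Real.log (u x)) ≤
      avg H (fun x => condExp H i u x * Real.log (condExp H i u x)) := by
  have h1 : avg H (fun x => condExp H i u x * Real.log (u x)) ≤
      avg H (fun x => condExp H i u x * Real.log (condExp H i u x) + (u x - condExp H i u x)) := by
    refine avg_mono H fun x => ?_
    have hb := condExp_pos H i u hu x
    set b := condExp H i u x with hbd
    have h2 : Real.log (u x / b) ≤ u x / b - 1 := Real.log_le_sub_one_of_pos (div_pos (hu x) hb)
    rw [Real.log_div (hu x).ne' hb.ne'] at h2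
    have h3 := mul_le_mul_of_nonneg_left h2 hb.le
    have h4 : b * (u x / b - 1) = u x - b := by
      rw [mul_sub, mul_div_cancel₀ _ hb.ne', mul_one]
    rw [h4] at h3
    linarith
  have h5 : avg H (fun x => condExp H i u x * Real.log (condExp H i u x) + (u x - condExp H i u x))
      = avg H (fun x => condExp H i u x * Real.log (condExp H i u x)) := by
    rw [avg_add, avg_sub]
    have h6 : avg H (fun x => condExp H i u x) = avg H (fun x => u x) := avg_condExp H i u
    rw [h6]; ring
  linarith

/-- entropy production -/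
lemma gen_log_le (H : Cfg n → ℝ) (u : Cfg n → ℝ) (hu : ∀ x, 0 < u x) :
    avg H (fun x => gen H u x * Real.log (u x)) ≤ - ∑ i, avg H (condEnt H i u) := by
  rw [Slow.Mixgap.avg_gen_mul_aux, ← Finset.sum_neg_distrib]
  refine Finset.sum_le_sum fun i _ => ?_
  rw [avg_condEnt]
  have := avg_condExp_log_le H i u hu
  linarith

lemma ent_decay (H : Cfg n → ℝ) (C : ℝ) (hC : 0 < C)
    (hent : ∀ f : Cfg n → ℝ, (∀ x, 0 < f x) → ent H f ≤ C * ∑ i, avg H (condEnt H i f))
    (f : Cfg n → ℝ) (hf : ∀ x, 0 < f x) (hf1 : avg H f = 1) (t : ℝ) (ht : 0 ≤ t) :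
    avg H (fun x => semi H t f x * Real.log (semi H t f x)) ≤
      Real.exp (-(t / C)) * avg H (fun x => f x * Real.log (f x)) := by
  set ψ : ℝ → ℝ := fun s => Real.exp (s / C) *
    avg H (fun x => semi H s f x * Real.log (semi H s f x)) with hψ
  have hd : ∀ s : ℝ, 0 ≤ s → HasDerivAt ψ
      (Real.exp (s / C) * (1 / C) * avg H (fun x => semi H s f x * Real.log (semi H s f x))
      + Real.exp (s / C) * avg H (fun x => gen H (semi H s f) x * Real.log (semi H s f x))) s := by
    intro s hs
    have h1 : ∀ x, HasDerivAt (fun s : ℝ => gibbs H x * (semi H s f x * Real.log (semi H s f x)))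
        (gibbs H x * (gen H (semi H s f) x * Real.log (semi H s f x) + gen H (semi H s f) x)) s := by
      intro x
      have h2 := semi_deriv H f s x
      have hp := semi_pos H f hf s hs x
      have h3 := h2.mul (h2.log hp.ne')
      have e : gen H (semi H s f) x * Real.log (semi H s f x) +
          semi H s f x * (gen H (semi H s f) x / semi H s f x)
          = gen H (semi H s f) x * Real.log (semi H s f x) + gen H (semi H s f) x := by
        rw [mul_div_cancel₀ _ hp.ne']
      rw [e] at h3
      exact h3.const_mul _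
    have h7 := HasDerivAt.fun_sum (u := Finset.univ) (fun x _ => h1 x)
    have e : ∑ x, gibbs H x * (gen H (semi H s f) x * Real.log (semi H s f x)
        + gen H (semi H s f) x) =
        avg H (fun x => gen H (semi H s f) x * Real.log (semi H s f x)) := by
      have h8 := Slow.Mixgap.avg_gen H (semi H s f)
      have h9 := avg_add H (fun x => gen H (semi H s f) x * Real.log (semi H s f x))
        (gen H (semi H s f))
      rw [h8, add_zero] at h9
      exact h9
    rw [e] at h7
    have h10 : HasDerivAt (fun s : ℝ => Real.exp (s / C)) (Real.exp (s / C) * (1 / C)) s :=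
      ((hasDerivAt_id s).div_const C).exp
    exact h10.mul h7
  have hanti : AntitoneOn ψ (Set.Ici 0) := by
    refine antitoneOn_of_deriv_nonpos (convex_Ici 0)
      (fun s hs => (hd s hs).continuousAt.continuousWithinAt)
      (fun s hs => (hd s (by rw [interior_Ici] at hs; exact le_of_lt hs)).differentiableAt.differentiableWithinAt)
      (fun s hs => ?_)
    rw [interior_Ici] at hs
    have hs0 : 0 ≤ s := le_of_lt hs
    rw [(hd s hs0).deriv]
    have hp : ∀ x, 0 < semi H s f x := semi_pos H f hf s hs0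
    have h1 := gen_log_le H (semi H s f) hp
    have h2 := hent (semi H s f) hp
    have h3 : ent H (semi H s f) = avg H (fun x => semi H s f x * Real.log (semi H s f x)) := by
      unfold ent
      rw [avg_semi, hf1, Real.log_one, mul_zero, sub_zero]
    rw [h3] at h2
    have h4 : 1 / C * avg H (fun x => semi H s f x * Real.log (semi H s f x)) ≤
        ∑ i, avg H (condEnt H i (semi H s f)) := by
      rw [one_div, inv_mul_le_iff₀ hC]
      exact h2
    have h5 : 1 / C * avg H (fun x => semi H s f x * Real.log (semi H s f x))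
        + avg H (fun x => gen H (semi H s f) x * Real.log (semi H s f x)) ≤ 0 := by linarith
    have h6 := mul_nonpos_of_nonneg_of_nonpos (Real.exp_nonneg (s / C)) h5
    calc _ = Real.exp (s / C) * (1 / C * avg H (fun x => semi H s f x * Real.log (semi H s f x))
        + avg H (fun x => gen H (semi H s f) x * Real.log (semi H s f x))) := by ring
      _ ≤ 0 := h6
  have h := hanti (Set.mem_Ici.mpr le_rfl) (Set.mem_Ici.mpr ht) ht
  simp only [hψ, zero_div, Real.exp_zero, one_mul, semi_zero] at h
  calc avg H (fun x => semi H t f x * Real.log (semi H t f x))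
      = Real.exp (-(t / C)) * (Real.exp (t / C) *
        avg H (fun x => semi H t f x * Real.log (semi H t f x))) := by
        rw [← mul_assoc, ← Real.exp_add, neg_add_cancel, Real.exp_zero, one_mul]
    _ ≤ _ := mul_le_mul_of_nonneg_left h (Real.exp_nonneg _)

lemma abs_sub_one_le (u : ℝ) (hu : 0 < u) :
    |u - 1| ≤ 8 * (u * Real.log u - u + 1) + 1 / 16 * (u + 1) := by
  set r := Real.sqrt u with hr
  have hr0 : 0 < r := Real.sqrt_pos.mpr hu
  have hr2 : u = r ^ 2 := (Real.sq_sqrt hu.le).symm
  have h1 : Real.log u = 2 * Real.log r := by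
    rw [hr2, Real.log_pow]; norm_num
  have h2 : 1 - 1 / r ≤ Real.log r := by
    have := Real.log_le_sub_one_of_pos (inv_pos.mpr hr0)
    rw [Real.log_inv] at this
    rw [one_div]
    linarith
  have h3 : (r - 1) ^ 2 ≤ u * Real.log u - u + 1 := by
    rw [h1]
    have h4 : r ^ 2 * (2 * (1 - 1 / r)) ≤ r ^ 2 * (2 * Real.log r) :=
      mul_le_mul_of_nonneg_left (by linarith) (by positivity)
    have h5 : r ^ 2 * (2 * (1 - 1 / r)) = 2 * r ^ 2 - 2 * r := by
      field_simp
    rw [hr2]
    nlinarith
  have h6 : |u - 1| ≤ 8 * (r - 1) ^ 2 + 1 / 32 * (r + 1) ^ 2 := by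
    rw [abs_le, hr2]
    constructor
    · nlinarith [sq_nonneg (16 * (r - 1) + (r + 1)), sq_nonneg (16 * (r - 1) - (r + 1))]
    · nlinarith [sq_nonneg (16 * (r - 1) + (r + 1)), sq_nonneg (16 * (r - 1) - (r + 1))]
  have h7 : (r + 1) ^ 2 ≤ 2 * (u + 1) := by
    rw [hr2]; nlinarith [sq_nonneg (r - 1)]
  linarith

end MixAux

open MixAux in
theorem mixing (H : Cfg n → ℝ) (C B : ℝ) (hC : 0 < C) (hB0 : 0 < B)
    (hent : ∀ f : Cfg n → ℝ, (∀ x, 0 < f x) → ent H f ≤ C * ∑ i, avg H (condEnt H i f))
    (hB : ∀ x, Real.log (1 / gibbs H x) ≤ B) (t : ℝ) (ht0 : 0 ≤ t)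
    (ht : C * Real.log (64 * B) ≤ t) (x : Cfg n) :
    tvDist H t x ≤ 1 / 4 := by
  classical
  have hgx := gibbs_pos H x
  have hgx1 : gibbs H x ≤ 1 := by
    rw [← sum_gibbs H]
    exact Finset.single_le_sum (fun y _ => gibbs_nonneg H y) (Finset.mem_univ x)
  set δ : Cfg n → ℝ := (1 / gibbs H x) • (Pi.single x (1 : ℝ) : Cfg n → ℝ) with hδ
  set f : Cfg n → ℝ := (1 / 2 : ℝ) • ((fun _ => (1 : ℝ)) + δ) with hf
  have hδx : δ x = 1 / gibbs H x := by simp [hδ]
  have hδy : ∀ y, y ≠ x → δ y = 0 := by
    intro y hy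
    simp [hδ, hy]
  have hδ0 : ∀ y, 0 ≤ δ y := by
    intro y
    by_cases hy : y = x
    · rw [hy, hδx]; positivity
    · rw [hδy y hy]
  have hfa : ∀ y, f y = 1 / 2 * (1 + δ y) := fun y => rfl
  have hf0 : ∀ y, 0 < f y := by
    intro y
    rw [hfa]
    have := hδ0 y
    linarith
  have havgδ : avg H δ = 1 := by
    unfold avg
    rw [Finset.sum_eq_single x (fun y _ hy => by rw [hδy y hy, mul_zero])
      (fun h => absurd (Finset.mem_univ x) h), hδx, mul_one_div_cancel hgx.ne']
  have hf1 : avg H f = 1 := by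
    have h1 : avg H f = avg H (fun y => 1 / 2 * (1 + δ y)) := rfl
    rw [h1, avg_const_mul, avg_add, avg_const, havgδ]
    norm_num
  -- initial entropy
  have hinit : avg H (fun y => f y * Real.log (f y)) ≤ B := by
    have h1 : ∀ y, f y ≤ 1 / gibbs H x := by
      intro y
      have h2 : 1 ≤ 1 / gibbs H x := by rw [le_div_iff₀ hgx, one_mul]; exact hgx1
      rw [hfa]
      by_cases hy : y = x
      · rw [hy, hδx]; linarith
      · rw [hδy y hy]; linarith
    have h3 : avg H (fun y => f y * Real.log (f y)) ≤ avg H (fun y => B * f y) := by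
      refine avg_mono H fun y => ?_
      have h4 : Real.log (f y) ≤ B := (Real.log_le_log (hf0 y) (h1 y)).trans (hB x)
      have := mul_le_mul_of_nonneg_left h4 (hf0 y).le
      linarith
    rw [avg_const_mul] at h3
    have h5 : avg H (fun y => f y) = 1 := hf1
    rw [h5, mul_one] at h3
    exact h3
  have hdec := ent_decay H C hC hent f hf0 hf1 t ht0
  have hexp : Real.exp (-(t / C)) * B ≤ 1 / 64 := by
    have h1 : Real.log (64 * B) ≤ t / C := by
      rw [le_div_iff₀ hC]; linarith
    have h2 : Real.exp (-(t / C)) ≤ 1 / (64 * B) := by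
      have h3 : Real.exp (-(t / C)) ≤ Real.exp (-Real.log (64 * B)) :=
        Real.exp_le_exp.mpr (by linarith)
      rw [Real.exp_neg (Real.log _), Real.exp_log (by positivity), ← one_div] at h3
      exact h3
    calc Real.exp (-(t / C)) * B ≤ 1 / (64 * B) * B := mul_le_mul_of_nonneg_right h2 hB0.le
      _ = 1 / 64 := by field_simp
  have hent1 : avg H (fun y => semi H t f y * Real.log (semi H t f y)) ≤ 1 / 64 := by
    have := mul_le_mul_of_nonneg_left hinit (Real.exp_nonneg (-(t / C)))
    linarith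
  -- the distance
  have hker : ∀ y, kernel H t x y = gibbs H y * semi H t δ y := by
    intro y
    have h1 := semi_symm H δ (Pi.single y 1) t
    have h2 : avg H (fun z => semi H t δ z * (Pi.single y (1 : ℝ) : Cfg n → ℝ) z) =
        gibbs H y * semi H t δ y := by
      unfold avg
      rw [Finset.sum_eq_single y (fun z _ hz => by
        simp [hz]) (fun h => absurd (Finset.mem_univ y) h)]
      simp
    have h3 : avg H (fun z => δ z * semi H t (Pi.single y 1) z) = kernel H t x y := by
      have h4 : avg H (fun z => δ z * semi H t (Pi.single y 1) z) =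
          ∑ z, gibbs H z * (δ z * semi H t (Pi.single y 1) z) := rfl
      rw [h4, Finset.sum_eq_single x (fun z _ hz => by
        rw [hδy z hz]; ring) (fun h => absurd (Finset.mem_univ x) h), hδx, kernel]
      rw [← mul_assoc, mul_one_div_cancel hgx.ne', one_mul]
    rw [← h2, ← h3, h1]
  have hut : ∀ y, semi H t f y = 1 / 2 * (1 + semi H t δ y) := by
    intro y
    rw [hf, map_smul, map_add, semi_const]
    rfl
  have htv : tvDist H t x = avg H (fun y => |semi H t f y - 1|) := by
    have h0 : avg H (fun y => |semi H t f y - 1|) = ∑ y, gibbs H y * |semi H t f y - 1| := rfl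
    rw [h0]
    unfold tvDist
    rw [Finset.mul_sum]
    refine Finset.sum_congr rfl fun y _ => ?_
    rw [hker, hut]
    have h1 : gibbs H y * semi H t δ y - gibbs H y = gibbs H y * (semi H t δ y - 1) := by ring
    have h2 : 1 / 2 * (1 + semi H t δ y) - 1 = 1 / 2 * (semi H t δ y - 1) := by ring
    rw [h1, h2, abs_mul, abs_mul, abs_of_pos (gibbs_pos H y), abs_of_pos (by norm_num : (0:ℝ) < 1 / 2)]
    ring
  rw [htv]
  have hp : ∀ y, 0 < semi H t f y := semi_pos H f hf0 t ht0
  have h1 : avg H (fun y => |semi H t f y - 1|) ≤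
      avg H (fun y => 8 * (semi H t f y * Real.log (semi H t f y)) + (8 - 8 * semi H t f y)
        + 1 / 16 * (semi H t f y + 1)) := by
    refine avg_mono H fun y => ?_
    have := abs_sub_one_le _ (hp y)
    linarith
  have hsf : avg H (fun y => semi H t f y) = 1 := by
    have := avg_semi H f t
    rw [hf1] at this
    exact this
  rw [avg_add, avg_add, avg_const_mul, avg_sub, avg_const, avg_const_mul, avg_const_mul, avg_add,
    avg_const, hsf] at h1
  linarith

end Vale.Agent.P150
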