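import Vale.Agent.P150.Core

/-!
P150 module SPEC.  Everything here is for an arbitrary exponent `H : Cfg n → ℝ`.
-/

namespace Vale.Agent.P150

open scoped BigOperators

variable {n : ℕ}

namespace Specm

/-- inner product -/
noncomputable def ip (H : Cfg n → ℝ) (f g : Cfg n → ℝ) : ℝ := avg H (fun x => f x * g x)

lemma ip_comm (H : Cfg n → ℝ) (f g : Cfg n → ℝ) : ip H f g = ip H g f := by
  unfold ip; congr 1; funext x; ring

lemma ip_add_left (H : Cfg n → ℝ) (f g h : Cfg n → ℝ) :
    ip H (f + g) h = ip H f h + ip H g h := by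
  unfold ip; rw [← avg_add]; congr 1; funext x; simp only [Pi.add_apply]; ring

lemma ip_smul_left (H : Cfg n → ℝ) (c : ℝ) (f h : Cfg n → ℝ) :
    ip H (c • f) h = c * ip H f h := by
  unfold ip; rw [← avg_const_mul]; congr 1; funext x; simp only [Pi.smul_apply, smul_eq_mul]; ring

lemma ip_add_right (H : Cfg n → ℝ) (f g h : Cfg n → ℝ) :
    ip H h (f + g) = ip H h f + ip H h g := by
  rw [ip_comm, ip_add_left, ip_comm H f, ip_comm H g]

lemma ip_smul_right (H : Cfg n → ℝ) (c : ℝ) (f h : Cfg n → ℝ) :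
    ip H h (c • f) = c * ip H h f := by
  rw [ip_comm, ip_smul_left, ip_comm H f]

lemma ip_self_nonneg (H : Cfg n → ℝ) (f : Cfg n → ℝ) : 0 ≤ ip H f f :=
  avg_nonneg H fun x => mul_self_nonneg _

lemma ip_self_eq_zero (H : Cfg n → ℝ) {f : Cfg n → ℝ} (h : ip H f f = 0) : f = 0 := by
  funext x
  have h1 : ∀ x ∈ Finset.univ, 0 ≤ gibbs H x * (f x * f x) := fun x _ =>
    mul_nonneg (gibbs_nonneg H x) (mul_self_nonneg _)
  have h2 := (Finset.sum_eq_zero_iff_of_nonneg h1).1 h x (Finset.mem_univ x)
  have h3 := (mul_eq_zero.1 h2).resolve_left (gibbs_pos H x).ne'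
  simpa using h3

/-- `Q_i` as a linear map -/
noncomputable def Q (H : Cfg n → ℝ) (i : Fin n) : (Cfg n → ℝ) →ₗ[ℝ] (Cfg n → ℝ) where
  toFun := condExp H i
  map_add' f g := by
    funext x
    simp only [condExp, Pi.add_apply, mul_add, Finset.sum_add_distrib, add_div]
  map_smul' c f := by
    funext x
    simp only [condExp, Pi.smul_apply, smul_eq_mul, RingHom.id_apply]
    rw [← mul_div_assoc, Finset.mul_sum]
    congr 1
    exact Finset.sum_congr rfl fun s _ => by ring

lemma Q_apply (H : Cfg n → ℝ) (i : Fin n) (f : Cfg n → ℝ) : Q H i f = condExp H i f := rfl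

lemma denom_pos (H : Cfg n → ℝ) (i : Fin n) (x : Cfg n) :
    (0 : ℝ) < ∑ s : ℤˣ, gibbs H (Function.update x i s) :=
  Finset.sum_pos (fun s _ => gibbs_pos H _) Finset.univ_nonempty

/-- `Q_i` fixes functions not depending on coordinate `i`. -/
lemma Q_fix (H : Cfg n → ℝ) (i : Fin n) (f : Cfg n → ℝ)
    (hf : ∀ x s, f (Function.update x i s) = f x) : Q H i f = f := by
  funext x
  rw [Q_apply]
  simp only [condExp, hf]
  rw [← Finset.sum_mul, mul_comm, mul_div_assoc, div_self (denom_pos H i x).ne', mul_one]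

lemma Q_idem (H : Cfg n → ℝ) (i : Fin n) (f : Cfg n → ℝ) : Q H i (Q H i f) = Q H i f :=
  Q_fix H i _ fun x s => condExp_update H i f x s

lemma Q_symm (H : Cfg n → ℝ) (i : Fin n) (f g : Cfg n → ℝ) :
    ip H (Q H i f) g = ip H f (Q H i g) := avg_condExp_mul H i f g

/-- `L` as a linear map -/
noncomputable def L (H : Cfg n → ℝ) : (Cfg n → ℝ) →ₗ[ℝ] (Cfg n → ℝ) :=
  ∑ i, (LinearMap.id - Q H i)

lemma L_apply (H : Cfg n → ℝ) (f : Cfg n → ℝ) : L H f = Lop H f := by
  funext x
  simp only [L, Lop, LinearMap.sum_apply, LinearMap.sub_apply, LinearMap.id_apply,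
    Finset.sum_apply, Pi.sub_apply, Q_apply]

lemma L_eq (H : Cfg n → ℝ) (f : Cfg n → ℝ) : L H f = ∑ i, (f - Q H i f) := by
  simp only [L, LinearMap.sum_apply, LinearMap.sub_apply, LinearMap.id_apply]

lemma ip_sum_right (H : Cfg n → ℝ) {ι : Type*} (s : Finset ι) (f : Cfg n → ℝ)
    (g : ι → Cfg n → ℝ) : ip H f (∑ i ∈ s, g i) = ∑ i ∈ s, ip H f (g i) := by
  unfold ip
  rw [← avg_sum]
  congr 1
  funext x
  rw [Finset.sum_apply, Finset.mul_sum]

lemma ip_sub_right (H : Cfg n → ℝ) (f g h : Cfg n → ℝ) :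
    ip H h (f - g) = ip H h f - ip H h g := by
  rw [sub_eq_add_neg, ip_add_right, ← neg_one_smul ℝ g, ip_smul_right]; ring

lemma ip_sub_left (H : Cfg n → ℝ) (f g h : Cfg n → ℝ) :
    ip H (f - g) h = ip H f h - ip H g h := by
  rw [ip_comm, ip_sub_right, ip_comm H f, ip_comm H g]

lemma L_symm (H : Cfg n → ℝ) (f g : Cfg n → ℝ) : ip H (L H f) g = ip H f (L H g) := by
  rw [ip_comm, L_eq, L_eq, ip_sum_right, ip_sum_right]
  refine Finset.sum_congr rfl fun i _ => ?_
  rw [ip_sub_right, ip_sub_right, ip_comm H g f, ip_comm H g, Q_symm]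

lemma ip_Q (H : Cfg n → ℝ) (i : Fin n) (f : Cfg n → ℝ) :
    ip H f (f - Q H i f) = ip H (f - Q H i f) (f - Q H i f) := by
  have h : ip H (Q H i f) (f - Q H i f) = 0 := by
    rw [Q_symm, map_sub, Q_idem, sub_self]
    unfold ip
    simp [avg]
  rw [ip_sub_left H f (Q H i f) (f - Q H i f), h, sub_zero]

lemma dirichlet (H : Cfg n → ℝ) (f : Cfg n → ℝ) :
    ip H f (L H f) = ∑ i, ip H (f - Q H i f) (f - Q H i f) := by
  rw [L_eq, ip_sum_right]
  exact Finset.sum_congr rfl fun i _ => ip_Q H i f

lemma dirichlet_nonneg (H : Cfg n → ℝ) (f : Cfg n → ℝ) : 0 ≤ ip H f (L H f) := by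
  rw [dirichlet]
  exact Finset.sum_nonneg fun i _ => ip_self_nonneg H _

lemma const_of_update {g : Cfg n → ℝ} (h : ∀ i x s, g (Function.update x i s) = g x)
    (x y : Cfg n) : g x = g y := by
  classical
  have key : ∀ s : Finset (Fin n), g (fun j => if j ∈ s then y j else x j) = g x := by
    intro s
    induction s using Finset.induction_on with
    | empty => simp
    | insert a s ha ih =>
        have e : (fun j => if j ∈ insert a s then y j else x j)
            = Function.update (fun j => if j ∈ s then y j else x j) a (y a) := by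
          funext j
          by_cases hj : j = a
          · subst hj; simp
          · simp [Function.update_of_ne hj, Finset.mem_insert, hj]
        rw [e, h, ih]
  have := key Finset.univ
  simpa using this.symm

lemma const_of_L (H : Cfg n → ℝ) {f : Cfg n → ℝ} (hf : L H f = 0) (x y : Cfg n) :
    f x = f y := by
  refine const_of_update (fun i x s => ?_) x y
  have h0 : ip H f (L H f) = 0 := by rw [hf]; unfold ip; simp [avg]
  rw [dirichlet] at h0
  have h1 := (Finset.sum_eq_zero_iff_of_nonneg fun i _ => ip_self_nonneg H _).1 h0 i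
    (Finset.mem_univ i)
  have h2 : f = Q H i f := sub_eq_zero.1 (ip_self_eq_zero H h1)
  rw [h2, Q_apply, condExp_update]

/-- mean as a linear functional -/
noncomputable def mean (H : Cfg n → ℝ) : (Cfg n → ℝ) →ₗ[ℝ] ℝ where
  toFun := avg H
  map_add' f g := avg_add H f g
  map_smul' c f := by
    simp only [RingHom.id_apply, smul_eq_mul]
    exact avg_const_mul H c f

lemma mean_apply (H : Cfg n → ℝ) (f : Cfg n → ℝ) : mean H f = avg H f := rfl

lemma mean_L (H : Cfg n → ℝ) (f : Cfg n → ℝ) : mean H (L H f) = 0 := by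
  rw [mean_apply, L_eq]
  have e : avg H (∑ i, (f - Q H i f)) = ∑ i, avg H (f - Q H i f) := by
    have := map_sum (mean H) (fun i => f - Q H i f) Finset.univ
    exact this
  rw [e]
  refine Finset.sum_eq_zero fun i _ => ?_
  have : avg H (f - Q H i f) = avg H f - avg H (condExp H i f) := avg_sub H f (condExp H i f)
  rw [this, avg_condExp, sub_self]

lemma exists_preimage (H : Cfg n → ℝ) {f : Cfg n → ℝ} (hf : avg H f = 0) :
    ∃ g, L H g = f := by
  let M : Submodule ℝ (Cfg n → ℝ) := LinearMap.ker (mean H)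
  have hmap : ∀ g ∈ M, L H g ∈ M := fun g _ => LinearMap.mem_ker.2 (mean_L H g)
  let L' : M →ₗ[ℝ] M := (L H).restrict hmap
  have hinj : Function.Injective L' := by
    rw [← LinearMap.ker_eq_bot, LinearMap.ker_eq_bot']
    intro g hg
    have h1 : L H g.1 = 0 := by
      have := congrArg Subtype.val hg
      simpa [L'] using this
    have h2 := const_of_L H h1
    have h3 : avg H g.1 = 0 := LinearMap.mem_ker.1 g.2
    apply Subtype.ext
    funext x
    have h4 : g.1 = fun _ => g.1 x := funext fun y => h2 y x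
    rw [h4, avg_const] at h3
    simpa using h3
  have hsurj : Function.Surjective L' := (LinearMap.injective_iff_surjective).1 hinj
  obtain ⟨g, hg⟩ := hsurj ⟨f, LinearMap.mem_ker.2 hf⟩
  exact ⟨g.1, congrArg Subtype.val hg⟩

lemma cauchy (H : Cfg n → ℝ) (f g : Cfg n → ℝ) :
    ip H f (L H g) ^ 2 ≤ ip H f (L H f) * ip H g (L H g) := by
  have h : ∀ t : ℝ, 0 ≤ ip H g (L H g) * (t * t) + 2 * ip H f (L H g) * t + ip H f (L H f) := by
    intro t
    have h1 := dirichlet_nonneg H (f + t • g)
    have h2 : ip H (f + t • g) (L H (f + t • g)) =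
        ip H g (L H g) * (t * t) + 2 * ip H f (L H g) * t + ip H f (L H f) := by
      rw [map_add, map_smul, ip_add_left, ip_add_right, ip_add_right, ip_smul_left, ip_smul_left,
        ip_smul_right, ip_smul_right, ← L_symm H g f, ip_comm H (L H g) f]
      ring
    rw [← h2]; exact h1
  have := discrim_le_zero h
  unfold discrim at this
  nlinarith

lemma poincare0 (H : Cfg n → ℝ) (c : ℝ) (hc : 0 < c)
    (hL : ∀ f : Cfg n → ℝ, c * ip H f (L H f) ≤ ip H (L H f) (L H f))
    (f : Cfg n → ℝ) (hf : avg H f = 0) : c * ip H f f ≤ ip H f (L H f) := by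
  obtain ⟨g, rfl⟩ := exists_preimage H hf
  set f := L H g with hfdef
  have h1 := cauchy H f g
  rw [← hfdef] at h1
  have h2 := hL g
  rw [← hfdef] at h2
  have h3 := dirichlet_nonneg H f
  have h4 := ip_self_nonneg H f
  rcases h4.eq_or_lt with h5 | h5
  · rw [← h5, mul_zero]; exact h3
  · have h6 : c * ip H f f * ip H f f ≤ ip H f (L H f) * ip H f f := by
      calc c * ip H f f * ip H f f = c * ip H f f ^ 2 := by ring
        _ ≤ c * (ip H f (L H f) * ip H g f) := mul_le_mul_of_nonneg_left h1 hc.le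
        _ = ip H f (L H f) * (c * ip H g f) := by ring
        _ ≤ ip H f (L H f) * ip H f f := mul_le_mul_of_nonneg_left h2 h3
    exact le_of_mul_le_mul_right h6 h5

end Specm

open Specm

theorem poincare_of_sq (H : Cfg n → ℝ) (c : ℝ) (hc : 0 < c)
    (hL : ∀ f : Cfg n → ℝ,
      c * avg H (fun x => f x * Lop H f x) ≤ avg H (fun x => (Lop H f x) ^ 2))
    (f : Cfg n → ℝ) :
    c * var H f ≤ avg H (fun x => f x * Lop H f x) := by
  have hL' : ∀ f : Cfg n → ℝ, c * ip H f (L H f) ≤ ip H (L H f) (L H f) := by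
    intro f
    rw [L_apply]
    have := hL f
    simpa only [ip, pow_two] using this
  set m := avg H f with hm
  have hz : avg H (f - fun _ => m) = 0 := by
    have : avg H (f - fun _ => m) = avg H f - avg H (fun _ => m) := avg_sub H f (fun _ => m)
    rw [this, avg_const, hm, sub_self]
  have h1 := poincare0 H c hc hL' (f - fun _ => m) hz
  have e1 : ip H (f - fun _ => m) (f - fun _ => m) = var H f := by
    unfold ip var
    congr 1
    funext x
    simp only [Pi.sub_apply, hm]
    ring
  have e2 : L H (fun _ => m) = 0 := by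
    rw [L_eq]
    refine Finset.sum_eq_zero fun i _ => ?_
    rw [Q_fix H i (fun _ => m) fun _ _ => rfl, sub_self]
  have e3 : ip H (f - fun _ => m) (L H (f - fun _ => m)) = ip H f (L H f) := by
    rw [map_sub, e2, sub_zero, ip_sub_left]
    have : ip H (fun _ => m) (L H f) = 0 := by
      have h2 : ip H (fun _ => m) (L H f) = m * avg H (L H f) := by
        unfold ip
        exact avg_const_mul H m (L H f)
      have h3 := mean_L H f
      rw [mean_apply] at h3
      rw [h2, h3, mul_zero]
    rw [this, sub_zero]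
  rw [e1, e3, L_apply] at h1
  exact h1

theorem cov_le (H : Cfg n → ℝ) (c : ℝ) (hc : 0 < c)
    (hP : ∀ f : Cfg n → ℝ, c * var H f ≤ avg H (fun x => f x * Lop H f x))
    (v : Fin n → ℝ) :
    var H (lin v) ≤ 1 / c * ∑ i, v i ^ 2 := by
  have h1 := hP (lin v)
  have e1 : avg H (fun x => lin v x * Lop H (lin v) x) = ip H (lin v) (L H (lin v)) := by
    rw [L_apply]; rfl
  rw [e1, dirichlet] at h1
  have h2 : ∀ i, ip H (lin v - Q H i (lin v)) (lin v - Q H i (lin v)) ≤ v i ^ 2 := by
    intro i
    let e : Cfg n → ℝ := fun x => val (x i)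
    let r : Cfg n → ℝ := fun x => ∑ j ∈ Finset.univ.erase i, v j * val (x j)
    have hlin : lin v = v i • e + r := by
      funext x
      simp only [lin, e, r, Pi.add_apply, Pi.smul_apply, smul_eq_mul]
      exact (Finset.add_sum_erase Finset.univ (fun j => v j * val (x j)) (Finset.mem_univ i)).symm
    have hr : Q H i r = r := by
      refine Q_fix H i r fun x s => ?_
      simp only [r]
      refine Finset.sum_congr rfl fun j hj => ?_
      rw [Function.update_of_ne (Finset.ne_of_mem_erase hj)]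
    have h3 : lin v - Q H i (lin v) = v i • (e - Q H i e) := by
      rw [hlin, map_add, map_smul, hr, smul_sub]
      abel
    rw [h3, ip_smul_left, ip_smul_right, ← ip_Q, ip_sub_right]
    have h4 : ip H e e = 1 := by
      unfold ip
      have : (fun x : Cfg n => e x * e x) = fun _ => (1 : ℝ) := funext fun x => val_mul_self _
      rw [this, avg_const]
    have h5 : 0 ≤ ip H e (Q H i e) := by
      rw [← Q_idem, ← Q_symm]
      exact ip_self_nonneg H _
    rw [h4]
    nlinarith [sq_nonneg (v i)]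
  have h6 : c * var H (lin v) ≤ ∑ i, v i ^ 2 := h1.trans (Finset.sum_le_sum fun i _ => h2 i)
  rw [one_div, ← div_eq_inv_mul, le_div_iff₀ hc]
  linarith

theorem specGap_ge (H : Cfg n → ℝ) (c : ℝ) (hn : n ≠ 0)
    (hP : ∀ f : Cfg n → ℝ, c * var H f ≤ avg H (fun x => f x * Lop H f x)) :
    c ≤ specGap H := by
  have hvar : ∀ f : Cfg n → ℝ, 0 ≤ var H f := fun f => avg_nonneg H fun x => sq_nonneg _
  unfold specGap
  refine le_csInf ?_ ?_
  · let i0 : Fin n := ⟨0, Nat.pos_of_ne_zero hn⟩
    let f : Cfg n → ℝ := fun x => val (x i0)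
    refine ⟨dir H f / var H f, f, ?_, rfl⟩
    intro h0
    have h1 : ∀ x ∈ Finset.univ, 0 ≤ gibbs H x * (f x - avg H f) ^ 2 := fun x _ =>
      mul_nonneg (gibbs_nonneg H x) (sq_nonneg _)
    have h2 : ∀ x, f x = avg H f := by
      intro x
      have h3 := (Finset.sum_eq_zero_iff_of_nonneg h1).1 h0 x (Finset.mem_univ x)
      have h4 := (mul_eq_zero.1 h3).resolve_left (gibbs_pos H x).ne'
      exact sub_eq_zero.1 (pow_eq_zero_iff (two_ne_zero)|>.1 h4)
    have h5 := (h2 (fun _ => 1)).trans (h2 (fun _ => -1)).symm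
    simp only [f, val_one, val_neg_one] at h5
    norm_num at h5
  · rintro r ⟨f, hf, rfl⟩
    have hpos : 0 < var H f := lt_of_le_of_ne (hvar f) (Ne.symm hf)
    rw [le_div_iff₀ hpos]
    refine (hP f).trans (le_of_eq ?_)
    unfold dir
    congr 1
    funext x
    rw [gen_eq_neg_Lop, neg_neg]

end Vale.Agent.P150
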