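import Vale.Agent.P150.Gap
import Vale.Agent.P150.Spec
import Vale.Agent.P150.LocB
import Vale.Agent.P150.Mix
import Vale.Agent.P150.Bridge

/-!
P150 module MAIN: assembly.
-/

namespace Vale.Agent.P150

open MeasureTheory ProbabilityTheory Filter
open scoped BigOperators Topology

variable {n : ℕ}

namespace Main

/-- `Good` is inherited by `t J`, `0 ≤ t ≤ 1`. -/
lemma good_smul {J : Matrix (Fin n) (Fin n) ℝ} {lam rho tau : ℝ} (hn : n ≠ 0)
    (hG : Good J lam rho tau) (t : ℝ) (ht0 : 0 ≤ t) (ht1 : t ≤ 1) :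
    Good (t • J) lam rho tau := by
  have hlam : 0 ≤ lam := by
    obtain ⟨m, rfl⟩ := Nat.exists_eq_succ_of_ne_zero hn
    have h := hG.quad (Pi.single 0 1)
    have e1 : ∑ i : Fin (m + 1), ∑ j, J i j * (Pi.single (M := fun _ => ℝ) 0 1) i
        * (Pi.single (M := fun _ => ℝ) 0 1) j = J 0 0 := by
      rw [Finset.sum_eq_single 0, Finset.sum_eq_single 0]
      · simp
      · intro j _ hj; simp [hj]
      · simp
      · intro i _ hi; simp [hi]
      · simp
    have e2 : ∑ i : Fin (m + 1), (Pi.single (M := fun _ => ℝ) 0 1) i ^ 2 = (1 : ℝ) := by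
      rw [Finset.sum_eq_single 0]
      · simp
      · intro i _ hi; simp [hi]
      · simp
    rw [e1, e2, hG.diag] at h
    linarith
  have ht2 : t ^ 2 ≤ 1 := by nlinarith
  refine ⟨fun i j => ?_, fun i => ?_, fun v => ?_, fun i => ?_, fun i => ?_, fun i j => ?_⟩
  · simp only [Matrix.smul_apply, smul_eq_mul, hG.symm i j]
  · simp only [Matrix.smul_apply, smul_eq_mul, hG.diag i, mul_zero]
  · have hv : 0 ≤ ∑ i, v i ^ 2 := Finset.sum_nonneg fun i _ => sq_nonneg _
    have e : ∑ i, ∑ j, (t • J) i j * v i * v j = t * ∑ i, ∑ j, J i j * v i * v j := by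
      rw [Finset.mul_sum]
      refine Finset.sum_congr rfl fun i _ => ?_
      rw [Finset.mul_sum]
      refine Finset.sum_congr rfl fun j _ => ?_
      simp only [Matrix.smul_apply, smul_eq_mul]; ring
    rw [e]
    calc t * ∑ i, ∑ j, J i j * v i * v j ≤ t * (lam * ∑ i, v i ^ 2) :=
          mul_le_mul_of_nonneg_left (hG.quad v) ht0
      _ ≤ 1 * (lam * ∑ i, v i ^ 2) := by
          exact mul_le_mul_of_nonneg_right ht1 (mul_nonneg hlam hv)
      _ = _ := one_mul _
  · refine le_trans (Finset.sum_le_sum fun j _ => ?_) (hG.row i)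
    simp only [Matrix.smul_apply, smul_eq_mul]
    rw [mul_pow]
    nlinarith [sq_nonneg (J i j)]
  · refine le_trans (Finset.sum_le_sum fun j _ => ?_) (hG.cub i)
    simp only [Matrix.smul_apply, smul_eq_mul, abs_mul, abs_of_nonneg ht0]
    gcongr
    exact mul_le_of_le_one_left (abs_nonneg _) ht1
  · simp only [Matrix.smul_apply, smul_eq_mul, abs_mul, abs_of_nonneg ht0]
    exact (mul_le_of_le_one_left (abs_nonneg _) ht1).trans (hG.small i j)

/-- Poincaré inequality from `Good`. -/
lemma poincare_good {J : Matrix (Fin n) (Fin n) ℝ} {lam rho tau : ℝ}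
    (hG : Good J lam rho tau) (hc : 0 < 1 - max lam (2 * rho) - 1000 * tau) (h : Fin n → ℝ)
    (f : Cfg n → ℝ) :
    (1 - max lam (2 * rho) - 1000 * tau) * var (isH J h) f
      ≤ avg (isH J h) (fun x => f x * Lop (isH J h) f x) :=
  poincare_of_sq _ _ hc (fun f => gap_ineq J lam rho tau hG h f) f

/-- Lower bound for the Gibbs weights. -/
lemma log_inv_gibbs_le (H : Cfg n → ℝ) (M : ℝ) (hM : ∀ x, |H x| ≤ M) (x : Cfg n) :
    Real.log (1 / gibbs H x) ≤ n * Real.log 2 + 2 * M := by
  have hZ : ∑ y, Real.exp (H y) ≤ 2 ^ n * Real.exp M := by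
    calc ∑ y, Real.exp (H y) ≤ ∑ _y : Cfg n, Real.exp M :=
          Finset.sum_le_sum fun y _ => Real.exp_le_exp.mpr ((le_abs_self _).trans (hM y))
      _ = 2 ^ n * Real.exp M := by
          rw [Finset.sum_const, nsmul_eq_mul, Finset.card_univ]
          simp [Fintype.card_pi]
  have hpos := Z_pos H
  have e : 1 / gibbs H x = (∑ y, Real.exp (H y)) * Real.exp (- H x) := by
    rw [gibbs, Real.exp_neg]; field_simp
  rw [e, Real.log_mul hpos.ne' (Real.exp_pos _).ne', Real.log_exp]
  have h1 : Real.log (∑ y, Real.exp (H y)) ≤ n * Real.log 2 + M := by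
    calc Real.log (∑ y, Real.exp (H y)) ≤ Real.log (2 ^ n * Real.exp M) :=
          Real.log_le_log hpos hZ
      _ = n * Real.log 2 + M := by
          rw [Real.log_mul (by positivity) (Real.exp_pos _).ne', Real.log_pow, Real.log_exp]
  have h2 := (abs_le.mp (hM x)).1
  linarith

/-- The deterministic consequences on the good event, `β < 1/2`. -/
lemma kappa_bound (β ε : ℝ) (hβ0 : 0 ≤ β) (hβ : β < 1 / 2) (hε : 0 < ε) :
    max (2 * β + ε) (2 * (β ^ 2 + ε)) + 1000 * ε ≤ 2 * β + 1002 * ε := by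
  have : max (2 * β + ε) (2 * (β ^ 2 + ε)) ≤ 2 * β + 2 * ε := by
    apply max_le
    · linarith
    · nlinarith
  linarith

end Main

open Main

theorem gap_whp (β : ℝ) (hβ0 : 0 ≤ β) (hβ : β < 1 / 2) (ε : ℝ) (hε : 0 < ε) :
    Tendsto (fun n : ℕ => disorder n {g | specGap (skH n β g) < 1 - 2 * β - ε})
      atTop (𝓝 0) := by
  set δ := min ε (1 / 2 - β) / 2000 with hδ
  have hmin : 0 < min ε (1 / 2 - β) := lt_min hε (by linarith)
  have hδ0 : 0 < δ := by positivity
  have h1 : 2000 * δ ≤ ε := by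
    have := min_le_left ε (1 / 2 - β)
    rw [hδ]; linarith
  have h2 : 2000 * δ ≤ 1 / 2 - β := by
    have := min_le_right ε (1 / 2 - β)
    rw [hδ]; linarith
  refine tendsto_of_tendsto_of_tendsto_of_le_of_le' tendsto_const_nhds
    (good_whp β hβ0 δ hδ0) (Eventually.of_forall fun _ => zero_le) ?_
  filter_upwards [eventually_ne_atTop 0] with n hn
  refine measure_mono fun g hg => ?_
  simp only [Set.mem_ofPred_eq] at hg ⊢
  intro hgood
  have hk := kappa_bound β δ hβ0 hβ hδ0
  have hc : 0 < 1 - max (2 * β + δ) (2 * (β ^ 2 + δ)) - 1000 * δ := by linarith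
  have hge := specGap_ge (skH n β g) _ hn (fun f => by
    rw [skH_eq_isH]
    exact poincare_good hgood.1 hc 0 f)
  linarith

theorem mix_whp (β : ℝ) (hβ0 : 0 ≤ β) (hβ : β < 1 / 2) :
    ∃ C : ℝ, Tendsto (fun n : ℕ => disorder n {g | ¬ tMix (skH n β g) ≤ (C * Real.log n : ℝ)})
      atTop (𝓝 0) := by
  set δ := (1 / 2 - β) / 2000 with hδ
  have hδ0 : 0 < δ := by have : 0 < 1 / 2 - β := by linarith
                         positivity
  have h2 : 2000 * δ ≤ 1 / 2 - β := by rw [hδ]; linarith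
  set c := 1 - max (2 * β + δ) (2 * (β ^ 2 + δ)) - 1000 * δ with hcdef
  have hk := kappa_bound β δ hβ0 hβ hδ0
  have hc : 0 < c := by rw [hcdef]; linarith
  set C := Real.exp ((2 * β + δ + (2 * β + δ)) * (1 / c)) with hC
  have hC0 : 0 < C := Real.exp_pos _
  refine ⟨9 * C, ?_⟩
  refine tendsto_of_tendsto_of_tendsto_of_le_of_le' tendsto_const_nhds
    (good_whp β hβ0 δ hδ0) (Eventually.of_forall fun _ => zero_le) ?_
  filter_upwards [eventually_ge_atTop 2] with n hn
  have hn0 : n ≠ 0 := by omega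
  refine measure_mono fun g hg => ?_
  simp only [Set.mem_ofPred_eq] at hg ⊢
  intro hgood
  apply hg
  -- the covariance bound
  have hcov : ∀ t : ℝ, 0 ≤ t → t ≤ 1 → ∀ h v : Fin n → ℝ,
      var (isH (t • skJ n β g) h) (lin v) ≤ 1 / c * ∑ i, v i ^ 2 := by
    intro t ht0 ht1 h v
    exact cov_le _ c hc (fun f => poincare_good (good_smul hn0 hgood.1 t ht0 ht1) hc h f) v
  have hcpos : 0 < 1 / c := by positivity
  have hent : ∀ f : Cfg n → ℝ, (∀ x, 0 < f x) →
      ent (skH n β g) f ≤ C * ∑ i, avg (skH n β g) (condEnt (skH n β g) i f) := by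
    intro f hf
    rw [skH_eq_isH]
    exact ent_factor_J (skJ n β g) hgood.1.symm (2 * β + δ) (2 * β + δ) (1 / c) hcpos
      (by linarith) hgood.2 hgood.1.quad hcov 0 f hf
  -- size of the exponent
  have hM : ∀ x, |skH n β g x| ≤ n := by
    intro x
    rw [skH_eq_isH]
    have hsq : ∑ i, val (x i) ^ 2 = n := by simp [val_sq]
    have q1 := hgood.1.quad (fun i => val (x i))
    have q2 := hgood.2 (fun i => val (x i))
    rw [hsq] at q1 q2
    have hl : lin (0 : Fin n → ℝ) x = 0 := by simp [lin]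
    have hnpos : (0 : ℝ) ≤ n := Nat.cast_nonneg n
    have hcoef : 2 * β + δ ≤ 2 := by linarith
    have hm := mul_le_mul_of_nonneg_right hcoef hnpos
    unfold isH
    rw [hl, add_zero, abs_le]
    constructor <;> linarith
  have hB : ∀ x, Real.log (1 / gibbs (skH n β g) x) ≤ 3 * n := by
    intro x
    refine (log_inv_gibbs_le _ _ hM x).trans ?_
    have hl2 : Real.log 2 ≤ 1 := by linarith [Real.log_two_lt_d9]
    have hnpos : (0 : ℝ) ≤ n := Nat.cast_nonneg n
    nlinarith
  have hn2 : (2 : ℝ) ≤ n := by exact_mod_cast hn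
  have hlogn : Real.log 2 ≤ Real.log n := Real.log_le_log (by norm_num) hn2
  have hlog2 : 0 < Real.log 2 := Real.log_pos (by norm_num)
  have ht : C * Real.log (64 * (3 * n)) ≤ 9 * C * Real.log n := by
    have e : Real.log (64 * (3 * n)) = Real.log 192 + Real.log n := by
      rw [← Real.log_mul (by norm_num) (by positivity)]; congr 1; ring
    have e2 : Real.log 192 ≤ 8 * Real.log 2 := by
      rw [← Real.log_rpow (by norm_num)]
      apply Real.log_le_log (by norm_num)
      norm_num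
    rw [e]
    nlinarith
  have hr0 : 0 ≤ 9 * C * Real.log n := by positivity
  refine sInf_le ⟨9 * C * Real.log n, hr0, rfl, fun x => ?_⟩
  exact mixing (skH n β g) C (3 * n) hC0 (by positivity) hent hB _ hr0 ht x

end Vale.Agent.P150
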